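import Vale.Agent.P088.R2.H516.O.WB

/-!
# Zone B1: the star density and the outer cut-off (the field `cr` of `HO`)

The Hessian form in the coordinates `p = (A + B) / 2`, `q = (A - B) / 2`.
-/

open Set Filter
open scoped ContDiff Topology

noncomputable section

namespace Vale.Agent.P088.R2.H516.O

open Vale.Agent.P088.R2.H961.GW Vale.Agent.P088.R2.H644 Vale.Agent.P088.R2.H960.W
  Vale.Agent.P088.R2.H747.S Vale.Agent.P088.R2.H551.E Vale.Agent.P088.R2.H86.Z

section alg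

variable {ι : Type*} [Fintype ι]

/-- The sum of the absolute values. -/
def l1 (u : ι → ℝ) : ℝ := ∑ i, |u i|

theorem l1_nonneg (u : ι → ℝ) : 0 ≤ l1 u := Finset.sum_nonneg fun _ _ => abs_nonneg _

theorem l1_sq (u : ι → ℝ) : l1 u ^ 2 ≤ Fintype.card ι * ∑ i, u i ^ 2 := by
  have h := sq_sum_le_card_mul_sum_sq (s := Finset.univ) (f := fun i : ι => |u i|)
  simpa [sq_abs, l1] using h

/-- `∑ m_ij u_i v_j`. -/
def bl (m : ι → ι → ℝ) (u v : ι → ℝ) : ℝ := ∑ i, ∑ j, m i j * u i * v j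

theorem bl_le {m : ι → ι → ℝ} {c : ℝ} (hm : ∀ i j, |m i j| ≤ c) (u v : ι → ℝ) :
    |bl m u v| ≤ c * (l1 u * l1 v) := by
  unfold bl
  refine (Finset.abs_sum_le_sum_abs _ _).trans ?_
  have h : ∀ i, |∑ j, m i j * u i * v j| ≤ c * (|u i| * l1 v) := by
    intro i
    refine (Finset.abs_sum_le_sum_abs _ _).trans ?_
    unfold l1
    rw [Finset.mul_sum, Finset.mul_sum]
    refine Finset.sum_le_sum fun j _ => ?_
    rw [abs_mul, abs_mul, mul_assoc]
    exact mul_le_mul_of_nonneg_right (hm i j) (mul_nonneg (abs_nonneg _) (abs_nonneg _))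
  refine (Finset.sum_le_sum fun i _ => h i).trans (le_of_eq ?_)
  unfold l1
  rw [← Finset.mul_sum, ← Finset.sum_mul]

theorem bl_swap (m : ι → ι → ℝ) (u v : ι → ℝ) : bl m u v = bl (fun i j => m j i) v u := by
  unfold bl
  rw [Finset.sum_comm]
  exact Finset.sum_congr rfl fun i _ => Finset.sum_congr rfl fun j _ => by ring

/-- The bilinear form of the Hessian. -/
def T4 (H M H' : ι → ι → ℝ) (A B P Q : ι → ℝ) : ℝ :=
  bl H A P + (bl M A Q + bl M P B) + bl H' B Q

theorem bl_addL (m : ι → ι → ℝ) (u u' v : ι → ℝ) :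
    bl m (fun i => u i + u' i) v = bl m u v + bl m u' v := by
  unfold bl
  simp only [← Finset.sum_add_distrib]
  exact Finset.sum_congr rfl fun i _ => Finset.sum_congr rfl fun j _ => by ring

/-- The form in the coordinates `p`, `q`. -/
theorem T4_pq (H M H' : ι → ι → ℝ) (p q p' q' : ι → ℝ) :
    T4 H M H' (fun i => p i + q i) (fun i => p i - q i) (fun i => p' i + q' i)
      (fun i => p' i - q' i) =
      bl (fun i j => (H i j + M j i) + (M i j + H' i j)) p p' +
      bl (fun i j => (H i j + M j i) - (M i j + H' i j)) p q' +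
      bl (fun i j => (H i j + M i j) - (M j i + H' i j)) q p' +
      bl (fun i j => (H i j - M j i) - (M i j - H' i j)) q q' := by
  have e : bl M (fun i => p' i + q' i) (fun i => p i - q i) =
      bl (fun i j => M j i) (fun i => p i - q i) (fun i => p' i + q' i) := bl_swap _ _ _
  unfold T4
  rw [e]
  unfold bl
  simp only [← Finset.sum_add_distrib]
  exact Finset.sum_congr rfl fun i _ => Finset.sum_congr rfl fun j _ => by ring

/-- The bound of the bilinear form. -/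
theorem T4_le {H M H' : ι → ι → ℝ} {h₁ h₂ h₃ : ℝ} (hs : ∀ i j, H i j = H j i)
    (hs' : ∀ i j, H' i j = H' j i) (b1 : ∀ i j, |H i j| ≤ h₁) (b2 : ∀ i j, |M i j| ≤ h₁)
    (b3 : ∀ i j, |H' i j| ≤ h₁) (c1 : ∀ i j, |H i j + M j i| ≤ h₂)
    (c2 : ∀ i j, |M i j + H' i j| ≤ h₂)
    (d : ∀ i j, |(H i j + M j i) + (M i j + H' i j)| ≤ h₃) (p q p' q' : ι → ℝ) :
    |T4 H M H' (fun i => p i + q i) (fun i => p i - q i) (fun i => p' i + q' i)
      (fun i => p' i - q' i)| ≤ h₃ * (l1 p * l1 p') + 2 * h₂ * (l1 p * l1 q') +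
        2 * h₂ * (l1 q * l1 p') + 4 * h₁ * (l1 q * l1 q') := by
  rw [T4_pq]
  have e1 := bl_le (c := h₃) d p p'
  have e2 := bl_le (c := 2 * h₂) (m := fun i j => (H i j + M j i) - (M i j + H' i j))
    (fun i j => (abs_sub _ _).trans (by linarith [c1 i j, c2 i j])) p q'
  have e3 := bl_le (c := 2 * h₂) (m := fun i j => (H i j + M i j) - (M j i + H' i j))
    (fun i j => (abs_sub _ _).trans (by
      have k1 := c1 j i
      have k2 := c2 j i
      rw [← hs i j] at k1
      rw [← hs' i j] at k2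
      linarith)) q p'
  have e4 := bl_le (c := 4 * h₁) (m := fun i j => (H i j - M j i) - (M i j - H' i j))
    (fun i j => (abs_sub _ _).trans (by
      have k1 := abs_sub (H i j) (M j i)
      have k2 := abs_sub (M i j) (H' i j)
      linarith [b1 i j, b2 i j, b2 j i, b3 i j])) q q'
  have t1 := abs_add_le (bl (fun i j => (H i j + M j i) + (M i j + H' i j)) p p' +
      bl (fun i j => (H i j + M j i) - (M i j + H' i j)) p q' +
      bl (fun i j => (H i j + M i j) - (M j i + H' i j)) q p')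
      (bl (fun i j => (H i j - M j i) - (M i j - H' i j)) q q')
  have t2 := abs_add_le (bl (fun i j => (H i j + M j i) + (M i j + H' i j)) p p' +
      bl (fun i j => (H i j + M j i) - (M i j + H' i j)) p q')
      (bl (fun i j => (H i j + M i j) - (M j i + H' i j)) q p')
  have t3 := abs_add_le (bl (fun i j => (H i j + M j i) + (M i j + H' i j)) p p')
      (bl (fun i j => (H i j + M j i) - (M i j + H' i j)) p q')
  linarith

/-- The quadratic form. -/
def Q4' (H M H' : ι → ι → ℝ) (A B : ι → ℝ) : ℝ := bl H A A + 2 * bl M A B + bl H' B B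

theorem Q4'_eq (H M H' : ι → ι → ℝ) (A B : ι → ℝ) : Q4' H M H' A B = T4 H M H' A B A B := by
  unfold Q4' T4
  ring

theorem Q4'_cut {H M H' : ι → ι → ℝ} (hs : ∀ i j, H i j = H j i) (hs' : ∀ i j, H' i j = H' j i)
    (c : ℝ) (A B P Q : ι → ℝ) :
    Q4' H M H' (fun i => c * A i - P i) (fun i => c * B i - Q i) =
      c ^ 2 * Q4' H M H' A B - 2 * c * T4 H M H' A B P Q + Q4' H M H' P Q := by
  have e1 : bl H P A = bl H A P := by
    rw [bl_swap]
    unfold bl
    exact Finset.sum_congr rfl fun i _ => Finset.sum_congr rfl fun j _ =>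
      congrArg (· * A i * P j) (hs j i)
  have e2 : bl H' Q B = bl H' B Q := by
    rw [bl_swap]
    unfold bl
    exact Finset.sum_congr rfl fun i _ => Finset.sum_congr rfl fun j _ =>
      congrArg (· * B i * Q j) (hs' j i)
  have e3 : ∀ m : ι → ι → ℝ, ∀ u v u' v' : ι → ℝ,
      bl m (fun i => c * u i - u' i) (fun i => c * v i - v' i) =
      c ^ 2 * bl m u v - c * (bl m u v' + bl m u' v) + bl m u' v' := by
    intro m u v u' v'
    unfold bl
    simp only [Finset.mul_sum, ← Finset.sum_add_distrib, ← Finset.sum_sub_distrib]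
    exact Finset.sum_congr rfl fun i _ => Finset.sum_congr rfl fun j _ => by ring
  unfold Q4' T4
  rw [e3, e3, e3, e1, e2]
  ring

/-- The sizes of `p'`, `q'` for `P = x g`, `Q = y h`. -/
theorem cut_pq {g h : ι → ℝ} {a b x y : ℝ} (ha : l1 g ≤ a) (hb : l1 (fun i => g i + h i) ≤ b) :
    l1 (fun i => (x * g i + y * h i) / 2) ≤ ((a + b) * |x - y| + b * |x + y|) / 2 ∧
    l1 (fun i => (x * g i - y * h i) / 2) ≤ ((a + b) * |x + y| + b * |x - y|) / 2 := by
  have hy : |y| ≤ (|x + y| + |x - y|) / 2 := by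
    have e : y = ((x + y) - (x - y)) / 2 := by ring
    have := abs_sub (x + y) (x - y)
    rw [e, abs_div, abs_two]
    have e2 : (x + y) - (x - y) = 2 * y := by ring
    rw [show (((x + y) - (x - y)) / 2 : ℝ) = y by ring] at *
    rw [e2] at this ⊢
    linarith
  have h0 := l1_nonneg g
  have h1 := l1_nonneg fun i => g i + h i
  have key : ∀ s t : ℝ, ∀ f : ι → ℝ, (∀ i, f i = (s * g i + t * (g i + h i)) / 2) →
      l1 f ≤ (|s| * a + |t| * b) / 2 := by
    intro s t f hf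
    have : l1 f ≤ (|s| * l1 g + |t| * l1 fun i => g i + h i) / 2 := by
      unfold l1
      rw [Finset.mul_sum, Finset.mul_sum, ← Finset.sum_add_distrib, Finset.sum_div]
      refine Finset.sum_le_sum fun i _ => ?_
      rw [hf i, abs_div, abs_two]
      have := abs_add_le (s * g i) (t * (g i + h i))
      rw [abs_mul, abs_mul] at this
      linarith
    have h2 := mul_le_mul_of_nonneg_left ha (abs_nonneg s)
    have h3 := mul_le_mul_of_nonneg_left hb (abs_nonneg t)
    linarith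
  have hb0 : 0 ≤ b := h1.trans hb
  constructor
  · refine (key (x - y) y _ fun i => by ring).trans ?_
    have := mul_le_mul_of_nonneg_right hy hb0
    have h5 := mul_nonneg hb0 (abs_nonneg (x - y))
    have h6 := mul_nonneg hb0 (abs_nonneg (x + y))
    linarith
  · refine (key (x + y) (-y) _ fun i => by ring).trans ?_
    rw [abs_neg]
    have := mul_le_mul_of_nonneg_right hy hb0
    have h5 := mul_nonneg hb0 (abs_nonneg (x - y))
    have h6 := mul_nonneg hb0 (abs_nonneg (x + y))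
    linarith

end alg

/-- The scalar conditions; `G² = g`, `F² = f₀`, `e'² = e`. -/
structure RR (n a b h₁ h₂ h₃ lm lp kp Z G F e' K : ℝ) : Prop where
  n0 : 0 ≤ n
  a0 : 0 ≤ a
  b0 : 0 ≤ b
  h10 : 0 ≤ h₁
  h20 : 0 ≤ h₂
  h30 : 0 ≤ h₃
  l0 : 0 ≤ lm
  k0 : 0 ≤ kp
  Z0 : 0 ≤ Z
  G0 : 0 ≤ G
  F0 : 0 ≤ F
  e0 : 0 ≤ e'
  K0 : 0 ≤ K
  r1 : h₃ * (a + b) ≤ Z * F
  r2 : h₃ * b ≤ Z * e'
  r3 : h₂ * (a + b) ≤ Z * e'
  r4 : h₂ * b ≤ Z * F
  r5 : h₂ * (a + b) ≤ Z * (G * F)
  r6 : h₂ * b ≤ Z * (G * e')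
  r7 : h₁ * (a + b) ≤ Z * (G * e')
  r8 : h₁ * b ≤ Z * (G * F)
  r9 : a + b ≤ K * F
  r10 : b ≤ K * e'
  r11 : G * (a + b) ≤ K * e'
  r12 : G * b ≤ K * F
  r13 : lm * (a + b) ≤ Z * e' ^ 2
  r14 : lm * (a + b) ≤ Z * (e' * F)
  r15 : lp * (a + b) + lm * b + kp * lm * (a + b) ≤ Z * F ^ 2

/-- The Hessian part with the true vector. -/
theorem RR.t1 {n a b h₁ h₂ h₃ lm lp kp Z G F e' K : ℝ}
    (H : RR n a b h₁ h₂ h₃ lm lp kp Z G F e' K) {sp sq sp' sq' u v : ℝ} (p0 : 0 ≤ sp)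
    (q0 : 0 ≤ sq) (u0 : 0 ≤ u) (v0 : 0 ≤ v) (hp : sp' ≤ ((a + b) * v + b * u) / 2)
    (hq : sq' ≤ ((a + b) * u + b * v) / 2) :
    h₃ * (sp * sp') + 2 * h₂ * (sp * sq') + 2 * h₂ * (sq * sp') + 4 * h₁ * (sq * sq') ≤
      Z * ((3 / 2 * sp + 3 * (G * sq)) * (F * v + e' * u)) := by
  have x1 : h₃ * sp' ≤ Z * (F * v + e' * u) / 2 := by
    have := mul_le_mul_of_nonneg_left hp H.h30
    have y1 := mul_le_mul_of_nonneg_right H.r1 v0
    have y2 := mul_le_mul_of_nonneg_right H.r2 u0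
    linarith
  have x2 : h₂ * sq' ≤ Z * (F * v + e' * u) / 2 := by
    have := mul_le_mul_of_nonneg_left hq H.h20
    have y1 := mul_le_mul_of_nonneg_right H.r3 u0
    have y2 := mul_le_mul_of_nonneg_right H.r4 v0
    linarith
  have x3 : h₂ * sp' ≤ Z * (G * (F * v + e' * u)) / 2 := by
    have := mul_le_mul_of_nonneg_left hp H.h20
    have y1 := mul_le_mul_of_nonneg_right H.r5 v0
    have y2 := mul_le_mul_of_nonneg_right H.r6 u0
    linarith
  have x4 : h₁ * sq' ≤ Z * (G * (F * v + e' * u)) / 2 := by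
    have := mul_le_mul_of_nonneg_left hq H.h10
    have y1 := mul_le_mul_of_nonneg_right H.r7 u0
    have y2 := mul_le_mul_of_nonneg_right H.r8 v0
    linarith
  have z1 := mul_le_mul_of_nonneg_left x1 p0
  have z2 := mul_le_mul_of_nonneg_left x2 p0
  have z3 := mul_le_mul_of_nonneg_left x3 q0
  have z4 := mul_le_mul_of_nonneg_left x4 q0
  linarith

/-- The Hessian part of the gradient of the cut-off. -/
theorem RR.t2 {n a b h₁ h₂ h₃ lm lp kp Z G F e' K : ℝ}
    (H : RR n a b h₁ h₂ h₃ lm lp kp Z G F e' K) {sp' sq' u v : ℝ} (p0 : 0 ≤ sp')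
    (q0 : 0 ≤ sq') (u0 : 0 ≤ u) (v0 : 0 ≤ v) (hp : sp' ≤ ((a + b) * v + b * u) / 2)
    (hq : sq' ≤ ((a + b) * u + b * v) / 2) :
    h₃ * (sp' * sp') + 2 * h₂ * (sp' * sq') + 2 * h₂ * (sq' * sp') + 4 * h₁ * (sq' * sq') ≤
      Z * (K * (9 / 4 * (F * v + e' * u) ^ 2)) := by
  have h := H.t1 (sp := sp') (sq := sq') p0 q0 u0 v0 hp hq
  have x1 : sp' ≤ K * (F * v + e' * u) / 2 := by
    have y1 := mul_le_mul_of_nonneg_right H.r9 v0
    have y2 := mul_le_mul_of_nonneg_right H.r10 u0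
    linarith
  have x2 : G * sq' ≤ K * (F * v + e' * u) / 2 := by
    have := mul_le_mul_of_nonneg_left hq H.G0
    have y1 := mul_le_mul_of_nonneg_right H.r11 u0
    have y2 := mul_le_mul_of_nonneg_right H.r12 v0
    linarith
  have R0 : 0 ≤ F * v + e' * u := add_nonneg (mul_nonneg H.F0 v0) (mul_nonneg H.e0 u0)
  have x3 : 3 / 2 * sp' + 3 * (G * sq') ≤ 9 / 4 * (K * (F * v + e' * u)) := by linarith
  have x4 := mul_le_mul_of_nonneg_left (mul_le_mul_of_nonneg_right x3 R0) H.Z0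
  refine h.trans (x4.trans (le_of_eq ?_))
  ring

end Vale.Agent.P088.R2.H516.O
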