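import Vale.Agent.P088.R2.H516.O.Cr

/-!
# Zone B1: the star density and the outer cut-off, II
-/

open Set Filter
open scoped ContDiff Topology

noncomputable section

namespace Vale.Agent.P088.R2.H516.O

open Vale.Agent.P088.R2.H961.GW Vale.Agent.P088.R2.H644 Vale.Agent.P088.R2.H960.W
  Vale.Agent.P088.R2.H747.S Vale.Agent.P088.R2.H551.E Vale.Agent.P088.R2.H86.Z

section alg

variable {ι : Type*} [Fintype ι]

theorem l1_le {u : ι → ℝ} {c : ℝ} (h : ∀ i, |u i| ≤ c) : l1 u ≤ Fintype.card ι * c := by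
  unfold l1
  refine (Finset.sum_le_sum fun i _ => h i).trans ?_
  simp

/-- The terms with `D Λ W`. -/
theorem t3_le {S S' : ι → ι → ℝ} {L₁ L₂ M₁ M₂ g h : ι → ℝ} {a b lm lp kp x y T1 T2 T3 : ℝ}
    (hS : ∀ i j, |S i j| ≤ 2) (hS' : ∀ i j, |S' i j| ≤ 2)
    (hd : ∀ i j, |S i j - S' i j| ≤ kp) (hL₁ : ∀ i, |L₁ i| ≤ lm)
    (hL₂ : ∀ i, |L₂ i| ≤ lm) (hM₁ : ∀ i, |M₁ i| ≤ lm) (hM₂ : ∀ i, |M₂ i| ≤ lm)
    (hp : ∀ i, |(L₁ i + M₁ i) - (L₂ i + M₂ i)| ≤ lp) (l0 : 0 ≤ lm) (k0 : 0 ≤ kp)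
    (ha : l1 g ≤ a) (hb : l1 (fun i => g i + h i) ≤ b)
    (r1 : lm * (a + b) ≤ T1) (r2 : lm * (a + b) ≤ T2)
    (r3 : lp * (a + b) + lm * b + kp * lm * (a + b) ≤ T3) :
    |x ^ 2 * bl S L₁ g + x * y * bl S L₂ g + x * y * bl S' M₁ h + y ^ 2 * bl S' M₂ h| ≤
      Fintype.card ι * (2 * (T1 * (x + y) ^ 2) + 2 * (T2 * (|x + y| * |x - y|)) +
        T3 * (x - y) ^ 2) := by
  set n : ℝ := (Fintype.card ι : ℝ) with hn
  have n0 : 0 ≤ n := Nat.cast_nonneg _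
  have g0 := l1_nonneg g
  have gh0 := l1_nonneg fun i => g i + h i
  have b0 : 0 ≤ b := gh0.trans hb
  have hh : l1 h ≤ a + b := by
    have e : l1 h ≤ l1 g + l1 fun i => g i + h i := by
      unfold l1
      rw [← Finset.sum_add_distrib]
      refine Finset.sum_le_sum fun i _ => ?_
      have e : h i = (g i + h i) - g i := by ring
      have := abs_sub (g i + h i) (g i)
      rw [← e] at this
      linarith
    linarith
  have hg : l1 g ≤ a + b := by linarith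
  have ab0 : 0 ≤ a + b := g0.trans hg
  have bd : ∀ (m : ι → ι → ℝ) (u v : ι → ℝ) (c l d : ℝ), 0 ≤ c → 0 ≤ l →
      (∀ i j, |m i j| ≤ c) → (∀ i, |u i| ≤ l) → l1 v ≤ d → |bl m u v| ≤ c * (n * l * d) := by
    intro m u v c l d hc hl h1 h2 h3
    refine (bl_le h1 u v).trans (mul_le_mul_of_nonneg_left ?_ hc)
    exact mul_le_mul (l1_le h2) h3 (l1_nonneg v) (by positivity)
  have a1 := bd S L₁ g 2 lm (a + b) (by norm_num) l0 hS hL₁ hg
  have a2 := bd S L₂ g 2 lm (a + b) (by norm_num) l0 hS hL₂ hg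
  have a3 := bd S' M₁ h 2 lm (a + b) (by norm_num) l0 hS' hM₁ hh
  have a4 := bd S' M₂ h 2 lm (a + b) (by norm_num) l0 hS' hM₂ hh
  -- the antisymmetric combination
  have e5 : bl S L₁ g - bl S L₂ g - bl S' M₁ h + bl S' M₂ h =
      bl S (fun i => (L₁ i + M₁ i) - (L₂ i + M₂ i)) g -
      bl S (fun i => M₁ i - M₂ i) (fun i => g i + h i) +
      bl (fun i j => S i j - S' i j) (fun i => M₁ i - M₂ i) h := by
    unfold bl
    simp only [← Finset.sum_add_distrib, ← Finset.sum_sub_distrib]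
    exact Finset.sum_congr rfl fun i _ => Finset.sum_congr rfl fun j _ => by ring
  have lp0 : ∀ i : ι, 0 ≤ lp := fun i => (abs_nonneg _).trans (hp i)
  have hMd : ∀ i, |M₁ i - M₂ i| ≤ 2 * lm := fun i =>
    (abs_sub _ _).trans (by linarith [hM₁ i, hM₂ i])
  have a5 : |bl S (fun i => (L₁ i + M₁ i) - (L₂ i + M₂ i)) g| ≤ 2 * (n * lp * (a + b)) := by
    rcases isEmpty_or_nonempty ι with he | ⟨⟨i⟩⟩
    · have n1 : n = 0 := by rw [hn]; simp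
      unfold bl
      simp [n1]
    · exact bd _ _ g 2 lp (a + b) (by norm_num) (lp0 i) hS hp hg
  have a6 := bd S (fun i => M₁ i - M₂ i) (fun i => g i + h i) 2 (2 * lm) b (by norm_num)
    (by linarith) hS hMd hb
  have a7 := bd (fun i j => S i j - S' i j) (fun i => M₁ i - M₂ i) h kp (2 * lm) (a + b) k0
    (by linarith) hd hMd hh
  have a8 : |bl S L₁ g - bl S L₂ g - bl S' M₁ h + bl S' M₂ h| ≤ 4 * (n * T3) := by
    rw [e5]
    have t1 := abs_add_le (bl S (fun i => (L₁ i + M₁ i) - (L₂ i + M₂ i)) g -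
      bl S (fun i => M₁ i - M₂ i) (fun i => g i + h i))
      (bl (fun i j => S i j - S' i j) (fun i => M₁ i - M₂ i) h)
    have t2 := abs_sub (bl S (fun i => (L₁ i + M₁ i) - (L₂ i + M₂ i)) g)
      (bl S (fun i => M₁ i - M₂ i) (fun i => g i + h i))
    have t3 := mul_le_mul_of_nonneg_left r3 n0
    have t4 : 0 ≤ n * (kp * lm * (a + b)) := by positivity
    have t5 : 0 ≤ n * (lp * (a + b)) := by
      rcases isEmpty_or_nonempty ι with he | ⟨⟨i⟩⟩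
      · have n1 : n = 0 := by rw [hn]; simp
        simp [n1]
      · have := lp0 i
        positivity
    linarith
  have e6 : x ^ 2 * bl S L₁ g + x * y * bl S L₂ g + x * y * bl S' M₁ h + y ^ 2 * bl S' M₂ h =
      (x + y) ^ 2 / 4 * (bl S L₁ g + bl S L₂ g + bl S' M₁ h + bl S' M₂ h) +
      (x + y) * (x - y) / 2 * (bl S L₁ g - bl S' M₂ h) +
      (x - y) ^ 2 / 4 * (bl S L₁ g - bl S L₂ g - bl S' M₁ h + bl S' M₂ h) := by ring
  rw [e6]
  have b1 : |bl S L₁ g + bl S L₂ g + bl S' M₁ h + bl S' M₂ h| ≤ 8 * (n * T1) := by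
    have t1 := abs_add_le (bl S L₁ g + bl S L₂ g + bl S' M₁ h) (bl S' M₂ h)
    have t2 := abs_add_le (bl S L₁ g + bl S L₂ g) (bl S' M₁ h)
    have t3 := abs_add_le (bl S L₁ g) (bl S L₂ g)
    have t4 := mul_le_mul_of_nonneg_left r1 n0
    linarith
  have b2 : |bl S L₁ g - bl S' M₂ h| ≤ 4 * (n * T2) := by
    have t1 := abs_sub (bl S L₁ g) (bl S' M₂ h)
    have t4 := mul_le_mul_of_nonneg_left r2 n0
    linarith
  have t1 := abs_add_le ((x + y) ^ 2 / 4 * (bl S L₁ g + bl S L₂ g + bl S' M₁ h + bl S' M₂ h) +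
      (x + y) * (x - y) / 2 * (bl S L₁ g - bl S' M₂ h))
      ((x - y) ^ 2 / 4 * (bl S L₁ g - bl S L₂ g - bl S' M₁ h + bl S' M₂ h))
  have t2 := abs_add_le ((x + y) ^ 2 / 4 * (bl S L₁ g + bl S L₂ g + bl S' M₁ h + bl S' M₂ h))
      ((x + y) * (x - y) / 2 * (bl S L₁ g - bl S' M₂ h))
  have u1 : |(x + y) ^ 2 / 4 * (bl S L₁ g + bl S L₂ g + bl S' M₁ h + bl S' M₂ h)| ≤
      (x + y) ^ 2 / 4 * (8 * (n * T1)) := by
    rw [abs_mul, abs_of_nonneg (by positivity : (0 : ℝ) ≤ (x + y) ^ 2 / 4)]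
    exact mul_le_mul_of_nonneg_left b1 (by positivity)
  have u2 : |(x + y) * (x - y) / 2 * (bl S L₁ g - bl S' M₂ h)| ≤
      |x + y| * |x - y| / 2 * (4 * (n * T2)) := by
    rw [abs_mul, abs_div, abs_mul, abs_two]
    exact mul_le_mul_of_nonneg_left b2 (by positivity)
  have u3 : |(x - y) ^ 2 / 4 * (bl S L₁ g - bl S L₂ g - bl S' M₁ h + bl S' M₂ h)| ≤
      (x - y) ^ 2 / 4 * (4 * (n * T3)) := by
    rw [abs_mul, abs_of_nonneg (by positivity : (0 : ℝ) ≤ (x - y) ^ 2 / 4)]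
    exact mul_le_mul_of_nonneg_left a8 (by positivity)
  linarith

end alg

variable {E ι : Type*} [NormedAddCommGroup E] [NormedSpace ℝ E] [Fintype ι]

/-- Arithmetic. -/
theorem cr_ar {n Z K G F e' sp sq X Y u v t₁ t₂ t₃ : ℝ} (n0 : 0 ≤ n) (Z0 : 0 ≤ Z) (K0 : 0 ≤ K)
    (X0 : 0 ≤ X) (Y0 : 0 ≤ Y)
    (q1 : t₁ ≤ Z * ((3 / 2 * sp + 3 * (G * sq)) * (F * v + e' * u)))
    (q2 : t₂ ≤ Z * (K * (9 / 4 * (F * v + e' * u) ^ 2)))
    (q3 : t₃ ≤ n * (2 * (Z * e' ^ 2 * u ^ 2) + 2 * (Z * (e' * F) * (u * v)) +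
      Z * F ^ 2 * v ^ 2)) (spn : sp ^ 2 ≤ n * (X / 2)) (sqs : sq ^ 2 ≤ n * (Y / 4)) :
    16 * t₁ + 8 * t₂ + 8 * t₃ ≤ (72 + 36 * K + 24 * n) * (Z * (X + G ^ 2 * Y +
      (e' ^ 2 * u ^ 2 + F ^ 2 * v ^ 2))) := by
  have R2 : (F * v + e' * u) ^ 2 ≤ 2 * (e' ^ 2 * u ^ 2 + F ^ 2 * v ^ 2) := by
    nlinarith [sq_nonneg (F * v - e' * u)]
  have w1 : 16 * ((3 / 2 * sp + 3 * (G * sq)) * (F * v + e' * u)) ≤
      36 * (F * v + e' * u) ^ 2 + 6 * (n * X) + 6 * (n * (G ^ 2 * Y)) := by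
    generalize F * v + e' * u = R
    have y1 := sq_nonneg (sp - R)
    have y2 := sq_nonneg (G * sq - R)
    have y3 := mul_le_mul_of_nonneg_left sqs (sq_nonneg G)
    linarith
  have w2 := mul_le_mul_of_nonneg_left w1 Z0
  have w4 := mul_le_mul_of_nonneg_left R2 (mul_nonneg Z0 K0)
  have w5 := mul_le_mul_of_nonneg_left R2 Z0
  have w6 := mul_nonneg (mul_nonneg n0 Z0) (sq_nonneg (e' * u - F * v))
  have w7 : 0 ≤ n * (Z * (F ^ 2 * v ^ 2)) := by positivity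
  have z1 : 0 ≤ Z * X := mul_nonneg Z0 X0
  have z2 : 0 ≤ Z * (G ^ 2 * Y) := mul_nonneg Z0 (mul_nonneg (sq_nonneg _) Y0)
  have z4 := mul_nonneg K0 z1
  have z5 := mul_nonneg K0 z2
  have z6 := mul_nonneg n0 z1
  have z7 := mul_nonneg n0 z2
  linarith

theorem cr_ar1 {c t₁ t₂ t₃ : ℝ} (hc : |c| ≤ 1) :
    |-(16 * c * t₁) + 8 * t₂ + 8 * c * t₃| ≤ 16 * |t₁| + 8 * |t₂| + 8 * |t₃| := by
  have y1 := abs_add_le (-(16 * c * t₁) + 8 * t₂) (8 * c * t₃)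
  have y2 := abs_add_le (-(16 * c * t₁)) (8 * t₂)
  have y3 : |-(16 * c * t₁)| ≤ 16 * |t₁| := by
    rw [abs_neg, abs_mul, abs_mul, abs_of_nonneg (by norm_num : (0 : ℝ) ≤ 16)]
    nlinarith [mul_le_mul_of_nonneg_right hc (abs_nonneg t₁)]
  have y4 : |8 * t₂| = 8 * |t₂| := by
    rw [abs_mul, abs_of_nonneg (by norm_num : (0 : ℝ) ≤ 8)]
  have y5 : |8 * c * t₃| ≤ 8 * |t₃| := by
    rw [abs_mul, abs_mul, abs_of_nonneg (by norm_num : (0 : ℝ) ≤ 8)]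
    nlinarith [mul_le_mul_of_nonneg_right hc (abs_nonneg t₃)]
  linarith

/-- The bounds of the Hessian and of `D Λ W` at a point. -/
structure HL (σ τ : Sl E ι) (W : E → ℝ) (h₁ h₂ h₃ lm lp kp : ℝ) (z : E) : Prop where
  b1 : ∀ i j, |σ.Hc W i j z| ≤ h₁
  b2 : ∀ i j, |Ch.Mc σ τ W i j z| ≤ h₁
  b3 : ∀ i j, |τ.Hc W i j z| ≤ h₁
  c1 : ∀ i j, |σ.Hc W i j z + Ch.Mc σ τ W j i z| ≤ h₂
  c2 : ∀ i j, |Ch.Mc σ τ W i j z + τ.Hc W i j z| ≤ h₂
  d : ∀ i j, |(σ.Hc W i j z + Ch.Mc σ τ W j i z) + (Ch.Mc σ τ W i j z + τ.Hc W i j z)| ≤ h₃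
  s1 : ∀ i j, |σ.s i j z| ≤ 2
  s2 : ∀ i j, |τ.s i j z| ≤ 2
  sd : ∀ i j, |σ.s i j z - τ.s i j z| ≤ kp
  l11 : ∀ i, |σ.D i (σ.Λ W) z| ≤ lm
  l12 : ∀ i, |σ.D i (τ.Λ W) z| ≤ lm
  l21 : ∀ i, |τ.D i (σ.Λ W) z| ≤ lm
  l22 : ∀ i, |τ.D i (τ.Λ W) z| ≤ lm
  lp' : ∀ i, |(σ.D i (σ.Λ W) z + τ.D i (σ.Λ W) z) - (σ.D i (τ.Λ W) z + τ.D i (τ.Λ W) z)| ≤ lp

/-- The star density of the cut functions. -/
theorem sf_cut {σ τ : Sl E ι} {U : Set E} {θ : E → ℝ} (ok : σ.Ok U θ) (ot : τ.Ok U θ)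
    (v₁ v₂ W : E → ℝ) (z : E) (c : ℝ) (A B g h : ι → ℝ) (x y : ℝ) :
    sf σ τ v₁ v₂ W z (fun i => c * A i - x * g i) (fun i => c * B i - y * h i) (c * x) (c * y) -
      c ^ 2 * sf σ τ v₁ v₂ W z A B x y =
      -(16 * c * T4 (fun i j => σ.Hc W i j z) (fun i j => Ch.Mc σ τ W i j z)
        (fun i j => τ.Hc W i j z) A B (fun i => x * g i) (fun i => y * h i)) +
      8 * Q4' (fun i j => σ.Hc W i j z) (fun i j => Ch.Mc σ τ W i j z)
        (fun i j => τ.Hc W i j z) (fun i => x * g i) (fun i => y * h i) +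
      8 * c * (x ^ 2 * bl (fun i j => σ.s i j z) (fun i => σ.D i (σ.Λ W) z) g +
        x * y * bl (fun i j => σ.s i j z) (fun i => σ.D i (τ.Λ W) z) g +
        x * y * bl (fun i j => τ.s i j z) (fun i => τ.D i (σ.Λ W) z) h +
        y ^ 2 * bl (fun i j => τ.s i j z) (fun i => τ.D i (τ.Λ W) z) h) := by
  have eT : ∀ A B : ι → ℝ, Ch.TH σ τ W z A B = Q4' (fun i j => σ.Hc W i j z)
      (fun i j => Ch.Mc σ τ W i j z) (fun i j => τ.Hc W i j z) A B := fun A B => rfl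
  have eg : ∀ (ρ : Sl E ι) (f : E → ℝ) (A : ι → ℝ), gA ρ f z A =
      bl (fun i j => ρ.s i j z) (fun i => ρ.D i f z) A := fun ρ f A => rfl
  have el : ∀ (m : ι → ι → ℝ) (u A g : ι → ℝ) (t : ℝ), bl m u (fun i => c * A i - t * g i) =
      c * bl m u A - t * bl m u g := by
    intro m u A g t
    unfold bl
    simp only [Finset.mul_sum, ← Finset.sum_sub_distrib]
    exact Finset.sum_congr rfl fun i _ => Finset.sum_congr rfl fun j _ => by ring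
  have hc := Q4'_cut (H := fun i j => σ.Hc W i j z) (M := fun i j => Ch.Mc σ τ W i j z)
    (H' := fun i j => τ.Hc W i j z) (fun i j => Hc_symm ok i j) (fun i j => Hc_symm ot i j)
    c A B (fun i => x * g i) (fun i => y * h i)
  unfold sf qf
  rw [eT, eT, hc]
  simp only [eg, el]
  ring

/-- **The field `cr` from pointwise bounds.** -/
theorem cr_of {σ τ : Sl E ι} {U : Set E} {θ : E → ℝ} (ok : σ.Ok U θ) (ot : τ.Ok U θ)
    (v₁ v₂ : E → ℝ) {W : E → ℝ} {z : E} {a b h₁ h₂ h₃ lm lp kp Z G F e' K c : ℝ}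
    {g h : ι → ℝ} (hl : HL σ τ W h₁ h₂ h₃ lm lp kp z)
    (H : RR (Fintype.card ι) a b h₁ h₂ h₃ lm lp kp Z G F e' K) (ha : l1 g ≤ a)
    (hb : l1 (fun i => g i + h i) ≤ b) (hc : |c| ≤ 1) (A B : ι → ℝ) (x y : ℝ) :
    |sf σ τ v₁ v₂ W z (fun i => c * A i - x * g i) (fun i => c * B i - y * h i) (c * x) (c * y) -
      c ^ 2 * sf σ τ v₁ v₂ W z A B x y| ≤
      (72 + 36 * K + 24 * Fintype.card ι) * (Z * ((∑ i, A i ^ 2) + (∑ i, B i ^ 2) +
        G ^ 2 * (∑ i, (A i - B i) ^ 2) + e' ^ 2 * (x + y) ^ 2 + F ^ 2 * (x - y) ^ 2)) := by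
  rw [sf_cut ok ot]
  set n : ℝ := (Fintype.card ι : ℝ) with hn
  have n0 : 0 ≤ n := Nat.cast_nonneg _
  obtain ⟨hp, hq⟩ := cut_pq (x := x) (y := y) ha hb
  -- the first term
  have k1 := T4_le (fun i j => Hc_symm (W := W) (z := z) ok i j)
    (fun i j => Hc_symm (W := W) (z := z) ot i j) hl.b1 hl.b2 hl.b3 hl.c1 hl.c2 hl.d
    (fun i => (A i + B i) / 2) (fun i => (A i - B i) / 2)
    (fun i => (x * g i + y * h i) / 2) (fun i => (x * g i - y * h i) / 2)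
  have k2 := T4_le (fun i j => Hc_symm (W := W) (z := z) ok i j)
    (fun i j => Hc_symm (W := W) (z := z) ot i j) hl.b1 hl.b2 hl.b3 hl.c1 hl.c2 hl.d
    (fun i => (x * g i + y * h i) / 2) (fun i => (x * g i - y * h i) / 2)
    (fun i => (x * g i + y * h i) / 2) (fun i => (x * g i - y * h i) / 2)
  have eA : (fun i => (A i + B i) / 2 + (A i - B i) / 2) = A := funext fun i => by ring
  have eB : (fun i => (A i + B i) / 2 - (A i - B i) / 2) = B := funext fun i => by ring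
  have eP : (fun i => (x * g i + y * h i) / 2 + (x * g i - y * h i) / 2) = fun i => x * g i :=
    funext fun i => by ring
  have eQ : (fun i => (x * g i + y * h i) / 2 - (x * g i - y * h i) / 2) = fun i => y * h i :=
    funext fun i => by ring
  rw [eA, eB, eP, eQ] at k1
  rw [eP, eQ] at k2
  rw [Q4'_eq]
  have u0 := abs_nonneg (x + y)
  have v0 := abs_nonneg (x - y)
  have sp0 := l1_nonneg fun i => (A i + B i) / 2
  have sq0 := l1_nonneg fun i => (A i - B i) / 2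
  have sp0' := l1_nonneg fun i => (x * g i + y * h i) / 2
  have sq0' := l1_nonneg fun i => (x * g i - y * h i) / 2
  have q1 := k1.trans (H.t1 sp0 sq0 u0 v0 hp hq)
  have q2 := k2.trans (H.t2 sp0' sq0' u0 v0 hp hq)
  have q3 := t3_le (x := x) (y := y) hl.s1 hl.s2 hl.sd hl.l11 hl.l12 hl.l21 hl.l22 hl.lp' H.l0 H.k0
    ha hb H.r13 H.r14 H.r15
  rw [← hn] at q3
  have sps := l1_sq fun i => (A i + B i) / 2
  have sqs := l1_sq fun i => (A i - B i) / 2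
  rw [← hn] at sps sqs
  have sps' : ∑ i, ((A i + B i) / 2) ^ 2 ≤ ((∑ i, A i ^ 2) + ∑ i, B i ^ 2) / 2 := by
    rw [← Finset.sum_add_distrib, Finset.sum_div]
    exact Finset.sum_le_sum fun i _ => by nlinarith [sq_nonneg (A i - B i)]
  have sqs' : ∑ i, ((A i - B i) / 2) ^ 2 = (∑ i, (A i - B i) ^ 2) / 4 := by
    rw [Finset.sum_div]
    exact Finset.sum_congr rfl fun i _ => by ring
  rw [sqs'] at sqs
  have X0 : 0 ≤ (∑ i, A i ^ 2) + ∑ i, B i ^ 2 := add_nonneg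
    (Finset.sum_nonneg fun _ _ => sq_nonneg _) (Finset.sum_nonneg fun _ _ => sq_nonneg _)
  have Y0 : 0 ≤ ∑ i, (A i - B i) ^ 2 := Finset.sum_nonneg fun _ _ => sq_nonneg _
  generalize T4 (fun i j => σ.Hc W i j z) (fun i j => Ch.Mc σ τ W i j z)
    (fun i j => τ.Hc W i j z) A B (fun i => x * g i) (fun i => y * h i) = t₁ at *
  generalize T4 (fun i j => σ.Hc W i j z) (fun i j => Ch.Mc σ τ W i j z)
    (fun i j => τ.Hc W i j z) (fun i => x * g i) (fun i => y * h i) (fun i => x * g i)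
    (fun i => y * h i) = t₂ at *
  generalize x ^ 2 * bl (fun i j => σ.s i j z) (fun i => σ.D i (σ.Λ W) z) g +
        x * y * bl (fun i j => σ.s i j z) (fun i => σ.D i (τ.Λ W) z) g +
        x * y * bl (fun i j => τ.s i j z) (fun i => τ.D i (σ.Λ W) z) h +
        y ^ 2 * bl (fun i j => τ.s i j z) (fun i => τ.D i (τ.Λ W) z) h = t₃ at *
  generalize (l1 fun i => (A i + B i) / 2) = sp at *
  generalize (l1 fun i => (A i - B i) / 2) = sq at *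
  have spn : sp ^ 2 ≤ n * (((∑ i, A i ^ 2) + ∑ i, B i ^ 2) / 2) :=
    sps.trans (mul_le_mul_of_nonneg_left sps' n0)
  have X1 : (∑ i, A i ^ 2) + (∑ i, B i ^ 2) +
        G ^ 2 * (∑ i, (A i - B i) ^ 2) + e' ^ 2 * (x + y) ^ 2 + F ^ 2 * (x - y) ^ 2 =
      ((∑ i, A i ^ 2) + ∑ i, B i ^ 2) + G ^ 2 * (∑ i, (A i - B i) ^ 2) +
        (e' ^ 2 * (x + y) ^ 2 + F ^ 2 * (x - y) ^ 2) := by ring
  rw [X1]
  generalize (∑ i, A i ^ 2) + ∑ i, B i ^ 2 = X at *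
  generalize ∑ i, (A i - B i) ^ 2 = Y at *
  have hu : |x + y| ^ 2 = (x + y) ^ 2 := sq_abs _
  have hv : |x - y| ^ 2 = (x - y) ^ 2 := sq_abs _
  rw [← hu, ← hv] at q3 ⊢
  generalize |x + y| = u at *
  generalize |x - y| = v at *
  exact (cr_ar1 hc).trans (cr_ar n0 H.Z0 H.K0 X0 Y0 q1 q2 q3 spn sqs)

end Vale.Agent.P088.R2.H516.O
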