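import Vale.Agent.P088.R2.H516.O.Cr2
import Vale.Agent.P088.R2.H644.W.Slot

/-!
# Zone B1: the bounds of the Hessian from the bounds of the weight
-/

open Set Filter
open scoped ContDiff Topology

noncomputable section

namespace Vale.Agent.P088.R2.H516.O

open Vale.Agent.P088.R2.H961.GW Vale.Agent.P088.R2.H644 Vale.Agent.P088.R2.H960.W
  Vale.Agent.P088.R2.H747.S Vale.Agent.P088.R2.H551.E Vale.Agent.P088.R2.H86.Z

section alg

theorem ab2 {a b x y : ℝ} (ha : |a| ≤ x) (hb : |b| ≤ y) : |a * b| ≤ x * y := by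
  rw [abs_mul]
  exact mul_le_mul ha hb (abs_nonneg _) ((abs_nonneg _).trans ha)

theorem ab3 {a b c x y w : ℝ} (ha : |a| ≤ x) (hb : |b| ≤ y) (hc : |c| ≤ w) :
    |a * b * c| ≤ x * y * w := ab2 (ab2 ha hb) hc

/-- The mixed entry. -/
theorem ent_c {s s1 t H M k C e p₁ : ℝ} (hs : |s| ≤ 2) (h1 : |s1| ≤ 2) (hd : |s1 - t| ≤ k)
    (hp : |H + M| ≤ C * p₁) (hM : |M| ≤ C * e) (hk : k * e ≤ C * p₁) (C0 : 0 ≤ C) :
    |s1 * s * H + s * t * M| ≤ (4 * C + 2 * C ^ 2) * p₁ := by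
  have e : s1 * s * H + s * t * M = s * s1 * (H + M) - s * (s1 - t) * M := by ring
  rw [e]
  have a1 := ab3 hs h1 hp
  have a2 := ab3 hs hd hM
  have a3 := abs_sub (s * s1 * (H + M)) (s * (s1 - t) * M)
  have a4 := mul_le_mul_of_nonneg_left hk C0
  nlinarith

/-- The slow entry. -/
theorem ent_d {s1 s2 t1 t2 H M M' H' k C e p₁ p₂ : ℝ} (h1 : |s1| ≤ 2) (h2 : |s2| ≤ 2)
    (d1 : |s1 - t1| ≤ k) (d2 : |s2 - t2| ≤ k) (hp : |(H + M') + (M + H')| ≤ C * p₂)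
    (hm : |M + H'| ≤ C * p₁) (hm' : |M' + H'| ≤ C * p₁) (hH : |H'| ≤ C * e)
    (hk : k * p₁ ≤ 2 * C * p₂) (hk2 : k ^ 2 * e ≤ 2 * C ^ 2 * p₂) (C0 : 0 ≤ C) :
    |(s1 * s2 * H + s2 * t1 * M') + (s1 * t2 * M + t1 * t2 * H')| ≤
      (4 * C + 8 * C ^ 2 + 2 * C ^ 3) * p₂ := by
  have e : (s1 * s2 * H + s2 * t1 * M') + (s1 * t2 * M + t1 * t2 * H') =
      s1 * s2 * ((H + M') + (M + H')) - s2 * (s1 - t1) * (M' + H') - s1 * (s2 - t2) * (M + H') +
        (s1 - t1) * (s2 - t2) * H' := by ring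
  rw [e]
  have a1 := ab3 h1 h2 hp
  have a2 := ab3 h2 d1 hm'
  have a3 := ab3 h1 d2 hm
  have a4 := ab3 d1 d2 hH
  have b1 := abs_add_le (s1 * s2 * ((H + M') + (M + H')) - s2 * (s1 - t1) * (M' + H') -
    s1 * (s2 - t2) * (M + H')) ((s1 - t1) * (s2 - t2) * H')
  have b2 := abs_sub (s1 * s2 * ((H + M') + (M + H')) - s2 * (s1 - t1) * (M' + H'))
    (s1 * (s2 - t2) * (M + H'))
  have b3 := abs_sub (s1 * s2 * ((H + M') + (M + H'))) (s2 * (s1 - t1) * (M' + H'))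
  have c1 := mul_le_mul_of_nonneg_left hk C0
  have c2 := mul_le_mul_of_nonneg_left hk2 C0
  nlinarith

/-- The trilinear entry. -/
theorem ent_t {s t d d' w w' k C p₁ p₂ : ℝ} (h1 : |s| ≤ 2) (hd : |d| ≤ C) (hd' : |d'| ≤ C)
    (st : |s - t| ≤ k) (dd : |d - d'| ≤ k) (hw : |w + w'| ≤ C * p₂) (hw' : |w'| ≤ C * p₁)
    (hk : k * p₁ ≤ 2 * C * p₂) (C0 : 0 ≤ C) :
    |s * d * w + t * d' * w'| ≤ (6 * C ^ 2 + 2 * C ^ 3) * p₂ := by
  have e : s * d * w + t * d' * w' = s * d * (w + w') - (s - t) * d' * w' -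
      s * (d - d') * w' := by ring
  rw [e]
  have a1 := ab3 h1 hd hw
  have a2 := ab3 st hd' hw'
  have a3 := ab3 h1 dd hw'
  have b1 := abs_sub (s * d * (w + w') - (s - t) * d' * w') (s * (d - d') * w')
  have b2 := abs_sub (s * d * (w + w')) ((s - t) * d' * w')
  have c1 := mul_le_mul_of_nonneg_left hk C0
  have c2 := mul_le_mul_of_nonneg_left c1 C0
  nlinarith

variable {ι : Type*} [Fintype ι]

theorem dsum_le {f : ι → ι → ℝ} {c : ℝ} (h : ∀ i j, |f i j| ≤ c) :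
    |∑ i, ∑ j, f i j| ≤ (Fintype.card ι : ℝ) ^ 2 * c := by
  have h1 : ∀ i, |∑ j, f i j| ≤ (Fintype.card ι : ℝ) * c := fun i => by
    refine (Finset.abs_sum_le_sum_abs _ _).trans ?_
    refine (Finset.sum_le_sum fun j _ => h i j).trans ?_
    simp
  refine (Finset.abs_sum_le_sum_abs _ _).trans ?_
  refine (Finset.sum_le_sum fun i _ => h1 i).trans ?_
  rw [Finset.sum_const, Finset.card_univ, nsmul_eq_mul]
  exact le_of_eq (by ring)

end alg

variable {E ι : Type*} [NormedAddCommGroup E] [NormedSpace ℝ E] [Fintype ι]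

/-- The first order part of the Hessian. -/
def chr (σ : Sl E ι) (W : E → ℝ) (i l j k : ι) (z : E) : ℝ :=
  1 / 2 * ((σ.s i j z * σ.D j (σ.s k l) z + σ.s l j z * σ.D j (σ.s k i) z) * σ.D k W z -
    σ.s j k z * σ.D j W z * σ.D k (σ.s i l) z)

section pw

variable {σ τ : Sl E ι} {U : Set E} {θ : E → ℝ} {W : E → ℝ} {C e r N : ℝ} {z : E}

theorem eta0 (h1 : ∀ z, σ.ρ z = 1) (i : ι) : σ.η i z = 0 := by
  have hρ : σ.ρ = fun _ => 1 := funext h1
  simp [Sl.η, hρ]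

theorem Hc_eq (ok : σ.Ok U θ) (h1 : ∀ z, σ.ρ z = 1) (hW : Sm U W) (hz : z ∈ U) (i l : ι) :
    σ.Hc W i l z = ∑ a, ∑ b, (σ.s i a z * σ.s b l z * σ.D b (σ.D a W) z +
      chr σ W i l a b z) := by
  unfold Sl.Hc chr
  rw [Finset.mul_sum]
  refine Finset.sum_congr rfl fun a _ => ?_
  rw [Finset.mul_sum]
  refine Finset.sum_congr rfl fun b _ => ?_
  rw [eta0 h1, eta0 h1, Ch.DD_comm ok.op h1 hW a b hz]
  ring

theorem Mc_eq (i k : ι) : Ch.Mc σ τ W i k z =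
    ∑ a, ∑ b, σ.s i a z * τ.s k b z * σ.D a (τ.D b W) z := rfl

theorem Mc_eq' (i k : ι) : Ch.Mc σ τ W i k z =
    ∑ a, ∑ b, σ.s i b z * τ.s k a z * σ.D b (τ.D a W) z := by
  rw [Mc_eq, Finset.sum_comm]

variable (w : WB σ τ W C e r N z) (hC : 1 ≤ C)
include w hC

theorem WB.chr1 (i l j k : ι) : |chr σ W i l j k z| ≤ 3 * C ^ 2 * (e * r + N) := by
  have a1 := ab3 (w.s1 i j) (w.t1 j k l) (w.w1 k)
  have a2 := ab3 (w.s1 l j) (w.t1 j k i) (w.w1 k)
  have a3 := ab3 (w.s1 j k) (w.w1 j) (w.t1 k i l)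
  unfold chr
  rw [abs_mul, abs_of_nonneg (by norm_num : (0 : ℝ) ≤ 1 / 2)]
  have b1 := abs_sub ((σ.s i j z * σ.D j (σ.s k l) z + σ.s l j z * σ.D j (σ.s k i) z) * σ.D k W z)
    (σ.s j k z * σ.D j W z * σ.D k (σ.s i l) z)
  rw [add_mul] at b1 ⊢
  have b2 := abs_add_le (σ.s i j z * σ.D j (σ.s k l) z * σ.D k W z)
    (σ.s l j z * σ.D j (σ.s k i) z * σ.D k W z)
  linarith

theorem WB.chr2 (i l j k : ι) : |chr τ W i l j k z| ≤ 3 * C ^ 2 * (e * r + N) := by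
  have a1 := ab3 (w.s2 i j) (w.t2 j k l) (w.w2 k)
  have a2 := ab3 (w.s2 l j) (w.t2 j k i) (w.w2 k)
  have a3 := ab3 (w.s2 j k) (w.w2 j) (w.t2 k i l)
  unfold chr
  rw [abs_mul, abs_of_nonneg (by norm_num : (0 : ℝ) ≤ 1 / 2)]
  have b1 := abs_sub ((τ.s i j z * τ.D j (τ.s k l) z + τ.s l j z * τ.D j (τ.s k i) z) * τ.D k W z)
    (τ.s j k z * τ.D j W z * τ.D k (τ.s i l) z)
  rw [add_mul] at b1 ⊢
  have b2 := abs_add_le (τ.s i j z * τ.D j (τ.s k l) z * τ.D k W z)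
    (τ.s l j z * τ.D j (τ.s k i) z * τ.D k W z)
  linarith

variable (he : 0 < e) (hr : 0 ≤ r) (hr1 : r ≤ 1) (hN : 0 ≤ N) (hNe : N ≤ e)
include he hr hr1 hN hNe

omit w hC hr1 in
theorem p12 : (e * r + N) ^ 2 ≤ 2 * e * (e * r ^ 2 + N) := by
  nlinarith [sq_nonneg (e * r - N), mul_nonneg hN (sub_nonneg.2 hNe)]

theorem WB.sum_chr (i l j k : ι) :
    |chr σ W i l j k z + chr τ W i l j k z| ≤ 12 * C ^ 3 * (e * r ^ 2 + N) := by
  set κ := C * (e * r + N) / e with hκ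
  have C0 : 0 ≤ C := by linarith
  have hk : κ * (e * r + N) ≤ 2 * C * (e * r ^ 2 + N) := by
    rw [hκ, div_mul_eq_mul_div, div_le_iff₀ he]
    have := mul_le_mul_of_nonneg_left (p12 he hr hN hNe) C0
    linarith
  have sd : ∀ i j, |σ.s i j z - τ.s i j z| ≤ κ := fun i j => by
    rw [hκ, le_div_iff₀ he, mul_comm]; exact w.sd i j
  have td : ∀ l i j, |σ.D l (σ.s i j) z - τ.D l (τ.s i j) z| ≤ κ := fun l i j => by
    rw [hκ, le_div_iff₀ he, mul_comm]; exact w.td l i j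
  have e1 := ent_t (w.s1 i j) (w.t1 j k l) (w.t2 j k l) (sd i j) (td j k l) (w.wp k) (w.w2 k) hk C0
  have e2 := ent_t (w.s1 l j) (w.t1 j k i) (w.t2 j k i) (sd l j) (td j k i) (w.wp k) (w.w2 k) hk C0
  have e3 := ent_t (w.s1 j k) (w.t1 k i l) (w.t2 k i l) (sd j k) (td k i l) (w.wp j) (w.w2 j) hk C0
  have e0 : chr σ W i l j k z + chr τ W i l j k z = 1 / 2 *
      ((σ.s i j z * σ.D j (σ.s k l) z * σ.D k W z + τ.s i j z * τ.D j (τ.s k l) z * τ.D k W z) +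
      (σ.s l j z * σ.D j (σ.s k i) z * σ.D k W z + τ.s l j z * τ.D j (τ.s k i) z * τ.D k W z) -
      (σ.s j k z * σ.D k (σ.s i l) z * σ.D j W z + τ.s j k z * τ.D k (τ.s i l) z * τ.D j W z)) := by
    unfold chr
    ring
  rw [e0, abs_mul, abs_of_nonneg (by norm_num : (0 : ℝ) ≤ 1 / 2)]
  have b1 := abs_sub ((σ.s i j z * σ.D j (σ.s k l) z * σ.D k W z +
      τ.s i j z * τ.D j (τ.s k l) z * τ.D k W z) +
      (σ.s l j z * σ.D j (σ.s k i) z * σ.D k W z + τ.s l j z * τ.D j (τ.s k i) z * τ.D k W z))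
      (σ.s j k z * σ.D k (σ.s i l) z * σ.D j W z + τ.s j k z * τ.D k (τ.s i l) z * τ.D j W z)
  have b2 := abs_add_le (σ.s i j z * σ.D j (σ.s k l) z * σ.D k W z +
      τ.s i j z * τ.D j (τ.s k l) z * τ.D k W z)
      (σ.s l j z * σ.D j (σ.s k i) z * σ.D k W z + τ.s l j z * τ.D j (τ.s k i) z * τ.D k W z)
  have p0 : 0 ≤ e * r ^ 2 + N := by positivity
  have q1 : (6 * C ^ 2 + 2 * C ^ 3) * (e * r ^ 2 + N) ≤ 8 * C ^ 3 * (e * r ^ 2 + N) := by
    refine mul_le_mul_of_nonneg_right ?_ p0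
    have : C ^ 2 ≤ C ^ 3 := pow_le_pow_right₀ hC (by norm_num)
    linarith
  linarith

variable (ok : σ.Ok U θ) (ot : τ.Ok U θ) (cm : Cm σ τ U) (h1 : ∀ z, σ.ρ z = 1)
  (h2 : ∀ z, τ.ρ z = 1) (hW : Sm U W) (hz : z ∈ U)
include ok ot cm h1 h2 hW hz

/-- **The bounds of the Hessian.** -/
theorem WB.hl : HL σ τ W ((Fintype.card ι : ℝ) ^ 2 * (10 * C ^ 2 * e))
    ((Fintype.card ι : ℝ) ^ 2 * (9 * C ^ 2 * (e * r + N)))
    ((Fintype.card ι : ℝ) ^ 2 * (26 * C ^ 3 * (e * r ^ 2 + N))) (C * e) (C * (e * r + N))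
    (C * (e * r + N) / e) z := by
  have C0 : 0 ≤ C := by linarith
  have CC : C ≤ C ^ 2 := by nlinarith
  have CC3 : C ^ 2 ≤ C ^ 3 := pow_le_pow_right₀ hC (by norm_num)
  set κ := C * (e * r + N) / e with hκ
  have p10 : 0 ≤ e * r + N := by positivity
  have p20 : 0 ≤ e * r ^ 2 + N := by positivity
  have hk : κ * (e * r + N) ≤ 2 * C * (e * r ^ 2 + N) := by
    rw [hκ, div_mul_eq_mul_div, div_le_iff₀ he]
    have := mul_le_mul_of_nonneg_left (p12 he hr hN hNe) C0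
    linarith
  have hk1 : κ * e ≤ C * (e * r + N) := by
    rw [hκ, div_mul_cancel₀ _ he.ne']
  have hk2 : κ ^ 2 * e ≤ 2 * C ^ 2 * (e * r ^ 2 + N) := by
    have e1 : κ ^ 2 * e = C ^ 2 * ((e * r + N) ^ 2 / e) := by
      rw [hκ]; field_simp
    rw [e1]
    have e2 : (e * r + N) ^ 2 / e ≤ 2 * (e * r ^ 2 + N) := by
      rw [div_le_iff₀ he]
      have := p12 he hr hN hNe
      linarith
    have := mul_le_mul_of_nonneg_left e2 (sq_nonneg C)
    linarith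
  have sd : ∀ i j, |σ.s i j z - τ.s i j z| ≤ κ := fun i j => by
    rw [hκ, le_div_iff₀ he, mul_comm]; exact w.sd i j
  have er : e * r + N ≤ 2 * e := by nlinarith
  have c3 : 3 * C ^ 2 * (e * r + N) ≤ 6 * C ^ 2 * e := by
    have := mul_le_mul_of_nonneg_left er (sq_nonneg C)
    linarith
  have f1 : ∀ {a b c d : ℝ}, |a| ≤ 2 → |b| ≤ 2 → |c| ≤ C * e → |d| ≤ 3 * C ^ 2 * (e * r + N) →
      |a * b * c + d| ≤ 10 * C ^ 2 * e := fun ha hb hc hd => by
    have x1 := ab3 ha hb hc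
    have x2 := (abs_add_le _ _).trans (add_le_add x1 hd)
    have x3 := mul_le_mul_of_nonneg_right CC he.le
    linarith
  -- commutation
  have k1 : ∀ a b, σ.D a (τ.D b W) z = τ.D b (σ.D a W) z := fun a b => cm.cc W hW z hz a b
  have k2 : ∀ a b, σ.D a (σ.D b W) z = σ.D b (σ.D a W) z := fun a b =>
    Ch.DD_comm ok.op h1 hW a b hz
  have k3 : ∀ a b, τ.D a (τ.D b W) z = τ.D b (τ.D a W) z := fun a b =>
    Ch.DD_comm ot.op h2 hW a b hz
  -- `D_a (D'_b + D_b) W` etc.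
  have m1 : ∀ a b, |σ.D b (σ.D a W) z + σ.D b (τ.D a W) z| ≤ C * (e * r + N) := fun a b =>
    w.p1 b a
  have m2 : ∀ a b, |σ.D a (τ.D b W) z + τ.D a (τ.D b W) z| ≤ C * (e * r + N) := fun a b => by
    rw [k1 a b, k3 a b]; exact w.p2 b a
  have c2' : ∀ i j : ι, Ch.Mc σ τ W i j z + τ.Hc W i j z = ∑ a, ∑ b,
      ((τ.s j b z * σ.s i a z * σ.D a (τ.D b W) z + τ.s i a z * τ.s j b z * τ.D a (τ.D b W) z) +
        chr τ W i j a b z) := by
    intro i j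
    rw [Mc_eq, Hc_eq ot h2 hW hz, ← Finset.sum_add_distrib]
    refine Finset.sum_congr rfl fun a _ => ?_
    rw [← Finset.sum_add_distrib]
    refine Finset.sum_congr rfl fun b _ => ?_
    rw [ot.sy b j, k3 b a]
    ring
  have c1' : ∀ i j : ι, σ.Hc W i j z + Ch.Mc σ τ W j i z = ∑ a, ∑ b,
      ((σ.s i a z * σ.s j b z * σ.D b (σ.D a W) z + σ.s j b z * τ.s i a z * σ.D b (τ.D a W) z) +
        chr σ W i j a b z) := by
    intro i j
    rw [Mc_eq', Hc_eq ok h1 hW hz, ← Finset.sum_add_distrib]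
    refine Finset.sum_congr rfl fun a _ => ?_
    rw [← Finset.sum_add_distrib]
    refine Finset.sum_congr rfl fun b _ => ?_
    rw [ok.sy b j]
    ring
  refine ⟨fun i j => ?_, fun i j => ?_, fun i j => ?_, fun i j => ?_, fun i j => ?_, fun i j => ?_,
    w.s1, w.s2, sd, w.l11, w.l12, w.l21, w.l22, w.lp⟩
  · rw [Hc_eq ok h1 hW hz]
    exact dsum_le fun a b => f1 (w.s1 i a) (w.s1 b j) (w.h1 b a) (w.chr1 hC i j a b)
  · rw [Mc_eq]
    refine dsum_le fun a b => ?_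
    have := f1 (w.s1 i a) (w.s2 j b) (w.hm a b) (d := 0) (by rw [abs_zero]; positivity)
    rwa [add_zero] at this
  · rw [Hc_eq ot h2 hW hz]
    exact dsum_le fun a b => f1 (w.s2 i a) (w.s2 b j) (w.h2 b a) (w.chr2 hC i j a b)
  · rw [c1']
    refine dsum_le fun a b => ?_
    have x1 := ent_c (w.s1 j b) (w.s1 i a) (sd i a) (m1 a b) (w.hm b a) hk1 C0
    have x2 := w.chr1 hC i j a b
    have x3 := (abs_add_le (σ.s i a z * σ.s j b z * σ.D b (σ.D a W) z +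
      σ.s j b z * τ.s i a z * σ.D b (τ.D a W) z) (chr σ W i j a b z)).trans (add_le_add x1 x2)
    have x4 := mul_le_mul_of_nonneg_right CC p10
    linarith
  · rw [c2']
    refine dsum_le fun a b => ?_
    have x1 := ent_c (s := τ.s j b z) (s1 := τ.s i a z) (t := σ.s i a z)
      (H := τ.D a (τ.D b W) z) (M := σ.D a (τ.D b W) z) (w.s2 j b) (w.s2 i a)
      (by rw [abs_sub_comm]; exact sd i a) (by rw [add_comm]; exact m2 a b) (w.hm a b) hk1 C0
    have x2 := w.chr2 hC i j a b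
    have e1 : τ.s j b z * σ.s i a z * σ.D a (τ.D b W) z +
        τ.s i a z * τ.s j b z * τ.D a (τ.D b W) z =
        τ.s i a z * τ.s j b z * τ.D a (τ.D b W) z +
        τ.s j b z * σ.s i a z * σ.D a (τ.D b W) z := by ring
    rw [e1]
    have x3 := (abs_add_le (τ.s i a z * τ.s j b z * τ.D a (τ.D b W) z +
        τ.s j b z * σ.s i a z * σ.D a (τ.D b W) z) (chr τ W i j a b z)).trans (add_le_add x1 x2)
    have x4 := mul_le_mul_of_nonneg_right CC p10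
    linarith
  · rw [c1', c2', ← Finset.sum_add_distrib]
    simp only [← Finset.sum_add_distrib]
    refine dsum_le fun a b => ?_
    have x1 := ent_d (s1 := σ.s i a z) (s2 := σ.s j b z) (t1 := τ.s i a z) (t2 := τ.s j b z)
      (H := σ.D b (σ.D a W) z) (M := σ.D a (τ.D b W) z) (M' := σ.D b (τ.D a W) z)
      (H' := τ.D a (τ.D b W) z) (p₁ := e * r + N) (p₂ := e * r ^ 2 + N)
      (w.s1 i a) (w.s1 j b) (sd i a) (sd j b)
      (by
        have := w.pp b a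
        rw [← k1 a b, k3 b a] at this
        exact this)
      (m2 a b) (by rw [k3 a b]; exact m2 b a) (w.h2 a b) hk hk2 C0
    have x2 := w.sum_chr hC he hr hr1 hN hNe i j a b
    have e1 : ((σ.s i a z * σ.s j b z * σ.D b (σ.D a W) z +
        σ.s j b z * τ.s i a z * σ.D b (τ.D a W) z) + chr σ W i j a b z) +
        ((τ.s j b z * σ.s i a z * σ.D a (τ.D b W) z +
        τ.s i a z * τ.s j b z * τ.D a (τ.D b W) z) + chr τ W i j a b z) =
        ((σ.s i a z * σ.s j b z * σ.D b (σ.D a W) z +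
        σ.s j b z * τ.s i a z * σ.D b (τ.D a W) z) +
        (σ.s i a z * τ.s j b z * σ.D a (τ.D b W) z +
        τ.s i a z * τ.s j b z * τ.D a (τ.D b W) z)) +
        (chr σ W i j a b z + chr τ W i j a b z) := by ring
    rw [e1]
    have x3 := (abs_add_le _ _).trans (add_le_add x1 x2)
    refine x3.trans ?_
    have y1 := mul_le_mul_of_nonneg_right (CC.trans CC3) p20
    have y2 := mul_le_mul_of_nonneg_right CC3 p20
    linarith

end pw

end Vale.Agent.P088.R2.H516.O
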