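import Vale.Agent.P088.R2.H516.O.Cr3

/-!
# Zone B1: the numbers of the outer cut-off

`E`, `M = N + 1 + m`, `μ = 1 + m`, `m = E r²`, `M² ≤ E μ`, `2 μ ≤ E`; `G² = E / μ`;
`g = G²`, `f₀ = (M G)²`, `e = E²`.  The cut-off: `|D χ| ≤ k (β G + γ)`, `|D χ + D' χ| ≤ k (β + γ)`.
-/

open Set Filter
open scoped ContDiff Topology

noncomputable section

namespace Vale.Agent.P088.R2.H516.O

open Vale.Agent.P088.R2.H961.GW Vale.Agent.P088.R2.H644 Vale.Agent.P088.R2.H960.W
  Vale.Agent.P088.R2.H747.S Vale.Agent.P088.R2.H551.E Vale.Agent.P088.R2.H86.Z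

/-- The numbers of a point of the core. -/
structure Nm (E r N m μ M G : ℝ) : Prop where
  E0 : 0 < E
  r0 : 0 ≤ r
  r1 : r ≤ 1
  N0 : 0 ≤ N
  G0 : 0 ≤ G
  hm : m = E * r ^ 2
  hμ : μ = 1 + m
  hM : M = N + μ
  G2 : μ * G ^ 2 = E
  a1 : M ^ 2 ≤ E * μ
  a2 : 2 * μ ≤ E

namespace Nm

variable {E r N m μ M G : ℝ} (H : Nm E r N m μ M G)
include H

theorem m0 : 0 ≤ m := by rw [H.hm]; exact mul_nonneg H.E0.le (sq_nonneg _)

theorem μ1 : 1 ≤ μ := by have := H.m0; rw [H.hμ]; linarith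

theorem M1 : μ ≤ M := by have := H.N0; rw [H.hM]; linarith

theorem M0 : 0 < M := by have := H.μ1; have := H.M1; linarith

theorem G1 : 1 ≤ G := by
  by_contra hc
  push_neg at hc
  have h1 : G ^ 2 ≤ 1 := by nlinarith [H.G0]
  have h2 := H.G2
  have h3 := H.a2
  have h4 := H.μ1
  nlinarith

/-- `M ≤ μ G`. -/
theorem MG : M ≤ μ * G := by
  have h1 := H.G0
  have h4 := H.μ1
  have h2 : M ^ 2 ≤ (μ * G) ^ 2 := by
    refine H.a1.trans (le_of_eq ?_)
    rw [mul_pow, ← H.G2]; ring
  exact (abs_le_of_sq_le_sq' h2 (by positivity)).2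

/-- `E r ≤ μ G`. -/
theorem Er : E * r ≤ μ * G := by
  have h1 := H.G0
  have h4 := H.μ1
  have h2 : (E * r) ^ 2 ≤ (μ * G) ^ 2 := by
    have e1 : (μ * G) ^ 2 = μ * E := by rw [mul_pow, ← H.G2]; ring
    have e2 : (E * r) ^ 2 = E * m := by rw [H.hm]; ring
    rw [e1, e2, H.hμ]
    have := H.E0
    linarith
  exact (abs_le_of_sq_le_sq' h2 (by positivity)).2

theorem XG : E * r + N ≤ 2 * (μ * G) := by
  have h1 := H.Er
  have h2 := H.MG
  have h3 := H.hM
  have h4 := H.μ1
  linarith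

theorem X0 : 0 ≤ E * r + N := add_nonneg (mul_nonneg H.E0.le H.r0) H.N0

theorem GG : G ≤ G ^ 2 := by
  have := H.G1
  nlinarith

theorem μGE : μ * G ≤ E := by
  rw [← H.G2]
  exact mul_le_mul_of_nonneg_left H.GG (by linarith [H.μ1])

theorem ME : M ≤ E := H.MG.trans H.μGE

theorem μG : G ≤ μ * G := le_mul_of_one_le_left H.G0 H.μ1

theorem GE : G ≤ E := H.μG.trans H.μGE

theorem x1 : 1 ≤ μ / M * G := by
  rw [div_mul_eq_mul_div, le_div_iff₀ H.M0, one_mul]
  exact H.MG

theorem hML : M ≤ μ / M * E := by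
  rw [div_mul_eq_mul_div, le_div_iff₀ H.M0]
  have := H.a1
  linarith

theorem x2 : μ * G ≤ μ / M * E := by
  rw [div_mul_eq_mul_div, le_div_iff₀ H.M0, ← H.G2]
  have h1 := mul_le_mul_of_nonneg_left H.MG
    (mul_nonneg (by linarith [H.μ1] : (0 : ℝ) ≤ μ) H.G0)
  linarith

theorem EM : E ≤ M * G ^ 2 := by
  rw [← H.G2]
  exact mul_le_mul_of_nonneg_right H.M1 (sq_nonneg _)

theorem MμG : μ * G ≤ M * G := mul_le_mul_of_nonneg_right H.M1 H.G0

theorem can : μ / M * (M * G) = μ * G := by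
  have := H.M0
  field_simp

end Nm

theorem rr_ar {x X p q β γ A c κ : ℝ} (hX : x ≤ A * (β * p + γ)) (c0 : 0 ≤ c) (X0 : 0 ≤ X)
    (hb : 0 ≤ β) (hg : 0 ≤ γ) (A0 : 0 ≤ A) {R S : ℝ} (h1 : X * p ≤ 2 * R) (h2 : X ≤ 2 * S)
    (hq : q = β * R + γ * S) (hκ : 2 * (c * A) ≤ κ) (hR : 0 ≤ R) (hS : 0 ≤ S) :
    c * X * x ≤ κ * q := by
  have e1 := mul_le_mul_of_nonneg_left hX (mul_nonneg c0 X0)
  have e2 := mul_le_mul_of_nonneg_left h1 (mul_nonneg (mul_nonneg c0 A0) hb)
  have e3 := mul_le_mul_of_nonneg_left h2 (mul_nonneg (mul_nonneg c0 A0) hg)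
  have q0 : 0 ≤ q := by rw [hq]; positivity
  have e4 := mul_le_mul_of_nonneg_right hκ q0
  rw [hq] at e4 ⊢
  linarith

section rr

variable {E r N m μ M G a b β γ c k κ : ℝ} (H : Nm E r N m μ M G) (c0 : 0 ≤ c) (k0 : 0 ≤ k)
  (b0 : 0 ≤ β) (g0 : 0 ≤ γ) (ab : a + b ≤ 2 * k * (β * G + γ)) (bb : b ≤ 2 * k * (β * 1 + γ))
  (hκ : 2 * (c * (2 * k)) ≤ κ)

include H c0 k0 b0 g0 ab hκ in
theorem rr1 : c * (m + N) * (a + b) ≤ κ * ((β + γ * (μ / M)) * (M * G)) := by
  have h0 := H.m0
  have h1 := H.N0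
  have h2 := H.hM
  have h3 := H.hμ
  have h4 := H.MG
  have h5 := H.G0
  have h6 := H.M0
  refine rr_ar (R := M * G) (S := μ * G) ab c0 (by linarith) b0 g0 (by linarith) ?_ (by linarith)
    (by rw [add_mul, mul_assoc, H.can]) hκ (by positivity) (by linarith)
  have := mul_le_mul_of_nonneg_right (by linarith : m + N ≤ M) h5
  have := mul_nonneg h6.le h5
  linarith

include H c0 k0 b0 g0 bb hκ in
theorem rr2 : c * (m + N) * b ≤ κ * ((β + γ * (μ / M)) * E) := by
  have h0 := H.m0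
  have h1 := H.N0
  have h2 := H.hM
  have h3 := H.hμ
  have h4 := H.ME
  have h5 := H.hML
  have h6 := H.M0
  have h7 := H.E0
  exact rr_ar (R := E) (S := μ / M * E) bb c0 (by linarith) b0 g0 (by linarith) (by linarith)
    (by linarith) (by ring) hκ h7.le (by linarith)

include H c0 k0 b0 g0 ab hκ in
theorem rr3 : c * (E * r + N) * (a + b) ≤ κ * ((β + γ * (μ / M)) * E) := by
  have h4 := H.XG
  have h5 := H.x2
  have h6 := H.μG
  have h7 := H.E0
  have h8 := H.G0
  refine rr_ar (R := E) (S := μ / M * E) ab c0 H.X0 b0 g0 (by linarith) ?_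
    (by linarith) (by ring) hκ h7.le (by linarith)
  have := mul_le_mul_of_nonneg_right h4 h8
  have := H.G2
  linarith

include H c0 k0 b0 g0 bb hκ in
theorem rr4 : c * (E * r + N) * b ≤ κ * ((β + γ * (μ / M)) * (M * G)) := by
  have h4 := H.XG
  have h5 := H.MμG
  have h6 := H.μG
  have h8 := H.G0
  exact rr_ar (R := M * G) (S := μ * G) bb c0 H.X0 b0 g0 (by linarith) (by linarith)
    (by linarith) (by rw [add_mul, mul_assoc, H.can]) hκ (by linarith) (by linarith)

include H c0 k0 b0 g0 ab hκ in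
theorem rr5 : c * (E * r + N) * (a + b) ≤ κ * ((β + γ * (μ / M)) * (G * (M * G))) := by
  have h4 := H.XG
  have h5 := H.MμG
  have h6 := H.μG
  have h8 := H.G0
  have h9 := H.G1
  have h10 := mul_le_mul_of_nonneg_left h9 (by linarith : 0 ≤ μ * G)
  refine rr_ar (R := G * (M * G)) (S := G * (μ * G)) ab c0 H.X0 b0 g0 (by linarith) ?_
    (by linarith) (by rw [← H.can]; ring) hκ (mul_nonneg h8 (by linarith))
    (mul_nonneg h8 (by linarith))
  have := mul_le_mul_of_nonneg_right (by linarith : E * r + N ≤ 2 * (M * G)) h8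
  linarith

include H c0 k0 b0 g0 bb hκ in
theorem rr6 : c * (E * r + N) * b ≤ κ * ((β + γ * (μ / M)) * (G * E)) := by
  have h4 := H.XG
  have h5 := H.x2
  have h6 := H.μG
  have h7 := H.E0
  have h8 := H.G0
  have h9 := H.G1
  have h10 := H.μGE
  have h11 := mul_le_mul_of_nonneg_right h9 h7.le
  have h12 : 0 ≤ μ / M * E := by linarith
  have h13 := mul_le_mul_of_nonneg_right h9 h12
  refine rr_ar (R := G * E) (S := μ / M * (G * E)) bb c0 H.X0 b0 g0 (by linarith) (by linarith)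
    ?_ (by ring) hκ (mul_nonneg h8 h7.le) ?_
  · have e1 : μ / M * (G * E) = G * (μ / M * E) := by ring
    rw [e1]; linarith
  · have e1 : μ / M * (G * E) = G * (μ / M * E) := by ring
    rw [e1]; exact mul_nonneg h8 h12

include H c0 k0 b0 g0 ab hκ in
theorem rr7 : c * E * (a + b) ≤ κ * ((β + γ * (μ / M)) * (G * E)) := by
  have h7 := H.E0
  have h8 := H.G0
  have h9 := H.x1
  have h13 := mul_le_mul_of_nonneg_right h9 h7.le
  have h14 := mul_nonneg h8 h7.le
  exact rr_ar (R := G * E) (S := μ / M * (G * E)) ab c0 h7.le b0 g0 (by linarith) (by linarith)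
    (by linarith) (by ring) hκ h14 (by linarith)

include H c0 k0 b0 g0 bb hκ in
theorem rr8 : c * E * b ≤ κ * ((β + γ * (μ / M)) * (G * (M * G))) := by
  have h7 := H.E0
  have h8 := H.G0
  have h9 := H.EM
  have h10 := H.G2
  exact rr_ar (R := G * (M * G)) (S := G * (μ * G)) bb c0 h7.le b0 g0 (by linarith) (by linarith)
    (by linarith) (by rw [← H.can]; ring) hκ (by linarith) (by linarith)

include H c0 k0 b0 g0 ab hκ in
theorem rr13 : c * E * (a + b) ≤ κ * ((β + γ * (μ / M)) * E ^ 2) := by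
  have h7 := H.E0
  have h8 := mul_le_mul_of_nonneg_left H.GE h7.le
  have h9 := H.hML
  have h10 := H.M1
  have h11 := H.μ1
  have h12 := mul_le_mul_of_nonneg_left (by linarith : 1 ≤ μ / M * E) h7.le
  have h13 := mul_pos h7 h7
  exact rr_ar (R := E ^ 2) (S := μ / M * E ^ 2) ab c0 h7.le b0 g0 (by linarith) (by linarith)
    (by linarith) (by ring) hκ (by positivity) (by linarith)

include H c0 k0 b0 g0 ab hκ in
theorem rr14 : c * E * (a + b) ≤ κ * ((β + γ * (μ / M)) * (E * (M * G))) := by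
  have h7 := H.E0
  have h8 := mul_le_mul_of_nonneg_left (H.μG.trans H.MμG) h7.le
  have h9 := mul_le_mul_of_nonneg_left (H.G1.trans H.μG) h7.le
  have h10 := mul_nonneg h7.le H.G0
  exact rr_ar (R := E * (M * G)) (S := E * (μ * G)) ab c0 h7.le b0 g0 (by linarith)
    (by linarith) (by linarith) (by rw [← H.can]; ring) hκ (by linarith) (by linarith)

include H k0 b0 g0 ab in
theorem rr15 : (E * r + N) * (a + b) ≤ 4 * k * ((β + γ * (μ / M)) * (M * G) ^ 2) := by
  have h4 := H.XG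
  have h5 := H.MμG
  have h6 := H.μG
  have h8 := H.G0
  have h9 := H.G1
  have h10 : 0 ≤ M * G := by linarith
  have h11 := mul_le_mul (by linarith : E * r + N ≤ 2 * (M * G)) (by linarith : G ≤ M * G) h8
    (by linarith)
  have h12 : 1 ≤ M * G := by linarith
  have h13 := mul_le_mul_of_nonneg_left h12 (by linarith : 0 ≤ μ * G)
  have := rr_ar (c := 1) (κ := 4 * k) (X := E * r + N) (R := (M * G) ^ 2) (S := μ * G * (M * G))
    (q := (β + γ * (μ / M)) * (M * G) ^ 2) ab (by norm_num) H.X0 b0 g0 (by linarith)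
    (by linarith) (by linarith) (by rw [← H.can]; ring) (by linarith) (by positivity)
    (mul_nonneg (by linarith) h10)
  linarith

include H k0 b0 g0 bb in
theorem rr16 : E * b ≤ 4 * k * ((β + γ * (μ / M)) * (M * G) ^ 2) := by
  have h5 := H.MμG
  have h6 := H.μG
  have h8 := H.G0
  have h9 := H.G1
  have h10 : 0 ≤ M * G := by linarith
  have h1 := H.G2
  have h2 : E ≤ μ * G * (M * G) := by
    have := mul_le_mul_of_nonneg_left (h6.trans h5) (by linarith : 0 ≤ μ * G)
    linarith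
  have h3 : E ≤ (M * G) ^ 2 := by
    have := mul_le_mul_of_nonneg_right h5 h10
    linarith
  have h7 := H.E0
  have := rr_ar (c := 1) (κ := 4 * k) (X := E) (R := (M * G) ^ 2) (S := μ * G * (M * G))
    (q := (β + γ * (μ / M)) * (M * G) ^ 2) bb (by norm_num) h7.le b0 g0 (by linarith)
    (by linarith) (by linarith) (by rw [← H.can]; ring) (by linarith) (by positivity)
    (by linarith)
  linarith

end rr

/-- **The scalar conditions.** -/
theorem rr_of {E r N m μ M G a b β γ c k n : ℝ} (H : Nm E r N m μ M G) (n0 : 0 ≤ n)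
    (hc : 1 ≤ c) (hk : 0 ≤ k) (b0 : 0 ≤ β) (b1 : β ≤ 1) (g0 : 0 ≤ γ) (g1 : γ ≤ 1)
    (ha0 : 0 ≤ a) (hb0 : 0 ≤ b) (ha : a ≤ k * (β * G + γ)) (hb : b ≤ k * (β + γ)) :
    RR n a b (c * E) (c * (E * r + N)) (c * (m + N)) (c * E) (c * (E * r + N))
      (c * (E * r + N) / E) (12 * c ^ 2 * k * (β + γ * (μ / M))) G (M * G) E (4 * k) := by
  have c0 : 0 ≤ c := by linarith
  have G0 := H.G0
  have G1 := H.G1
  have M0 := H.M0
  have E0 := H.E0
  have ab : a + b ≤ 2 * k * (β * G + γ) := by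
    have : k * (β * 1) ≤ k * (β * G) :=
      mul_le_mul_of_nonneg_left (mul_le_mul_of_nonneg_left G1 b0) hk
    linarith
  have bb : b ≤ 2 * k * (β * 1 + γ) := by
    have : 0 ≤ k * (β + γ) := by positivity
    linarith
  have cc : c ≤ c ^ 2 := by nlinarith
  have hκ : 2 * (c * (2 * k)) ≤ 12 * c ^ 2 * k := by
    have := mul_le_mul_of_nonneg_right cc hk
    have : 0 ≤ c ^ 2 * k := by positivity
    linarith
  have A0 : 0 ≤ 2 * k := by linarith
  have μ0 : 0 < μ := by linarith [H.μ1]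
  have Gb : β * G + γ ≤ 2 * G := by
    have := mul_le_mul_of_nonneg_right b1 G0
    linarith
  have Gb1 : β * 1 + γ ≤ 2 := by linarith
  have GM : G ≤ M * G := H.μG.trans H.MμG
  have G2E : G ^ 2 ≤ E := by
    rw [← H.G2]
    exact le_mul_of_one_le_left (sq_nonneg _) H.μ1
  exact
    { n0 := n0
      a0 := ha0
      b0 := hb0
      h10 := by positivity
      h20 := mul_nonneg c0 H.X0
      h30 := mul_nonneg c0 (add_nonneg H.m0 H.N0)
      l0 := by positivity
      k0 := div_nonneg (mul_nonneg c0 H.X0) E0.le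
      Z0 := by positivity
      G0 := G0
      F0 := by positivity
      e0 := E0.le
      K0 := by positivity
      r1 := by have := rr1 H c0 hk b0 g0 ab hκ; linarith
      r2 := by have := rr2 H c0 hk b0 g0 bb hκ; linarith
      r3 := by have := rr3 H c0 hk b0 g0 ab hκ; linarith
      r4 := by have := rr4 H c0 hk b0 g0 bb hκ; linarith
      r5 := by have := rr5 H c0 hk b0 g0 ab hκ; linarith
      r6 := by have := rr6 H c0 hk b0 g0 bb hκ; linarith
      r7 := by have := rr7 H c0 hk b0 g0 ab hκ; linarith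
      r8 := by have := rr8 H c0 hk b0 g0 bb hκ; linarith
      r9 := by
        have y := mul_le_mul_of_nonneg_left (Gb.trans (by linarith : 2 * G ≤ 2 * (M * G))) A0
        linarith
      r10 := by
        have y := mul_le_mul_of_nonneg_left (Gb1.trans (by linarith [H.GE] : 2 ≤ 2 * E)) A0
        linarith
      r11 := by
        have y := mul_le_mul_of_nonneg_left ab G0
        have y2 := mul_le_mul_of_nonneg_left Gb (mul_nonneg A0 G0)
        have y3 := mul_le_mul_of_nonneg_left G2E A0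
        linarith
      r12 := by
        have y := mul_le_mul_of_nonneg_left bb G0
        have y2 := mul_le_mul_of_nonneg_left Gb1 (mul_nonneg A0 G0)
        have y3 := mul_le_mul_of_nonneg_left GM A0
        linarith
      r13 := by have := rr13 H c0 hk b0 g0 ab hκ; linarith
      r14 := by have := rr14 H c0 hk b0 g0 ab hκ; linarith
      r15 := by
        have y1 := rr15 H hk b0 g0 ab
        have y2 := rr16 H hk b0 g0 bb
        have e1 : c * (E * r + N) * (a + b) + c * E * b +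
            c * (E * r + N) / E * (c * E) * (a + b) =
            (c + c ^ 2) * ((E * r + N) * (a + b)) + c * (E * b) := by
          field_simp
          ring
        rw [e1]
        have q0 : 0 ≤ k * ((β + γ * (μ / M)) * (M * G) ^ 2) := by positivity
        have z1 := mul_le_mul_of_nonneg_left y1 (by positivity : 0 ≤ c + c ^ 2)
        have z2 := mul_le_mul_of_nonneg_left y2 c0
        have z3 := mul_le_mul_of_nonneg_right cc q0
        have z4 : 0 ≤ c ^ 2 * (k * ((β + γ * (μ / M)) * (M * G) ^ 2)) := by positivity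
        linarith }

end Vale.Agent.P088.R2.H516.O
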