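import Vale.Agent.P088.R2.H516.O.Cr4

/-!
# Zone B1: the field `cr` of `HO` and the structure `HM` from the bounds of the weight
-/

open Set Filter
open scoped ContDiff Topology

noncomputable section

namespace Vale.Agent.P088.R2.H516.O

open Vale.Agent.P088.R2.H961.GW Vale.Agent.P088.R2.H644 Vale.Agent.P088.R2.H960.W
  Vale.Agent.P088.R2.H747.S Vale.Agent.P088.R2.H551.E Vale.Agent.P088.R2.H86.Z

variable {E ι : Type*} [NormedAddCommGroup E] [NormedSpace ℝ E] [Fintype ι]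

theorem HL.mono {σ τ : Sl E ι} {W : E → ℝ} {h₁ h₂ h₃ lm lp kp h₁' h₂' h₃' lm' lp' kp' : ℝ} {z : E}
    (h : HL σ τ W h₁ h₂ h₃ lm lp kp z) (a1 : h₁ ≤ h₁') (a2 : h₂ ≤ h₂') (a3 : h₃ ≤ h₃')
    (a4 : lm ≤ lm') (a5 : lp ≤ lp') (a6 : kp ≤ kp') : HL σ τ W h₁' h₂' h₃' lm' lp' kp' z where
  b1 i j := (h.b1 i j).trans a1
  b2 i j := (h.b2 i j).trans a1
  b3 i j := (h.b3 i j).trans a1
  c1 i j := (h.c1 i j).trans a2
  c2 i j := (h.c2 i j).trans a2
  d i j := (h.d i j).trans a3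
  s1 := h.s1
  s2 := h.s2
  sd i j := (h.sd i j).trans a6
  l11 i := (h.l11 i).trans a4
  l12 i := (h.l12 i).trans a4
  l21 i := (h.l21 i).trans a4
  l22 i := (h.l22 i).trans a4
  lp' i := (h.lp' i).trans a5

/-- The constant of the Hessian. -/
def cH (n C : ℝ) : ℝ := 26 * (n + 1) ^ 2 * C ^ 3

/-- The constant of `cr`. -/
def cCr (n C k : ℝ) : ℝ :=
  (72 + 36 * (4 * ((n + 1) * k)) + 24 * n) * (12 * cH n C ^ 2 * ((n + 1) * k))

theorem cH_ge {n C : ℝ} (n0 : 0 ≤ n) (hC : 1 ≤ C) : 1 ≤ cH n C ∧ C ≤ cH n C ∧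
    n ^ 2 * (10 * C ^ 2) ≤ cH n C ∧ n ^ 2 * (9 * C ^ 2) ≤ cH n C ∧
    n ^ 2 * (26 * C ^ 3) ≤ cH n C := by
  have h1 : C ≤ C ^ 3 := le_self_pow₀ hC (by norm_num)
  have h2 : C ^ 2 ≤ C ^ 3 := pow_le_pow_right₀ hC (by norm_num)
  have h3 : n ^ 2 ≤ (n + 1) ^ 2 := by nlinarith
  have h4 : 1 ≤ (n + 1) ^ 2 := by nlinarith
  have h5 : 0 ≤ C ^ 3 := by positivity
  have h6 : 1 * C ^ 3 ≤ (n + 1) ^ 2 * C ^ 3 := mul_le_mul_of_nonneg_right h4 h5
  have h7 : n ^ 2 * C ^ 3 ≤ (n + 1) ^ 2 * C ^ 3 := mul_le_mul_of_nonneg_right h3 h5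
  have h8 : n ^ 2 * C ^ 2 ≤ n ^ 2 * C ^ 3 := mul_le_mul_of_nonneg_left h2 (sq_nonneg _)
  have h9 : 0 ≤ n ^ 2 * C ^ 2 := by positivity
  unfold cH
  refine ⟨?_, ?_, ?_, ?_, ?_⟩ <;> nlinarith

section pw

variable {σ τ : Sl E ι} {U : Set E} {θ : E → ℝ} {v₁ v₂ W χ : E → ℝ}
  {C e r N m μ M G k β γ : ℝ} {z : E}

/-- The Hessian with one constant. -/
theorem WB.hl' (w : WB σ τ W C e r N z) (hC : 1 ≤ C) (H : Nm e r N m μ M G) (hNe : N ≤ e)
    (ok : σ.Ok U θ) (ot : τ.Ok U θ) (cm : Cm σ τ U) (h1 : ∀ z, σ.ρ z = 1)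
    (h2 : ∀ z, τ.ρ z = 1) (hW : Sm U W) (hz : z ∈ U) :
    HL σ τ W (cH (Fintype.card ι) C * e) (cH (Fintype.card ι) C * (e * r + N))
      (cH (Fintype.card ι) C * (m + N)) (cH (Fintype.card ι) C * e)
      (cH (Fintype.card ι) C * (e * r + N)) (cH (Fintype.card ι) C * (e * r + N) / e) z := by
  obtain ⟨g1, g2, g3, g4, g5⟩ := cH_ge (n := (Fintype.card ι : ℝ)) (Nat.cast_nonneg _) hC
  have h := w.hl hC H.E0 H.r0 H.r1 H.N0 hNe ok ot cm h1 h2 hW hz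
  have X0 := H.X0
  have p0 : 0 ≤ e * r ^ 2 + N := by rw [← H.hm]; exact add_nonneg H.m0 H.N0
  refine h.mono ?_ ?_ ?_ ?_ ?_ ?_
  · have := mul_le_mul_of_nonneg_right g3 H.E0.le
    linarith
  · have := mul_le_mul_of_nonneg_right g4 X0
    linarith
  · have := mul_le_mul_of_nonneg_right g5 p0
    rw [H.hm]
    linarith
  · exact mul_le_mul_of_nonneg_right g2 H.E0.le
  · exact mul_le_mul_of_nonneg_right g2 X0
  · exact div_le_div_of_nonneg_right (mul_le_mul_of_nonneg_right g2 X0) H.E0.le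

theorem l1_of {u : ι → ℝ} {a : ℝ} (a0 : 0 ≤ a) (h : ∑ i, u i ^ 2 ≤ a ^ 2) :
    l1 u ≤ ((Fintype.card ι : ℝ) + 1) * a := by
  have n0 : (0 : ℝ) ≤ Fintype.card ι := Nat.cast_nonneg _
  have h1 := l1_sq u
  have h2 := mul_le_mul_of_nonneg_left h n0
  have h3 : l1 u ^ 2 ≤ (((Fintype.card ι : ℝ) + 1) * a) ^ 2 := by
    have := sq_nonneg a
    nlinarith [mul_nonneg (mul_nonneg n0 n0) this, mul_nonneg n0 this]
  exact (abs_le_of_sq_le_sq' h3 (by positivity)).2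

/-- **The field `cr` of `HO`.** -/
theorem WB.cr (w : WB σ τ W C e r N z) (hC : 1 ≤ C) (H : Nm e r N m μ M G) (hNe : N ≤ e)
    (ok : σ.Ok U θ) (ot : τ.Ok U θ) (cm : Cm σ τ U) (h1 : ∀ z, σ.ρ z = 1)
    (h2 : ∀ z, τ.ρ z = 1) (hW : Sm U W) (hz : z ∈ U) (k0 : 0 ≤ k) (b0 : 0 ≤ β) (b1 : β ≤ 1)
    (g0 : 0 ≤ γ) (g1 : γ ≤ 1) (hχ : |χ z| ≤ 1)
    (hd : ∑ i, σ.D i χ z ^ 2 ≤ (k * (β * G + γ)) ^ 2)
    (hdd : ∑ i, (σ.D i χ z + τ.D i χ z) ^ 2 ≤ (k * (β + γ)) ^ 2) (A B : ι → ℝ) (x y : ℝ) :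
    |sf σ τ v₁ v₂ W z (fun i => χ z * A i - x * σ.D i χ z) (fun i => χ z * B i - y * τ.D i χ z)
        (χ z * x) (χ z * y) - χ z ^ 2 * sf σ τ v₁ v₂ W z A B x y| ≤
      cCr (Fintype.card ι) C k * (β + γ * (μ / M)) * ((∑ i, A i ^ 2) + (∑ i, B i ^ 2) +
        G ^ 2 * (∑ i, (A i - B i) ^ 2) + e ^ 2 * (x + y) ^ 2 + (M * G) ^ 2 * (x - y) ^ 2) := by
  have n0 : (0 : ℝ) ≤ Fintype.card ι := Nat.cast_nonneg _
  have G0 := H.G0
  have hg := cH_ge n0 hC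
  have ha : l1 (fun i => σ.D i χ z) ≤ ((Fintype.card ι : ℝ) + 1) * (k * (β * G + γ)) :=
    l1_of (by positivity) hd
  have hb : l1 (fun i => σ.D i χ z + τ.D i χ z) ≤
      ((Fintype.card ι : ℝ) + 1) * (k * (β + γ)) := l1_of (by positivity) hdd
  have R := rr_of (n := (Fintype.card ι : ℝ)) (k := ((Fintype.card ι : ℝ) + 1) * k)
    (a := ((Fintype.card ι : ℝ) + 1) * (k * (β * G + γ)))
    (b := ((Fintype.card ι : ℝ) + 1) * (k * (β + γ))) H n0 hg.1 (by positivity) b0 b1 g0 g1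
    (by positivity) (by positivity) (le_of_eq (by ring)) (le_of_eq (by ring))
  have key := cr_of ok ot v₁ v₂ (w.hl' hC H hNe ok ot cm h1 h2 hW hz) R ha hb hχ A B x y
  refine key.trans (le_of_eq ?_)
  unfold cCr
  ring

/-- `HO` with a larger `Z`. -/
theorem HO.mono {ψ om w g f h f₀ Z Z' Y Y' : E → ℝ}
    (H : HO σ τ v₁ v₂ W χ ψ om w g f h f₀ Z Z' z) (el₁ : El σ z) (el₂ : El τ z)
    (hZ : Z z ≤ Y z) (hZ' : Z' z ≤ Y' z) : HO σ τ v₁ v₂ W χ ψ om w g f h f₀ Y Y' z := by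
  have m : ∀ {a b : ℝ}, 0 ≤ b → a ≤ Z z * b → a ≤ Y z * b := fun hb ha =>
    ha.trans (mul_le_mul_of_nonneg_right hZ hb)
  have m' : ∀ {a b : ℝ}, 0 ≤ b → a ≤ Z' z * b → a ≤ Y' z * b := fun hb ha =>
    ha.trans (mul_le_mul_of_nonneg_right hZ' hb)
  exact
    { w0 := H.w0
      h0 := H.h0
      g0 := H.g0
      e0 := H.e0
      Z0 := H.Z0.trans hZ
      z0 := H.z0.trans hZ'
      f0 := H.f0
      d1 := H.d1
      d2 := H.d2
      l1 := m H.e0 H.l1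
      l2 := m H.f0 H.l2
      l3 := m H.f0 H.l3
      hw := H.hw
      od := H.od
      gg := m H.g0 H.gg
      kk := m H.f0 H.kk
      b1 := m H.e0 H.b1
      b2 := m H.e0 H.b2
      c1 := m H.f0 H.c1
      c2 := m H.f0 H.c2
      k1 := m' H.w0.le H.k1
      k2 := m' H.w0.le H.k2
      cr := fun A B x y => by
        refine (H.cr A B x y).trans (mul_le_mul_of_nonneg_right hZ ?_)
        have a1 : 0 ≤ ∑ i, A i ^ 2 := Finset.sum_nonneg fun _ _ => sq_nonneg _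
        have a2 : 0 ≤ ∑ i, B i ^ 2 := Finset.sum_nonneg fun _ _ => sq_nonneg _
        have a3 : 0 ≤ ∑ i, (A i - B i) ^ 2 := Finset.sum_nonneg fun _ _ => sq_nonneg _
        have a4 := mul_nonneg H.g0 a3
        have a5 := mul_nonneg (el₁.F0 W) (sq_nonneg x)
        have a6 := mul_nonneg (el₂.F0 W) (sq_nonneg y)
        have a7 := mul_nonneg H.e0 (sq_nonneg (x + y))
        have a8 := mul_nonneg H.f0 (sq_nonneg (x - y))
        linarith }

theorem ar_n {n : ℝ} (n0 : 0 ≤ n) : n ≤ 16 * (n + 1) ^ 2 := by nlinarith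

theorem G_le_n {s : ι → ι → ℝ} {u : ι → ℝ} {a : ℝ} (hs : ∀ i j, |s i j| ≤ 2)
    (hu : ∀ i, |u i| ≤ a) : ∑ i, ∑ j, s i j * u i * u j ≤
      (Fintype.card ι : ℝ) ^ 2 * (2 * a ^ 2) := by
  refine (le_abs_self _).trans (dsum_le fun i j => ?_)
  refine (ab3 (hs i j) (hu i) (hu j)).trans (le_of_eq (by ring))

/-- **`HM` from `HO` and the bounds of the weight.** -/
theorem HO.hm {ψ om w' g g₁ hi f h f₀ wc Z Z' Y : E → ℝ}
    (H : HO σ τ v₁ v₂ W χ ψ om w' g f h f₀ Z Z' z)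
    (dd : ∑ i, (σ.D i χ z + τ.D i χ z) ^ 2 ≤ om z ^ 2)
    (hw : w' z ≥ hi z) (w : χ z ≠ 0 → WB σ τ W C e r N z ∧ Nm e r N m μ M G ∧ g₁ z = G ^ 2 ∧
      hi z = G ^ 2 ∧ f z = e ^ 2 ∧ wc z = (M * G) ^ 2) (el₁ : El σ z) (el₂ : El τ z)
    (hg0 : 0 ≤ g₁ z) (hi0 : 0 ≤ hi z) (hw0 : 0 ≤ wc z) (hgf : hi z * g z ≤ f z) (hgf' : g z ≤ f₀ z)
    (hY : Y z = 2 * Z z) :
    HM σ τ W χ g₁ hi f f₀ wc Y (16 * ((Fintype.card ι : ℝ) + 1) ^ 2 * C ^ 2) z := by
  have n0 : (0 : ℝ) ≤ Fintype.card ι := Nat.cast_nonneg _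
  have hZ0 := H.Z0
  have hψ : D2 σ χ z + D2 τ χ z ≤ 2 * ψ z ^ 2 := by
    have h1 : D2 σ χ z ≤ ψ z ^ 2 := H.d1
    have h2 : D2 τ χ z ≤ ψ z ^ 2 := H.d2
    linarith
  have c1' := mul_le_mul_of_nonneg_left hψ hi0
  have c2' := mul_le_mul_of_nonneg_left H.gg hi0
  have c3' := mul_le_mul_of_nonneg_left hgf hZ0
  have c4' := mul_le_mul_of_nonneg_left hgf' hZ0
  have c5' := mul_le_mul_of_nonneg_left dd hi0
  have c6' := mul_le_mul_of_nonneg_right hw (sq_nonneg (om z))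
  have c7' : w' z * om z ^ 2 ≤ Z z * f₀ z := by
    have h1 := H.c1
    have h2 : 0 ≤ 4 * σ.Γ om om z := by
      have := el₁.G0 om
      linarith
    have h3 : 0 ≤ 2 * om z ^ 2 * |v₁ z| := by positivity
    have h4 : 0 ≤ 4 * om z ^ 2 * σ.F W z := by
      have := el₁.F0 W
      positivity
    linarith
  have g1 := H.gg
  by_cases hc : χ z = 0
  · exact
      { g0 := hg0
        i0 := hi0
        w0 := hw0
        gi := by rw [hc]; linarith
        h1 := by rw [hc]; linarith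
        he := by rw [hc]; linarith
        hw := by rw [hc]; linarith
        hd := by rw [hc]; linarith
        c1 := by rw [hY]; linarith
        c2 := by rw [hY]; linarith
        c3 := by rw [hY]; have := mul_nonneg hZ0 H.f0; linarith }
  · obtain ⟨w1, nm, eg, ei, ef, ew⟩ := w hc
    have G1 := nm.G1
    have G0 := nm.G0
    have E0 := nm.E0
    have X0 := nm.X0
    have XG := nm.XG
    have MG := nm.MG
    have MμG := nm.MμG
    have m0 := nm.m0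
    have N0 := nm.N0
    have hMe := nm.hM
    have hμe := nm.hμ
    have x0 := sq_nonneg (χ z)
    have gg1 : 1 ≤ G ^ 2 := one_le_pow₀ G1
    have F1 : σ.F W z ≤ (Fintype.card ι : ℝ) ^ 2 * (2 * (C * (e * r + N)) ^ 2) :=
      G_le_n w1.s1 w1.w1
    have F2 : τ.F W z ≤ (Fintype.card ι : ℝ) ^ 2 * (2 * (C * (e * r + N)) ^ 2) :=
      G_le_n w1.s2 w1.w2
    have nn : (Fintype.card ι : ℝ) ^ 2 ≤ ((Fintype.card ι : ℝ) + 1) ^ 2 :=
      pow_le_pow_left₀ n0 (by linarith) 2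
    have X2 : (e * r + N) ^ 2 ≤ 4 * (μ * G) ^ 2 :=
      (pow_le_pow_left₀ X0 XG 2).trans (le_of_eq (by ring))
    have FF : σ.F W z + τ.F W z ≤ 16 * ((Fintype.card ι : ℝ) + 1) ^ 2 * C ^ 2 * (μ * G) ^ 2 := by
      have h1 : (Fintype.card ι : ℝ) ^ 2 * (C ^ 2 * (e * r + N) ^ 2) ≤
          ((Fintype.card ι : ℝ) + 1) ^ 2 * (C ^ 2 * (4 * (μ * G) ^ 2)) :=
        mul_le_mul nn (mul_le_mul_of_nonneg_left X2 (sq_nonneg C)) (by positivity) (by positivity)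
      have e1 : (C * (e * r + N)) ^ 2 = C ^ 2 * (e * r + N) ^ 2 := by ring
      rw [e1] at F1 F2
      linarith
    have K0 : 0 ≤ 16 * ((Fintype.card ι : ℝ) + 1) ^ 2 * C ^ 2 := by positivity
    have hd1 : ∑ i, (σ.D i W z + τ.D i W z) ^ 2 ≤ (Fintype.card ι : ℝ) * (C ^ 2 * M ^ 2) := by
      have h1 : ∀ i, (σ.D i W z + τ.D i W z) ^ 2 ≤ C ^ 2 * M ^ 2 := fun i => by
        have h2 := w1.wp i
        have h3 : |σ.D i W z + τ.D i W z| ^ 2 ≤ (C * (e * r ^ 2 + N)) ^ 2 :=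
          pow_le_pow_left₀ (abs_nonneg _) h2 2
        rw [sq_abs] at h3
        have h4 : (e * r ^ 2 + N) ^ 2 ≤ M ^ 2 := by
          rw [← nm.hm]
          exact pow_le_pow_left₀ (by linarith) (by linarith) 2
        have h5 := mul_le_mul_of_nonneg_left h4 (sq_nonneg C)
        have e1 : (C * (e * r ^ 2 + N)) ^ 2 = C ^ 2 * (e * r ^ 2 + N) ^ 2 := by ring
        linarith
      refine (Finset.sum_le_sum fun i _ => h1 i).trans ?_
      rw [Finset.sum_const, Finset.card_univ, nsmul_eq_mul]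
    exact
      { g0 := hg0
        i0 := hi0
        w0 := hw0
        gi := by rw [eg, ei]
        h1 := by rw [ei]; have := mul_le_mul_of_nonneg_left gg1 x0; linarith
        he := by
          rw [ei, ef]
          have h1 := mul_le_mul_of_nonneg_left FF (sq_nonneg G)
          have e1 : G ^ 2 * (16 * ((Fintype.card ι : ℝ) + 1) ^ 2 * C ^ 2 * (μ * G) ^ 2) =
              16 * ((Fintype.card ι : ℝ) + 1) ^ 2 * C ^ 2 * e ^ 2 := by
            rw [← nm.G2]; ring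
          rw [e1] at h1
          have h2 := mul_le_mul_of_nonneg_left h1 x0
          linarith
        hw := by
          rw [ew]
          have h1 : (μ * G) ^ 2 ≤ (M * G) ^ 2 :=
            pow_le_pow_left₀ (mul_nonneg (by linarith [nm.μ1]) G0) MμG 2
          have h2 := mul_le_mul_of_nonneg_left h1 K0
          have h3 := mul_le_mul_of_nonneg_left (FF.trans h2) x0
          linarith
        hd := by
          rw [eg, ew]
          have h1 := mul_le_mul_of_nonneg_left hd1 (sq_nonneg G)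
          have h2 : (Fintype.card ι : ℝ) ≤ 16 * ((Fintype.card ι : ℝ) + 1) ^ 2 := ar_n n0
          have h3 := mul_le_mul_of_nonneg_right h2 (by positivity : 0 ≤ C ^ 2 * (M * G) ^ 2)
          have h4 : G ^ 2 * ∑ i, (σ.D i W z + τ.D i W z) ^ 2 ≤
              16 * ((Fintype.card ι : ℝ) + 1) ^ 2 * C ^ 2 * (M * G) ^ 2 := by
            have e1 : G ^ 2 * ((Fintype.card ι : ℝ) * (C ^ 2 * M ^ 2)) =
                (Fintype.card ι : ℝ) * (C ^ 2 * (M * G) ^ 2) := by ring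
            linarith
          have h5 := mul_le_mul_of_nonneg_left h4 x0
          linarith
        c1 := by rw [hY]; linarith
        c2 := by rw [hY]; linarith
        c3 := by rw [hY]; have := mul_nonneg hZ0 H.f0; linarith }

end pw

end Vale.Agent.P088.R2.H516.O
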