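import Vale.Agent.P088.R2.H516.O.Spec

/-!
# Zone B1, outer cut-off: energies and the commutators `[P_j, χ]`
-/

open MeasureTheory Set Filter
open scoped ContDiff Topology

noncomputable section

namespace Vale.Agent.P088.R2.H516.O

open Vale.Agent.P088.R2.H961.GW Vale.Agent.P088.R2.H644 Vale.Agent.P088.R2.H960.W
  Vale.Agent.P088.R2.H747.S Vale.Agent.P088.R2.H551.E Vale.Agent.P088.R2.H86.Z

variable {E ι : Type*} [NormedAddCommGroup E] [NormedSpace ℝ E] [Fintype ι]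

/-- `∑ (D_i f)²`. -/
def D2 (σ : Sl E ι) (f : E → ℝ) (z : E) : ℝ := ∑ i, σ.D i f z ^ 2

section pw

variable {σ τ : Sl E ι} {U : Set E} {θ : E → ℝ} {v v₁ v₂ W χ ψ f a b : E → ℝ} {z : E}

theorem D2_nonneg (σ : Sl E ι) (f : E → ℝ) (z : E) : 0 ≤ D2 σ f z :=
  Finset.sum_nonneg fun _ _ => sq_nonneg _

theorem G_le_D2 (h : El σ z) (f : E → ℝ) : σ.Γ f f z ≤ 2 * D2 σ f z := by
  have h1 := h.up fun i => σ.D i f z
  exact h1

theorem D2_le_G (h : El σ z) (f : E → ℝ) : D2 σ f z ≤ 2 * σ.Γ f f z := by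
  have h1 := h.lo fun i => σ.D i f z
  exact h1

theorem psd_of (el : ∀ z ∈ U, El σ z) : Psd σ U := fun z hz x => by
  have h := (el z hz).lo x
  have h0 : 0 ≤ ∑ i, x i ^ 2 := Finset.sum_nonneg fun i _ => sq_nonneg _
  linarith

/-- `s(x, y)² ≤ s(x, x) s(y, y)`. -/
theorem cs2 (ok : σ.Ok U θ) (h : El σ z) (x y : ι → ℝ) :
    (∑ i, ∑ j, σ.s i j z * x i * y j) ^ 2 ≤ 4 * (∑ i, x i ^ 2) * ∑ i, y i ^ 2 := by
  set A := ∑ i, ∑ j, σ.s i j z * x i * x j with hA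
  set B := ∑ i, ∑ j, σ.s i j z * x i * y j with hB
  set C := ∑ i, ∑ j, σ.s i j z * y i * y j with hC
  have key : ∀ t : ℝ, 0 ≤ A * (t * t) + 2 * B * t + C := by
    intro t
    have h1 := h.lo fun i => t * x i + y i
    have h0 : 0 ≤ ∑ i, (t * x i + y i) ^ 2 := Finset.sum_nonneg fun i _ => sq_nonneg _
    have e : ∑ i, ∑ j, σ.s i j z * (t * x i + y i) * (t * x j + y j) =
        A * (t * t) + 2 * B * t + C := by
      have e1 : ∑ i, ∑ j, σ.s i j z * y i * x j = B := by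
        rw [Finset.sum_comm]
        refine Finset.sum_congr rfl fun i _ => Finset.sum_congr rfl fun j _ => ?_
        rw [ok.sy j i]; ring
      have e2 : 2 * B * t = B * t + (∑ i, ∑ j, σ.s i j z * y i * x j) * t := by rw [e1]; ring
      rw [e2, hA, hB, hC]
      simp only [Finset.sum_mul, ← Finset.sum_add_distrib]
      exact Finset.sum_congr rfl fun i _ => Finset.sum_congr rfl fun j _ => by ring
    rw [← e]; linarith
  have hd := discrim_le_zero key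
  unfold discrim at hd
  have hx := h.up x
  have hy := h.up y
  have hx0 : 0 ≤ ∑ i, x i ^ 2 := Finset.sum_nonneg fun i _ => sq_nonneg _
  have hy0 : 0 ≤ ∑ i, y i ^ 2 := Finset.sum_nonneg fun i _ => sq_nonneg _
  have hC0 : 0 ≤ C := by
    have := h.lo y
    linarith
  have h2 : B ^ 2 ≤ A * C := by nlinarith
  have h3 : A * C ≤ (2 * ∑ i, x i ^ 2) * (2 * ∑ i, y i ^ 2) :=
    mul_le_mul hx hy hC0 (by positivity)
  linarith

/-- The commutator of `P` and `χ` in terms of `Y f`. -/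
theorem N_eq (ok : σ.Ok U θ) (W χ f : E → ℝ) (z : E) :
    σ.N W χ f z = 2 * (∑ i, ∑ j, σ.s i j z * σ.D i χ z * YY σ W f j z) + σ.Λ χ z * f z := by
  have e1 : ∑ i, ∑ j, σ.s i j z * σ.D i χ z * YY σ W f j z =
      σ.Γ χ f z + f z * σ.Γ χ W z := by
    unfold Sl.Γ YY
    rw [Finset.mul_sum, ← Finset.sum_add_distrib]
    refine Finset.sum_congr rfl fun i _ => ?_
    rw [Finset.mul_sum, ← Finset.sum_add_distrib]
    exact Finset.sum_congr rfl fun j _ => by ring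
  rw [e1, G_comm ok χ W]
  unfold Sl.N
  ring

/-- `∑ (Y_i f)²`. -/
def sY2 (σ : Sl E ι) (W f : E → ℝ) (z : E) : ℝ := ∑ i, YY σ W f i z ^ 2

theorem sY2_nonneg (σ : Sl E ι) (W f : E → ℝ) (z : E) : 0 ≤ sY2 σ W f z :=
  Finset.sum_nonneg fun _ _ => sq_nonneg _

theorem sY2_le (h : El σ z) (W f : E → ℝ) :
    sY2 σ W f z ≤ 2 * D2 σ f z + 4 * (σ.F W z * f z ^ 2) := by
  have h1 : sY2 σ W f z ≤ 2 * D2 σ f z + 2 * (f z ^ 2 * D2 σ W z) := by
    unfold sY2 YY D2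
    simp only [Finset.mul_sum, ← Finset.sum_add_distrib]
    refine Finset.sum_le_sum fun i _ => ?_
    nlinarith [sq_nonneg (σ.D i f z - f z * σ.D i W z)]
  have h2 : D2 σ W z ≤ 2 * σ.F W z := D2_le_G h W
  nlinarith [mul_le_mul_of_nonneg_left h2 (sq_nonneg (f z))]

theorem nX_le (h : El σ z) (W f : E → ℝ) :
    nX σ W f z ≤ 2 * D2 σ f z + 4 * (σ.F W z * f z ^ 2) := by
  have h1 : nX σ W f z ≤ 2 * D2 σ f z + 2 * (f z ^ 2 * D2 σ W z) := by
    unfold nX Ch.XX D2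
    simp only [Finset.mul_sum, ← Finset.sum_add_distrib]
    refine Finset.sum_le_sum fun i _ => ?_
    nlinarith [sq_nonneg (σ.D i f z + f z * σ.D i W z)]
  have h2 : D2 σ W z ≤ 2 * σ.F W z := D2_le_G h W
  nlinarith [mul_le_mul_of_nonneg_left h2 (sq_nonneg (f z))]

/-- The commutator is bounded by `|D χ| |Y f|`. -/
theorem N_sq_le (ok : σ.Ok U θ) (h : El σ z) (W χ f : E → ℝ) {p : ℝ} (hp : D2 σ χ z ≤ p) :
    σ.N W χ f z ^ 2 ≤ 32 * (p * sY2 σ W f z) + 2 * (σ.Λ χ z ^ 2 * f z ^ 2) := by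
  rw [N_eq ok W χ f z]
  have h1 := cs2 ok h (fun i => σ.D i χ z) fun j => YY σ W f j z
  set q := ∑ i, ∑ j, σ.s i j z * σ.D i χ z * YY σ W f j z with hq
  have h2 : q ^ 2 ≤ 4 * (p * sY2 σ W f z) := by
    refine h1.trans ?_
    have := mul_le_mul_of_nonneg_right hp (sY2_nonneg σ W f z)
    change 4 * D2 σ χ z * sY2 σ W f z ≤ _
    linarith
  nlinarith [sq_nonneg (2 * q - σ.Λ χ z * f z)]

end pw

variable [MeasureSpace E] [FiniteDimensional ℝ E] [BorelSpace E]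
  [(volume : Measure E).IsAddHaarMeasure]

section integral

variable {σ τ : Sl E ι} {U : Set E} {θ : E → ℝ} {v v₁ v₂ W χ ψ f a b w : E → ℝ}

theorem tD2 (ok : σ.Ok U θ) (hf : Te U f) : Te U (D2 σ f) :=
  Te.sum ok.op _ fun i _ => (ok.tD hf i).sq ok.op

theorem tsY2 (ok : σ.Ok U θ) (hW : Sm U W) (hf : Te U f) : Te U (sY2 σ W f) :=
  Te.sum ok.op _ fun i _ => (tY ok hW hf i).sq ok.op

/-- **The energy with the weight `ψ²`.** -/
theorem en (ok : σ.Ok U θ) (el : ∀ z ∈ U, El σ z) (hv : Sm U v) (hW : Sm U W) (hψ : Sm U ψ)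
    (hf : Te U f) (hw : Sm U w) (hw0 : ∀ z ∈ U, 0 < w z) {B : E → ℝ} (hB : Sm U B)
    (hb : ∀ z ∈ U, w z * ψ z ^ 2 + 4 * σ.Γ ψ ψ z + 2 * ψ z ^ 2 * |v z| +
      4 * ψ z ^ 2 * σ.F W z ≤ B z) :
    In U θ (fun z => ψ z ^ 2 * D2 σ f z) ≤
      2 * In U θ (fun z => (w z)⁻¹ * (ψ z * σ.P v W f z) ^ 2) +
        3 * In U θ (fun z => B z * f z ^ 2) := by
  have hU := ok.op
  have p := psd_of el
  have sf := hf.sm
  have c := cac_le ok p hv hW hψ hf hw hw0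
  have hwi : Sm U fun z => (w z)⁻¹ := hw.inv fun z hz => (hw0 z hz).ne'
  have t1 : Te U fun z => (w z)⁻¹ * (ψ z * σ.P v W f z) ^ 2 :=
    (((ok.tP hv hW hf).mul_left hU hψ).sq hU).mul_left hU hwi
  have t2 : Te U fun z => B z * f z ^ 2 := (hf.sq hU).mul_left hU hB
  have t3 : Te U fun z => (w z * ψ z ^ 2 + 4 * σ.Γ ψ ψ z + 2 * ψ z ^ 2 * v z +
      4 * ψ z ^ 2 * σ.F W z) * f z ^ 2 := (hf.sq hU).mul_left hU
        ((((hw.mul (hψ.pow 2)).add (contDiffOn_const.mul (ok.sG hψ hψ))).add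
          ((contDiffOn_const.mul (hψ.pow 2)).mul hv)).add
          ((contDiffOn_const.mul (hψ.pow 2)).mul (ok.sF hW)))
  have t4 : Te U fun z => ψ z ^ 2 * D2 σ f z := (tD2 ok hf).mul_left hU (hψ.pow 2)
  have tf : Te U fun z => ψ z * f z := hf.mul_left hU hψ
  have t5 : Te U (σ.Γ (fun z => ψ z * f z) fun z => ψ z * f z) := ok.tG tf.sm tf
  have h3 : In U θ (fun z => (w z * ψ z ^ 2 + 4 * σ.Γ ψ ψ z + 2 * ψ z ^ 2 * v z +
      4 * ψ z ^ 2 * σ.F W z) * f z ^ 2) ≤ In U θ (fun z => B z * f z ^ 2) := by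
    refine In_mono hU ok.tp ok.ts t3 t2 fun z hz => ?_
    refine mul_le_mul_of_nonneg_right ?_ (sq_nonneg _)
    have h1 := hb z hz
    have h2 := mul_le_mul_of_nonneg_left (le_abs_self (v z)) (sq_nonneg (ψ z))
    linarith
  have h4 : In U θ (fun z => ψ z ^ 2 * D2 σ f z) ≤
      4 * In U θ (σ.Γ (fun z => ψ z * f z) fun z => ψ z * f z) +
        In U θ (fun z => B z * f z ^ 2) := by
    rw [← In_cmul, ← In_add hU ok.ts (t5.cmul hU 4) t2]
    refine In_mono hU ok.tp ok.ts t4 ((t5.cmul hU 4).add hU t2) fun z hz => ?_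
    have e := (el z hz)
    have h1 := D2_le_G e fun z => ψ z * f z
    have h2 : ψ z ^ 2 * D2 σ f z ≤ 2 * D2 σ (fun z => ψ z * f z) z +
        2 * (f z ^ 2 * D2 σ ψ z) := by
      unfold D2
      simp only [Finset.mul_sum, ← Finset.sum_add_distrib]
      refine Finset.sum_le_sum fun i _ => ?_
      rw [D_mul σ hU hψ sf i hz]
      nlinarith [sq_nonneg (ψ z * σ.D i f z + 2 * (σ.D i ψ z * f z))]
    have h5 := D2_le_G e ψ
    have h6 : f z ^ 2 * D2 σ ψ z ≤ f z ^ 2 * (2 * σ.Γ ψ ψ z) :=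
      mul_le_mul_of_nonneg_left h5 (sq_nonneg _)
    have h7 : 4 * σ.Γ ψ ψ z ≤ B z := by
      have b0 := hb z hz
      have b1 : 0 ≤ w z * ψ z ^ 2 := mul_nonneg (hw0 z hz).le (sq_nonneg _)
      have b2 : 0 ≤ 2 * ψ z ^ 2 * |v z| := by positivity
      have b3 : 0 ≤ 4 * ψ z ^ 2 * σ.F W z := by
        have := e.F0 W
        positivity
      linarith
    have h8 := mul_le_mul_of_nonneg_right h7 (sq_nonneg (f z))
    linarith
  linarith

end integral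

end Vale.Agent.P088.R2.H516.O
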