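import Vale.Agent.P088.R2.H516.O.En

/-!
# Zone B1, outer cut-off: the four costs
-/

open MeasureTheory Set Filter
open scoped ContDiff Topology

noncomputable section

namespace Vale.Agent.P088.R2.H516.O

open Vale.Agent.P088.R2.H961.GW Vale.Agent.P088.R2.H644 Vale.Agent.P088.R2.H960.W
  Vale.Agent.P088.R2.H747.S Vale.Agent.P088.R2.H551.E Vale.Agent.P088.R2.H86.Z

variable {E ι : Type*} [NormedAddCommGroup E] [NormedSpace ℝ E] [Fintype ι]

section pw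

variable {σ τ : Sl E ι} {U : Set E} {θ : E → ℝ}
  {v v₁ v₂ W χ ψ om w g e h f₀ Z Z' f a b : E → ℝ} {z : E}

theorem P_sub' (ok : σ.Ok U θ) (v : E → ℝ) (hW : Sm U W) (hf : Sm U f) (hg : Sm U g) (hz : z ∈ U) :
    σ.P v W (fun z => f z - g z) z = σ.P v W f z - σ.P v W g z := by
  unfold Sl.P Sl.K
  rw [L_sub ok hf hg hz, G_sub ok W hf hg hz]
  ring

/-- The squares of `a + b`. -/
theorem sq_add (ok : σ.Ok U θ) (ot : τ.Ok U θ) (v₁ v₂ : E → ℝ) (hW : Sm U W) (ha : Sm U a)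
    (hb : Sm U b) (hz : z ∈ U) :
    σ.P v₁ W (fun z => a z + b z) z ^ 2 + τ.P v₂ W (fun z => a z + b z) z ^ 2 ≤
      2 * sqd σ τ v₁ v₂ W a b z := by
  rw [P_add ok hW ha hb hz, P_add ot hW ha hb hz]
  unfold sqd
  nlinarith [sq_nonneg (σ.P v₁ W a z - σ.P v₁ W b z), sq_nonneg (τ.P v₂ W a z - τ.P v₂ W b z)]

/-- The squares of `a - b`. -/
theorem sq_sub (ok : σ.Ok U θ) (ot : τ.Ok U θ) (v₁ v₂ : E → ℝ) (hW : Sm U W) (ha : Sm U a)
    (hb : Sm U b) (hz : z ∈ U) :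
    σ.P v₁ W (fun z => a z - b z) z ^ 2 + τ.P v₂ W (fun z => a z - b z) z ^ 2 ≤
      2 * sqd σ τ v₁ v₂ W a b z := by
  rw [P_sub' ok v₁ hW ha hb hz, P_sub' ot v₂ hW ha hb hz]
  unfold sqd
  nlinarith [sq_nonneg (σ.P v₁ W a z + σ.P v₁ W b z), sq_nonneg (τ.P v₂ W a z + τ.P v₂ W b z)]

variable (H : HO σ τ v₁ v₂ W χ ψ om w g e h f₀ Z Z' z)
include H

theorem HO.pF (e₁ : El σ z) : 4 * ψ z ^ 2 * σ.F W z ≤ Z z * e z ∧
    4 * σ.Γ ψ ψ z ≤ Z z * e z := by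
  have h1 := H.b1
  have a1 : 0 ≤ w z * ψ z ^ 2 := mul_nonneg H.w0.le (sq_nonneg _)
  have a2 : 0 ≤ 2 * ψ z ^ 2 * |v₁ z| := by positivity
  have a3 := e₁.F0 W
  have a4 : 0 ≤ 4 * ψ z ^ 2 * σ.F W z := by positivity
  have a5 := e₁.G0 ψ
  constructor <;> linarith

theorem HO.pF' (e₂ : El τ z) : 4 * ψ z ^ 2 * τ.F W z ≤ Z z * e z := by
  have h1 := H.b2
  have a1 : 0 ≤ w z * ψ z ^ 2 := mul_nonneg H.w0.le (sq_nonneg _)
  have a2 : 0 ≤ 2 * ψ z ^ 2 * |v₂ z| := by positivity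
  have a5 := e₂.G0 ψ
  linarith

theorem HO.oF (e₁ : El σ z) : 4 * om z ^ 2 * σ.F W z ≤ Z z * f₀ z := by
  have h1 := H.c1
  have a1 : 0 ≤ w z * om z ^ 2 := mul_nonneg H.w0.le (sq_nonneg _)
  have a2 : 0 ≤ 2 * om z ^ 2 * |v₁ z| := by positivity
  have a5 := e₁.G0 om
  linarith

theorem HO.oF' (e₂ : El τ z) : 4 * om z ^ 2 * τ.F W z ≤ Z z * f₀ z := by
  have h1 := H.c2
  have a1 : 0 ≤ w z * om z ^ 2 := mul_nonneg H.w0.le (sq_nonneg _)
  have a2 : 0 ≤ 2 * om z ^ 2 * |v₂ z| := by positivity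
  have a5 := e₂.G0 om
  linarith

/-- The commutators on `a + b`. -/
theorem HO.cb (ok : σ.Ok U θ) (ot : τ.Ok U θ) (e₁ : El σ z) (e₂ : El τ z) (f : E → ℝ) :
    (σ.N W χ f z ^ 2 + τ.N W χ f z ^ 2) / 2 ≤ 32 * (ψ z ^ 2 * (D2 σ f z + D2 τ f z)) +
      33 * (Z z * e z * f z ^ 2) := by
  have h1 := N_sq_le ok e₁ W χ f H.d1
  have h2 := N_sq_le ot e₂ W χ f H.d2
  have y1 := mul_le_mul_of_nonneg_left (sY2_le e₁ W f) (sq_nonneg (ψ z))
  have y2 := mul_le_mul_of_nonneg_left (sY2_le e₂ W f) (sq_nonneg (ψ z))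
  have p1 := mul_le_mul_of_nonneg_right (H.pF e₁).1 (sq_nonneg (f z))
  have p2 := mul_le_mul_of_nonneg_right (H.pF' e₂) (sq_nonneg (f z))
  have p3 := mul_le_mul_of_nonneg_right H.l1 (sq_nonneg (f z))
  nlinarith

/-- The commutators on `a - b`, with the weight `h`. -/
theorem HO.cc (ok : σ.Ok U θ) (ot : τ.Ok U θ) (e₁ : El σ z) (e₂ : El τ z) (f : E → ℝ) :
    h z * ((σ.N W χ f z ^ 2 + τ.N W χ f z ^ 2) / 2) ≤
      32 * (om z ^ 2 * (D2 σ f z + D2 τ f z)) + 33 * (Z z * f₀ z * f z ^ 2) := by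
  have h1 := mul_le_mul_of_nonneg_left (N_sq_le ok e₁ W χ f H.d1) H.h0
  have h2 := mul_le_mul_of_nonneg_left (N_sq_le ot e₂ W χ f H.d2) H.h0
  have q1 := mul_le_mul_of_nonneg_right H.hw (sY2_nonneg σ W f z)
  have q2 := mul_le_mul_of_nonneg_right H.hw (sY2_nonneg τ W f z)
  have y1 := mul_le_mul_of_nonneg_left (sY2_le e₁ W f) (sq_nonneg (om z))
  have y2 := mul_le_mul_of_nonneg_left (sY2_le e₂ W f) (sq_nonneg (om z))
  have p1 := mul_le_mul_of_nonneg_right (H.oF e₁) (sq_nonneg (f z))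
  have p2 := mul_le_mul_of_nonneg_right (H.oF' e₂) (sq_nonneg (f z))
  have p3 := mul_le_mul_of_nonneg_right H.l2 (sq_nonneg (f z))
  nlinarith

omit H in
/-- `Y₁ + Y₂` of `a - b` in the letters of the zones. -/
theorem kc_eq (ok : σ.Ok U θ) (ot : τ.Ok U θ) (ha : Sm U a) (hb : Sm U b) (hz : z ∈ U) (i : ι) :
    YY σ W (fun z => a z - b z) i z + YY τ W (fun z => a z - b z) i z =
      2 * ((σ.D i W z + τ.D i W z) * (a z - b z)) - 2 * (Ch.XX σ W a z i - Ch.XX τ W b z i) +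
        (Ch.XX σ W (fun z => a z + b z) z i - Ch.XX τ W (fun z => a z + b z) z i) := by
  unfold YY Ch.XX
  rw [D_sub σ ok.op ha hb i hz, D_sub τ ot.op ha hb i hz, D_add σ ok.op ha hb i hz,
    D_add τ ot.op ha hb i hz]
  ring

omit H in
/-- `([P₁, χ] f - [P₂, χ] f) / 2`. -/
theorem N_diff (ok : σ.Ok U θ) (ot : τ.Ok U θ) (W χ f : E → ℝ) (z : E) :
    (σ.N W χ f z - τ.N W χ f z) / 2 =
      ∑ i, ∑ j, σ.s i j z * σ.D i χ z * (YY σ W f j z + YY τ W f j z) -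
      ∑ j, (Ch.Gr σ χ j z + Ch.Gr τ χ j z) * YY τ W f j z +
        (σ.Λ χ z - τ.Λ χ z) * f z / 2 := by
  rw [N_eq ok, N_eq ot]
  have r1 : ∑ j, (Ch.Gr σ χ j z + Ch.Gr τ χ j z) * YY τ W f j z =
      ∑ i, ∑ j, σ.s i j z * σ.D i χ z * YY τ W f j z +
      ∑ i, ∑ j, τ.s i j z * τ.D i χ z * YY τ W f j z := by
    rw [Finset.sum_comm, Finset.sum_comm (f := fun i j => τ.s i j z * τ.D i χ z *
      YY τ W f j z), ← Finset.sum_add_distrib]
    refine Finset.sum_congr rfl fun j _ => ?_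
    rw [add_mul]
    unfold Ch.Gr
    rw [Finset.sum_mul, Finset.sum_mul]
    congr 1
    · exact Finset.sum_congr rfl fun i _ => by rw [ok.sy j i]
    · exact Finset.sum_congr rfl fun i _ => by rw [ot.sy j i]
  have q1 : ∑ i, ∑ j, σ.s i j z * σ.D i χ z * (YY σ W f j z + YY τ W f j z) =
      ∑ i, ∑ j, σ.s i j z * σ.D i χ z * YY σ W f j z +
      ∑ i, ∑ j, σ.s i j z * σ.D i χ z * YY τ W f j z := by
    rw [← Finset.sum_add_distrib]
    refine Finset.sum_congr rfl fun i _ => ?_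
    rw [← Finset.sum_add_distrib]
    exact Finset.sum_congr rfl fun j _ => by ring
  rw [r1, q1]
  ring

omit H in
theorem four_sq (p u x y : ℝ) :
    (2 * p - 2 * u + (x - y)) ^ 2 ≤ 16 * p ^ 2 + 16 * u ^ 2 + 4 * (x ^ 2 + y ^ 2) := by
  nlinarith [sq_nonneg (2 * p + 2 * u), sq_nonneg (2 * p - x), sq_nonneg (2 * p + y),
      sq_nonneg (2 * u + x), sq_nonneg (2 * u - y), sq_nonneg (x + y)]

omit H in
theorem sum_K (ok : σ.Ok U θ) (ot : τ.Ok U θ) (ha : Sm U a) (hb : Sm U b) (hz : z ∈ U) :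
    ∑ j, (YY σ W (fun z => a z - b z) j z + YY τ W (fun z => a z - b z) j z) ^ 2 ≤
      16 * ((a z - b z) ^ 2 * ∑ i, (σ.D i W z + τ.D i W z) ^ 2) + 16 * nY σ τ W a b z +
        4 * (nX σ W (fun z => a z + b z) z + nX τ W (fun z => a z + b z) z) := by
  unfold nY nX
  simp only [Finset.mul_sum, ← Finset.sum_add_distrib]
  refine Finset.sum_le_sum fun i _ => ?_
  rw [kc_eq ok ot ha hb hz i]
  have h := four_sq ((σ.D i W z + τ.D i W z) * (a z - b z)) (Ch.XX σ W a z i - Ch.XX τ W b z i)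
    (Ch.XX σ W (fun z => a z + b z) z i) (Ch.XX τ W (fun z => a z + b z) z i)
  rw [mul_pow] at h
  linarith

omit H in
theorem ar1 {q r l ψ2 K2 o s : ℝ} (h1 : q ^ 2 ≤ 4 * (ψ2 * K2)) (h2 : r ^ 2 ≤ o * s) :
    (q - r + l / 2) ^ 2 ≤ 12 * (ψ2 * K2) + 3 * (o * s) + 3 / 4 * l ^ 2 := by
  nlinarith [sq_nonneg (q + r), sq_nonneg (q - l / 2), sq_nonneg (r + l / 2)]

/-- The commutator `[Rp, χ]` on `a - b`. -/
theorem HO.cr' (ok : σ.Ok U θ) (ot : τ.Ok U θ) (e₁ : El σ z) (e₂ : El τ z) (ha : Sm U a)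
    (hb : Sm U b) (hz : z ∈ U) :
    ((σ.N W χ (fun z => a z - b z) z - τ.N W χ (fun z => a z - b z) z) / 2) ^ 2 ≤
      96 * (ψ z ^ 2 * (D2 σ (fun z => a z + b z) z + D2 τ (fun z => a z + b z) z)) +
      96 * (Z z * e z * (a z + b z) ^ 2) + 192 * (Z z * (g z * nY σ τ W a b z)) +
      6 * (om z ^ 2 * (D2 σ (fun z => a z - b z) z + D2 τ (fun z => a z - b z) z)) +
      196 * (Z z * f₀ z * (a z - b z) ^ 2) := by
  rw [N_diff ok ot]
  have hψ0 := sq_nonneg (ψ z)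
  have hK0 : 0 ≤ ∑ j, (YY σ W (fun z => a z - b z) j z + YY τ W (fun z => a z - b z) j z) ^ 2 :=
    Finset.sum_nonneg fun j _ => sq_nonneg _
  have hq2 := (cs2 ok e₁ (fun i => σ.D i χ z) fun j =>
    YY σ W (fun z => a z - b z) j z + YY τ W (fun z => a z - b z) j z).trans
    ((mul_le_mul_of_nonneg_right (mul_le_mul_of_nonneg_left H.d1 (by norm_num : (0 : ℝ) ≤ 4))
      hK0).trans (le_of_eq (mul_assoc _ _ _)))
  have hrr : (∑ j, (Ch.Gr σ χ j z + Ch.Gr τ χ j z) * YY τ W (fun z => a z - b z) j z) ^ 2 ≤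
      om z ^ 2 * sY2 τ W (fun z => a z - b z) z :=
    (Finset.sum_mul_sq_le_sq_mul_sq _ _ _).trans
      (mul_le_mul_of_nonneg_right H.od (sY2_nonneg τ W _ z))
  refine (ar1 hq2 hrr).trans ?_
  have hss := mul_le_mul_of_nonneg_left (sum_K (W := W) ok ot ha hb hz) hψ0
  have x1 := mul_le_mul_of_nonneg_left (nX_le e₁ W fun z => a z + b z) hψ0
  have x2 := mul_le_mul_of_nonneg_left (nX_le e₂ W fun z => a z + b z) hψ0
  have p1 := mul_le_mul_of_nonneg_right (H.pF e₁).1 (sq_nonneg (a z + b z))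
  have p2 := mul_le_mul_of_nonneg_right (H.pF' e₂) (sq_nonneg (a z + b z))
  have p3 := mul_le_mul_of_nonneg_right H.kk (sq_nonneg (a z - b z))
  have p4 := mul_le_mul_of_nonneg_right H.gg (Q8.nY_nonneg σ τ W a b z)
  have y2 := mul_le_mul_of_nonneg_left (sY2_le e₂ W fun z => a z - b z) (sq_nonneg (om z))
  have p5 := mul_le_mul_of_nonneg_right (H.oF' e₂) (sq_nonneg (a z - b z))
  have y3 : 0 ≤ om z ^ 2 * D2 σ (fun z => a z - b z) z :=
    mul_nonneg (sq_nonneg _) (D2_nonneg σ _ z)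
  have p6 := mul_le_mul_of_nonneg_right H.l3 (sq_nonneg (a z - b z))
  have k0 : 0 ≤ Z z * f₀ z * (a z - b z) ^ 2 :=
    mul_nonneg (mul_nonneg H.Z0 H.f0) (sq_nonneg _)
  generalize ∑ j, (YY σ W (fun z => a z - b z) j z + YY τ W (fun z => a z - b z) j z) ^ 2 = Y at *
  generalize ∑ i, (σ.D i W z + τ.D i W z) ^ 2 = DD at *
  generalize nY σ τ W a b z = ny at *
  generalize nX σ W (fun z => a z + b z) z = n1 at *
  generalize nX τ W (fun z => a z + b z) z = n2 at *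
  generalize D2 σ (fun z => a z + b z) z = d1 at *
  generalize D2 τ (fun z => a z + b z) z = d2 at *
  generalize D2 σ (fun z => a z - b z) z = d3 at *
  generalize D2 τ (fun z => a z - b z) z = d4 at *
  generalize sY2 τ W (fun z => a z - b z) z = sy at *
  linarith

end pw

end Vale.Agent.P088.R2.H516.O
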