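import Vale.Agent.P088.R2.H516.O.Out

/-!
# Zone B1, outer cut-off: from the curved box to the zone inequality
-/

open MeasureTheory Set Filter
open scoped ContDiff Topology

noncomputable section

namespace Vale.Agent.P088.R2.H516.O

open Vale.Agent.P088.R2.H961.GW Vale.Agent.P088.R2.H644 Vale.Agent.P088.R2.H960.W
  Vale.Agent.P088.R2.H747.S Vale.Agent.P088.R2.H551.E Vale.Agent.P088.R2.H86.Z

variable {E ι : Type*} [NormedAddCommGroup E] [NormedSpace ℝ E] [Fintype ι]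

/-- A function cut off inside the zone is a test function of the zone. -/
theorem te_cut {U Ω K : Set E} {χ f : E → ℝ} (hU : IsOpen U) (hχ : Sm U χ) (hK : IsClosed K)
    (hKΩ : K ∩ U ⊆ Ω) (h0 : ∀ z ∈ U, z ∉ K → χ z = 0) (hf : Te U f) :
    Te Ω fun z => χ z * f z := by
  have h := hf.mul_left hU hχ
  refine ⟨h.1, h.2.1, ?_⟩
  have h1 : tsupport (fun z => χ z * f z) ⊆ K := by
    refine closure_minimal ?_ hK
    intro z hz
    by_contra hzK
    have hfz : f z ≠ 0 := right_ne_zero_of_mul hz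
    have hzU : z ∈ U := hf.2.2 (subset_tsupport f hfz)
    exact hz (by simp [h0 z hzU hzK])
  exact fun z hz => hKΩ ⟨h1 hz, h.2.2 hz⟩

/-- The margin of the zone. -/
def mgO (χ e wc : E → ℝ) (c : ℝ) : Q8 E where
  κ z := c * χ z ^ 2
  ζ₁ := 0
  ζ₂ := 0
  ζy := 0
  w₁ := 0
  w₂ := 0
  wb z := c * (χ z ^ 2 * e z)
  wc z := c * (χ z ^ 2 * wc z)

/-- The costs of the zone. -/
def coO (σ τ : Sl E ι) (W g e f₀ Z Z' : E → ℝ) (C : ℝ) : Q8 E where
  κ z := C * Z' z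
  ζ₁ z := C * Z z
  ζ₂ z := C * Z z
  ζy z := C * (Z z * g z)
  w₁ z := C * (Z z * σ.F W z)
  w₂ z := C * (Z z * τ.F W z)
  wb z := C * (Z z * e z)
  wc z := C * (Z z * f₀ z)

variable [MeasureSpace E] [FiniteDimensional ℝ E] [BorelSpace E]
  [(volume : Measure E).IsAddHaarMeasure]

section integral

variable {σ τ : Sl E ι} {U : Set E} {θ : E → ℝ}
  {v v₁ v₂ W χ ψ om w g e h f₀ Z Z' wc f q ρ a b : E → ℝ}

theorem tun (ok : σ.Ok U θ) (ot : τ.Ok U θ) (hW : Sm U W) (hg : Sm U g) (he : Sm U e)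
    (hf₀ : Sm U f₀) (ha : Te U a) (hb : Te U b) : Te U (un σ τ W g e f₀ a b) := by
  have hU := ok.op
  exact (((((tnX ok hW ha).add hU (tnX ot hW hb)).add hU
    ((tnY ok ot hW ha hb).mul_left hU hg)).add
    hU (((ha.sq hU).mul_left hU (ok.sF hW)).add hU ((hb.sq hU).mul_left hU (ot.sF hW)))).add hU
    (((ha.add hU hb).sq hU).mul_left hU he)).add hU (((ha.sub hU hb).sq hU).mul_left hU hf₀)

/-- The energies of one function in both slots. -/
theorem enf (ok : σ.Ok U θ) (ot : τ.Ok U θ) (el₁ : ∀ z ∈ U, El σ z) (el₂ : ∀ z ∈ U, El τ z)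
    (hv₁ : Sm U v₁) (hv₂ : Sm U v₂) (hW : Sm U W) (hρ : Sm U ρ) (hf : Te U f) (hw : Sm U w)
    (hw0 : ∀ z ∈ U, 0 < w z) (hZq : Sm U q) (hZ' : Sm U Z') (ha : Te U a) (hb : Te U b)
    (hb1 : ∀ z ∈ U, w z * ρ z ^ 2 + 4 * σ.Γ ρ ρ z + 2 * ρ z ^ 2 * |v₁ z| +
      4 * ρ z ^ 2 * σ.F W z ≤ q z)
    (hb2 : ∀ z ∈ U, w z * ρ z ^ 2 + 4 * τ.Γ ρ ρ z + 2 * ρ z ^ 2 * |v₂ z| +
      4 * ρ z ^ 2 * τ.F W z ≤ q z)
    (hk : ∀ z ∈ U, ρ z ^ 2 ≤ Z' z * w z)
    (hP : ∀ z ∈ U, σ.P v₁ W f z ^ 2 + τ.P v₂ W f z ^ 2 ≤ 2 * sqd σ τ v₁ v₂ W a b z) :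
    In U θ (fun z => ρ z ^ 2 * (D2 σ f z + D2 τ f z)) ≤
      4 * In U θ (fun z => Z' z * sqd σ τ v₁ v₂ W a b z) +
        6 * In U θ (fun z => q z * f z ^ 2) := by
  have hU := ok.op
  have i1 := en ok el₁ hv₁ hW hρ hf hw hw0 hZq hb1
  have i2 := en ot el₂ hv₂ hW hρ hf hw hw0 hZq hb2
  have hwi : Sm U fun z => (w z)⁻¹ := hw.inv fun z hz => (hw0 z hz).ne'
  have t1 : Te U fun z => (w z)⁻¹ * (ρ z * σ.P v₁ W f z) ^ 2 :=
    (((ok.tP hv₁ hW hf).mul_left hU hρ).sq hU).mul_left hU hwi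
  have t2 : Te U fun z => (w z)⁻¹ * (ρ z * τ.P v₂ W f z) ^ 2 :=
    (((ot.tP hv₂ hW hf).mul_left hU hρ).sq hU).mul_left hU hwi
  have t3 : Te U fun z => Z' z * sqd σ τ v₁ v₂ W a b z :=
    (tsqd ok ot hv₁ hv₂ hW ha hb).mul_left hU hZ'
  have t4 : Te U fun z => ρ z ^ 2 * D2 σ f z := (tD2 ok hf).mul_left hU (hρ.pow 2)
  have t5 : Te U fun z => ρ z ^ 2 * D2 τ f z := (tD2 ot hf).mul_left hU (hρ.pow 2)
  have e1 : In U θ (fun z => ρ z ^ 2 * (D2 σ f z + D2 τ f z)) =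
      In U θ (fun z => ρ z ^ 2 * D2 σ f z) + In U θ (fun z => ρ z ^ 2 * D2 τ f z) := by
    rw [← In_add hU ok.ts t4 t5]
    exact In_congr hU fun z _ => by ring
  have h1 : In U θ (fun z => (w z)⁻¹ * (ρ z * σ.P v₁ W f z) ^ 2) +
      In U θ (fun z => (w z)⁻¹ * (ρ z * τ.P v₂ W f z) ^ 2) ≤
      2 * In U θ (fun z => Z' z * sqd σ τ v₁ v₂ W a b z) := by
    rw [← In_add hU ok.ts t1 t2, ← In_cmul]
    refine In_mono hU ok.tp ok.ts (t1.add hU t2) (t3.cmul hU 2) fun z hz => ?_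
    have w0 := hw0 z hz
    have k1 : (w z)⁻¹ * ρ z ^ 2 ≤ Z' z := by
      rw [inv_mul_le_iff₀ w0, mul_comm]
      exact hk z hz
    have k0 : 0 ≤ (w z)⁻¹ * ρ z ^ 2 := by positivity
    have s0 := sqd_nonneg σ τ v₁ v₂ W a b z
    have e2 : (w z)⁻¹ * (ρ z * σ.P v₁ W f z) ^ 2 + (w z)⁻¹ * (ρ z * τ.P v₂ W f z) ^ 2 =
        (w z)⁻¹ * ρ z ^ 2 * (σ.P v₁ W f z ^ 2 + τ.P v₂ W f z ^ 2) := by ring
    rw [e2]
    have k2 := mul_le_mul k1 (hP z hz) (by positivity) (k0.trans k1)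
    linarith
  linarith

variable (ok : σ.Ok U θ) (ot : τ.Ok U θ) (el₁ : ∀ z ∈ U, El σ z) (el₂ : ∀ z ∈ U, El τ z)
  (hv₁ : Sm U v₁) (hv₂ : Sm U v₂) (hW : Sm U W) (hχ : Sm U χ) (hψ : Sm U ψ) (hom : Sm U om)
  (hw : Sm U w) (hg : Sm U g) (he : Sm U e) (hh : Sm U h) (hf₀ : Sm U f₀) (hZ : Sm U Z)
  (hZ' : Sm U Z') (H : ∀ z ∈ U, HO σ τ v₁ v₂ W χ ψ om w g e h f₀ Z Z' z)
  (ha : Te U a) (hb : Te U b)
include ok ot el₁ el₂ hv₁ hv₂ hW hχ hψ hom hw hg he hh hf₀ hZ hZ' H ha hb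

/-- **The four costs.** -/
theorem costs : CC σ τ U θ v₁ v₂ W h (fun z => χ z * a z) (fun z => χ z * b z)
      (fun z => χ z * Sp σ τ v₁ v₂ W (fun z => a z + b z) z)
      (fun z => χ z * Rp σ τ v₁ v₂ W (fun z => a z + b z) z)
      (fun z => χ z * Sp σ τ v₁ v₂ W (fun z => a z - b z) z)
      (fun z => χ z * Rp σ τ v₁ v₂ W (fun z => a z - b z) z) ≤
    1000 * (In U θ (fun z => Z z * un σ τ W g e f₀ a b z) +
      In U θ (fun z => Z' z * sqd σ τ v₁ v₂ W a b z)) := by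
  have hU := ok.op
  have tp : Te U fun z => a z + b z := ha.add hU hb
  have tm : Te U fun z => a z - b z := ha.sub hU hb
  have sp := tp.sm
  have sm := tm.sm
  -- the differences are commutators
  have ep : (fun z => χ z * a z + χ z * b z) = fun z => χ z * (a z + b z) := by
    funext z; ring
  have em : (fun z => χ z * a z - χ z * b z) = fun z => χ z * (a z - b z) := by
    funext z; ring
  have c1 : ∀ z ∈ U, (Sp σ τ v₁ v₂ W (fun z => χ z * a z + χ z * b z) z -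
      χ z * Sp σ τ v₁ v₂ W (fun z => a z + b z) z) =
      (σ.N W χ (fun z => a z + b z) z + τ.N W χ (fun z => a z + b z) z) / 2 := by
    intro z hz
    unfold Sp
    rw [ep, P_mul ok v₁ W hχ sp hz, P_mul ot v₂ W hχ sp hz]
    ring
  have c2 : ∀ z ∈ U, (Rp σ τ v₁ v₂ W (fun z => χ z * a z + χ z * b z) z -
      χ z * Rp σ τ v₁ v₂ W (fun z => a z + b z) z) =
      (σ.N W χ (fun z => a z + b z) z - τ.N W χ (fun z => a z + b z) z) / 2 := by
    intro z hz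
    unfold Rp
    rw [ep, P_mul ok v₁ W hχ sp hz, P_mul ot v₂ W hχ sp hz]
    ring
  have c3 : ∀ z ∈ U, (Sp σ τ v₁ v₂ W (fun z => χ z * a z - χ z * b z) z -
      χ z * Sp σ τ v₁ v₂ W (fun z => a z - b z) z) =
      (σ.N W χ (fun z => a z - b z) z + τ.N W χ (fun z => a z - b z) z) / 2 := by
    intro z hz
    unfold Sp
    rw [em, P_mul ok v₁ W hχ sm hz, P_mul ot v₂ W hχ sm hz]
    ring
  have c4 : ∀ z ∈ U, (Rp σ τ v₁ v₂ W (fun z => χ z * a z - χ z * b z) z -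
      χ z * Rp σ τ v₁ v₂ W (fun z => a z - b z) z) =
      (σ.N W χ (fun z => a z - b z) z - τ.N W χ (fun z => a z - b z) z) / 2 := by
    intro z hz
    unfold Rp
    rw [em, P_mul ok v₁ W hχ sm hz, P_mul ot v₂ W hχ sm hz]
    ring
  have n1 := tN ok hW hχ tp
  have n2 := tN ot hW hχ tp
  have n3 := tN ok hW hχ tm
  have n4 := tN ot hW hχ tm
  have tA : Te U fun z => (σ.N W χ (fun z => a z + b z) z ^ 2 +
      τ.N W χ (fun z => a z + b z) z ^ 2) / 2 :=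
    (((n1.sq hU).add hU (n2.sq hU)).cmul hU (1 / 2)).congr fun z => by ring
  have tB : Te U fun z => h z * ((σ.N W χ (fun z => a z - b z) z ^ 2 +
      τ.N W χ (fun z => a z - b z) z ^ 2) / 2) :=
    ((((n3.sq hU).add hU (n4.sq hU)).cmul hU (1 / 2)).mul_left hU hh).congr fun z => by ring
  have tC : Te U fun z => ((σ.N W χ (fun z => a z - b z) z -
      τ.N W χ (fun z => a z - b z) z) / 2) ^ 2 :=
    (((n3.sub hU n4).cmul hU (1 / 2)).sq hU).congr fun z => by ring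
  have tA1 : Te U fun z => ((σ.N W χ (fun z => a z + b z) z +
      τ.N W χ (fun z => a z + b z) z) / 2) ^ 2 :=
    (((n1.add hU n2).cmul hU (1 / 2)).sq hU).congr fun z => by ring
  have tA2 : Te U fun z => ((σ.N W χ (fun z => a z + b z) z -
      τ.N W χ (fun z => a z + b z) z) / 2) ^ 2 :=
    (((n1.sub hU n2).cmul hU (1 / 2)).sq hU).congr fun z => by ring
  have tB1 : Te U fun z => h z * ((σ.N W χ (fun z => a z - b z) z +
      τ.N W χ (fun z => a z - b z) z) / 2) ^ 2 :=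
    ((((n3.add hU n4).cmul hU (1 / 2)).sq hU).mul_left hU hh).congr fun z => by ring
  -- the letters
  have dp1 : Te U fun z => ψ z ^ 2 * (D2 σ (fun z => a z + b z) z +
      D2 τ (fun z => a z + b z) z) :=
    ((tD2 ok tp).add hU (tD2 ot tp)).mul_left hU (hψ.pow 2)
  have dm1 : Te U fun z => om z ^ 2 * (D2 σ (fun z => a z - b z) z +
      D2 τ (fun z => a z - b z) z) :=
    ((tD2 ok tm).add hU (tD2 ot tm)).mul_left hU (hom.pow 2)
  have ze : Te U fun z => Z z * e z * (a z + b z) ^ 2 := (tp.sq hU).mul_left hU (hZ.mul he)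
  have zf : Te U fun z => Z z * f₀ z * (a z - b z) ^ 2 := (tm.sq hU).mul_left hU (hZ.mul hf₀)
  have zy : Te U fun z => Z z * (g z * nY σ τ W a b z) :=
    ((tnY ok ot hW ha hb).mul_left hU hg).mul_left hU hZ
  have tu : Te U fun z => Z z * un σ τ W g e f₀ a b z :=
    (tun ok ot hW hg he hf₀ ha hb).mul_left hU hZ
  -- integrated inequalities
  have I1 : In U θ (fun z => (σ.N W χ (fun z => a z + b z) z ^ 2 +
      τ.N W χ (fun z => a z + b z) z ^ 2) / 2) ≤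
      32 * In U θ (fun z => ψ z ^ 2 * (D2 σ (fun z => a z + b z) z +
        D2 τ (fun z => a z + b z) z)) + 33 * In U θ (fun z => Z z * e z * (a z + b z) ^ 2) := by
    rw [← In_cmul, ← In_cmul, ← In_add hU ok.ts (dp1.cmul hU 32) (ze.cmul hU 33)]
    exact In_mono hU ok.tp ok.ts tA ((dp1.cmul hU 32).add hU (ze.cmul hU 33)) fun z hz =>
      (H z hz).cb ok ot (el₁ z hz) (el₂ z hz) _
  have I2 : In U θ (fun z => h z * ((σ.N W χ (fun z => a z - b z) z ^ 2 +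
      τ.N W χ (fun z => a z - b z) z ^ 2) / 2)) ≤
      32 * In U θ (fun z => om z ^ 2 * (D2 σ (fun z => a z - b z) z +
        D2 τ (fun z => a z - b z) z)) + 33 * In U θ (fun z => Z z * f₀ z * (a z - b z) ^ 2) := by
    rw [← In_cmul, ← In_cmul, ← In_add hU ok.ts (dm1.cmul hU 32) (zf.cmul hU 33)]
    exact In_mono hU ok.tp ok.ts tB ((dm1.cmul hU 32).add hU (zf.cmul hU 33)) fun z hz =>
      (H z hz).cc ok ot (el₁ z hz) (el₂ z hz) _
  have I3 : In U θ (fun z => ((σ.N W χ (fun z => a z - b z) z -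
      τ.N W χ (fun z => a z - b z) z) / 2) ^ 2) ≤
      96 * In U θ (fun z => ψ z ^ 2 * (D2 σ (fun z => a z + b z) z +
        D2 τ (fun z => a z + b z) z)) + 96 * In U θ (fun z => Z z * e z * (a z + b z) ^ 2) +
      192 * In U θ (fun z => Z z * (g z * nY σ τ W a b z)) +
      6 * In U θ (fun z => om z ^ 2 * (D2 σ (fun z => a z - b z) z +
        D2 τ (fun z => a z - b z) z)) + 196 * In U θ (fun z => Z z * f₀ z * (a z - b z) ^ 2) := by
    rw [← In_cmul, ← In_cmul, ← In_cmul, ← In_cmul, ← In_cmul,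
      ← In_add hU ok.ts (dp1.cmul hU 96) (ze.cmul hU 96),
      ← In_add hU ok.ts ((dp1.cmul hU 96).add hU (ze.cmul hU 96)) (zy.cmul hU 192),
      ← In_add hU ok.ts (((dp1.cmul hU 96).add hU (ze.cmul hU 96)).add hU (zy.cmul hU 192))
        (dm1.cmul hU 6),
      ← In_add hU ok.ts ((((dp1.cmul hU 96).add hU (ze.cmul hU 96)).add hU
        (zy.cmul hU 192)).add hU (dm1.cmul hU 6)) (zf.cmul hU 196)]
    exact In_mono hU ok.tp ok.ts tC (((((dp1.cmul hU 96).add hU (ze.cmul hU 96)).add hU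
        (zy.cmul hU 192)).add hU (dm1.cmul hU 6)).add hU (zf.cmul hU 196)) fun z hz =>
      (H z hz).cr' ok ot (el₁ z hz) (el₂ z hz) ha.sm hb.sm hz
  have J1 := enf (a := a) (b := b) (f := fun z => a z + b z) ok ot el₁ el₂ hv₁ hv₂ hW hψ tp hw
    (fun z hz => (H z hz).w0) (hZ.mul he) hZ' ha hb (fun z hz => (H z hz).b1)
    (fun z hz => (H z hz).b2) (fun z hz => (H z hz).k1)
    fun z hz => sq_add ok ot v₁ v₂ hW ha.sm hb.sm hz
  have J2 := enf (a := a) (b := b) (f := fun z => a z - b z) ok ot el₁ el₂ hv₁ hv₂ hW hom tm hw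
    (fun z hz => (H z hz).w0) (hZ.mul hf₀) hZ' ha hb (fun z hz => (H z hz).c1)
    (fun z hz => (H z hz).c2) (fun z hz => (H z hz).k2)
    fun z hz => sq_sub ok ot v₁ v₂ hW ha.sm hb.sm hz
  -- the unit density dominates
  have U1 : In U θ (fun z => Z z * e z * (a z + b z) ^ 2) +
      In U θ (fun z => Z z * (g z * nY σ τ W a b z)) +
      In U θ (fun z => Z z * f₀ z * (a z - b z) ^ 2) ≤
      In U θ (fun z => Z z * un σ τ W g e f₀ a b z) := by
    rw [← In_add hU ok.ts ze zy, ← In_add hU ok.ts (ze.add hU zy) zf]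
    refine In_mono hU ok.tp ok.ts ((ze.add hU zy).add hU zf) tu fun z hz => ?_
    have h := H z hz
    have x1 := mul_nonneg h.Z0 (Q8.nX_nonneg σ W a z)
    have x2 := mul_nonneg h.Z0 (Q8.nX_nonneg τ W b z)
    have x3 := mul_nonneg h.Z0 (mul_nonneg ((el₁ z hz).F0 W) (sq_nonneg (a z)))
    have x4 := mul_nonneg h.Z0 (mul_nonneg ((el₂ z hz).F0 W) (sq_nonneg (b z)))
    unfold un
    linarith
  have N1 : 0 ≤ In U θ (fun z => Z z * e z * (a z + b z) ^ 2) := In_nonneg hU ok.tp fun z hz =>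
    mul_nonneg (mul_nonneg (H z hz).Z0 (H z hz).e0) (sq_nonneg _)
  have N2 : 0 ≤ In U θ (fun z => Z z * (g z * nY σ τ W a b z)) := In_nonneg hU ok.tp fun z hz =>
    mul_nonneg (H z hz).Z0 (mul_nonneg (H z hz).g0 (Q8.nY_nonneg σ τ W a b z))
  have N3 : 0 ≤ In U θ (fun z => Z z * f₀ z * (a z - b z) ^ 2) := In_nonneg hU ok.tp fun z hz =>
    mul_nonneg (mul_nonneg (H z hz).Z0 (H z hz).f0) (sq_nonneg _)
  have N4 : 0 ≤ In U θ (fun z => Z' z * sqd σ τ v₁ v₂ W a b z) := In_nonneg hU ok.tp fun z hz =>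
    mul_nonneg (H z hz).z0 (sqd_nonneg σ τ v₁ v₂ W a b z)
  -- the four costs
  have E1 : In U θ (fun z => (Sp σ τ v₁ v₂ W (fun z => χ z * a z + χ z * b z) z -
        χ z * Sp σ τ v₁ v₂ W (fun z => a z + b z) z) ^ 2) +
      In U θ (fun z => (Rp σ τ v₁ v₂ W (fun z => χ z * a z + χ z * b z) z -
        χ z * Rp σ τ v₁ v₂ W (fun z => a z + b z) z) ^ 2) =
      In U θ (fun z => (σ.N W χ (fun z => a z + b z) z ^ 2 +
      τ.N W χ (fun z => a z + b z) z ^ 2) / 2) := by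
    rw [In_congr hU (g := fun z => ((σ.N W χ (fun z => a z + b z) z +
        τ.N W χ (fun z => a z + b z) z) / 2) ^ 2) fun z hz => by rw [c1 z hz],
      In_congr hU (f := fun z => (Rp σ τ v₁ v₂ W (fun z => χ z * a z + χ z * b z) z -
        χ z * Rp σ τ v₁ v₂ W (fun z => a z + b z) z) ^ 2)
        (g := fun z => ((σ.N W χ (fun z => a z + b z) z -
        τ.N W χ (fun z => a z + b z) z) / 2) ^ 2) fun z hz => by rw [c2 z hz],
      ← In_add hU ok.ts tA1 tA2]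
    exact In_congr hU fun z _ => by ring
  have E2 : In U θ (fun z => h z * (Sp σ τ v₁ v₂ W (fun z => χ z * a z - χ z * b z) z -
        χ z * Sp σ τ v₁ v₂ W (fun z => a z - b z) z) ^ 2) ≤
      In U θ (fun z => h z * ((σ.N W χ (fun z => a z - b z) z ^ 2 +
      τ.N W χ (fun z => a z - b z) z ^ 2) / 2)) := by
    rw [In_congr hU (g := fun z => h z * ((σ.N W χ (fun z => a z - b z) z +
        τ.N W χ (fun z => a z - b z) z) / 2) ^ 2) fun z hz => by rw [c3 z hz]]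
    refine In_mono hU ok.tp ok.ts tB1 tB fun z hz => mul_le_mul_of_nonneg_left ?_ (H z hz).h0
    nlinarith [sq_nonneg (σ.N W χ (fun z => a z - b z) z - τ.N W χ (fun z => a z - b z) z)]
  have E3 : In U θ (fun z => (Rp σ τ v₁ v₂ W (fun z => χ z * a z - χ z * b z) z -
        χ z * Rp σ τ v₁ v₂ W (fun z => a z - b z) z) ^ 2) =
      In U θ (fun z => ((σ.N W χ (fun z => a z - b z) z -
      τ.N W χ (fun z => a z - b z) z) / 2) ^ 2) :=
    In_congr hU fun z hz => by rw [c4 z hz]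
  unfold CC
  rw [E1, E3]
  linarith

/-- **From the curved box to the zone inequality.** -/
theorem outM {Ω K : Set E} (hK : IsClosed K) (hKΩ : K ∩ U ⊆ Ω)
    (h0 : ∀ z ∈ U, z ∉ K → χ z = 0) {Mx : (E → ℝ) → (E → ℝ) → ℝ} {F5 : (E → ℝ) → ℝ}
    {c₀ C C₅ : ℝ} (hC : 0 ≤ C)
    (cb : CB σ τ U Ω θ v₁ v₂ W e h wc Mx F5 c₀ C)
    (h5 : H5 σ τ U θ v₁ v₂ W χ g e f₀ wc Z Z' Mx F5 c₀ C C₅) :
    c₀ / 2 * (In U θ (fun z => χ z ^ 2 * sqd σ τ v₁ v₂ W a b z) +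
        In U θ (fun z => χ z ^ 2 * (e z * (a z + b z) ^ 2)) +
        In U θ (fun z => χ z ^ 2 * (wc z * (a z - b z) ^ 2)) +
        Mx (fun z => χ z * a z) fun z => χ z * b z) -
      (1000 * C + C₅ + 1) * (In U θ (fun z => Z z * un σ τ W g e f₀ a b z) +
        In U θ (fun z => Z' z * sqd σ τ v₁ v₂ W a b z)) ≤
      In U θ (fun z => χ z ^ 2 * dn σ τ v₁ v₂ W a b z) := by
  have hU := ok.op
  have tp : Te U fun z => a z + b z := ha.add hU hb
  have tm : Te U fun z => a z - b z := ha.sub hU hb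
  have hcost := costs ok ot el₁ el₂ hv₁ hv₂ hW hχ hψ hom hw hg he hh hf₀ hZ hZ' H ha hb
  have hS : ∀ {f : E → ℝ}, Te U f → Te U (Sp σ τ v₁ v₂ W f) := fun hf =>
    (((ok.tP hv₁ hW hf).add hU (ot.tP hv₂ hW hf)).cmul hU (1 / 2)).congr fun z => by
      unfold Sp; ring
  have hR : ∀ {f : E → ℝ}, Te U f → Te U (Rp σ τ v₁ v₂ W f) := fun hf =>
    (((ok.tP hv₁ hW hf).sub hU (ot.tP hv₂ hW hf)).cmul hU (1 / 2)).congr fun z => by
      unfold Rp; ring
  have tc : ∀ {f : E → ℝ}, Te U f → Te Ω fun z => χ z * f z := fun hf =>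
    te_cut hU hχ hK hKΩ h0 hf
  have key := cb _ _ _ _ _ _ (tc ha) (tc hb) (tc (hS tp)) (tc (hR tp)) (tc (hS tm)) (tc (hR tm))
  have k5 := h5 a b ha hb
  -- the squares
  have tsq := (tsqd ok ot hv₁ hv₂ hW ha hb).mul_left hU (hχ.pow 2)
  have t1 := ((hS tp).mul_left hU hχ).sq hU
  have t2 := ((hR tp).mul_left hU hχ).sq hU
  have t3 := ((hS tm).mul_left hU hχ).sq hU
  have t4 := ((hR tm).mul_left hU hχ).sq hU
  have e4 : S4 U θ (fun z => χ z * Sp σ τ v₁ v₂ W (fun z => a z + b z) z)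
      (fun z => χ z * Rp σ τ v₁ v₂ W (fun z => a z + b z) z)
      (fun z => χ z * Sp σ τ v₁ v₂ W (fun z => a z - b z) z)
      (fun z => χ z * Rp σ τ v₁ v₂ W (fun z => a z - b z) z) =
      In U θ (fun z => χ z ^ 2 * sqd σ τ v₁ v₂ W a b z) := by
    unfold S4
    rw [← In_add hU ok.ts t1 t2, ← In_add hU ok.ts t3 t4,
      ← In_add hU ok.ts (t1.add hU t2) (t3.add hU t4)]
    refine In_congr hU fun z hz => ?_
    unfold Sp Rp
    rw [P_add ok hW ha.sm hb.sm hz, P_add ot hW ha.sm hb.sm hz, P_sub' ok v₁ hW ha.sm hb.sm hz,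
      P_sub' ot v₂ hW ha.sm hb.sm hz]
    unfold sqd
    ring
  -- the star density
  have tst := (tsta ok ot hv₁ hv₂ hW ha hb).mul_left hU (hχ.pow 2)
  have tst' := tsta ok ot hv₁ hv₂ hW (ha.mul_left hU hχ) (hb.mul_left hU hχ)
  have tu : Te U fun z => Z z * un σ τ W g e f₀ a b z :=
    (tun ok ot hW hg he hf₀ ha hb).mul_left hU hZ
  have e5 : In U θ (sta σ τ v₁ v₂ W (fun z => χ z * a z) fun z => χ z * b z) ≤
      In U θ (fun z => χ z ^ 2 * sta σ τ v₁ v₂ W a b z) +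
        In U θ (fun z => Z z * un σ τ W g e f₀ a b z) := by
    rw [← In_add hU ok.ts tst tu]
    refine In_mono hU ok.tp ok.ts tst' (tst.add hU tu) fun z hz => ?_
    have hc := (abs_le.1 ((H z hz).cr (Ch.XX σ W a z) (Ch.XX τ W b z) (a z) (b z))).2
    have s1 : sta σ τ v₁ v₂ W a b z =
        sf σ τ v₁ v₂ W z (Ch.XX σ W a z) (Ch.XX τ W b z) (a z) (b z) := by
      unfold sta sf
      rw [qs_qf]
    have s2 : sta σ τ v₁ v₂ W (fun z => χ z * a z) (fun z => χ z * b z) z =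
        sf σ τ v₁ v₂ W z (fun i => χ z * Ch.XX σ W a z i - a z * σ.D i χ z)
          (fun i => χ z * Ch.XX τ W b z i - b z * τ.D i χ z) (χ z * a z) (χ z * b z) := by
      have x1 : Ch.XX σ W (fun z => χ z * a z) z =
          fun i => χ z * Ch.XX σ W a z i - a z * σ.D i χ z :=
        funext fun i => XX_mul ok W hχ ha.sm i hz
      have x2 : Ch.XX τ W (fun z => χ z * b z) z =
          fun i => χ z * Ch.XX τ W b z i - b z * τ.D i χ z :=
        funext fun i => XX_mul ot W hχ hb.sm i hz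
      unfold sta sf
      rw [qs_qf, ← x1, ← x2]
    have s3 : un σ τ W g e f₀ a b z = (∑ i, Ch.XX σ W a z i ^ 2) + (∑ i, Ch.XX τ W b z i ^ 2) +
        g z * (∑ i, (Ch.XX σ W a z i - Ch.XX τ W b z i) ^ 2) +
        (σ.F W z * a z ^ 2 + τ.F W z * b z ^ 2) + e z * (a z + b z) ^ 2 +
        f₀ z * (a z - b z) ^ 2 := rfl
    rw [s1, s2, s3]
    linarith
  have e6 : In U θ (fun z => χ z ^ 2 * dn σ τ v₁ v₂ W a b z) =
      In U θ (fun z => χ z ^ 2 * sqd σ τ v₁ v₂ W a b z) +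
      In U θ (fun z => χ z ^ 2 * sta σ τ v₁ v₂ W a b z) := by
    rw [← In_add hU ok.ts tsq tst]
    refine In_congr hU fun z _ => ?_
    unfold dn; ring
  have e7 : In U θ (fun z => e z * (χ z * a z + χ z * b z) ^ 2) =
      In U θ (fun z => χ z ^ 2 * (e z * (a z + b z) ^ 2)) := In_congr hU fun z _ => by ring
  have e8 : In U θ (fun z => wc z * (χ z * a z - χ z * b z) ^ 2) =
      In U θ (fun z => χ z ^ 2 * (wc z * (a z - b z) ^ 2)) := In_congr hU fun z _ => by ring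
  rw [e4, e7, e8] at key
  rw [e6]
  have N4 : 0 ≤ In U θ (fun z => Z' z * sqd σ τ v₁ v₂ W a b z) := In_nonneg hU ok.tp fun z hz =>
    mul_nonneg (H z hz).z0 (sqd_nonneg σ τ v₁ v₂ W a b z)
  have hC1 := mul_le_mul_of_nonneg_left hcost hC
  linarith

/-- **From the curved box to the zone inequality**, without `Mx`. -/
theorem out {Ω K : Set E} (hK : IsClosed K) (hKΩ : K ∩ U ⊆ Ω)
    (h0 : ∀ z ∈ U, z ∉ K → χ z = 0) {Mx : (E → ℝ) → (E → ℝ) → ℝ} {F5 : (E → ℝ) → ℝ}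
    (hMx : ∀ a b, 0 ≤ Mx a b) {c₀ C C₅ : ℝ} (hc₀ : 0 ≤ c₀) (hC : 0 ≤ C)
    (cb : CB σ τ U Ω θ v₁ v₂ W e h wc Mx F5 c₀ C)
    (h5 : H5 σ τ U θ v₁ v₂ W χ g e f₀ wc Z Z' Mx F5 c₀ C C₅) :
    c₀ / 2 * (In U θ (fun z => χ z ^ 2 * sqd σ τ v₁ v₂ W a b z) +
        In U θ (fun z => χ z ^ 2 * (e z * (a z + b z) ^ 2)) +
        In U θ (fun z => χ z ^ 2 * (wc z * (a z - b z) ^ 2))) -
      (1000 * C + C₅ + 1) * (In U θ (fun z => Z z * un σ τ W g e f₀ a b z) +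
        In U θ (fun z => Z' z * sqd σ τ v₁ v₂ W a b z)) ≤
      In U θ (fun z => χ z ^ 2 * dn σ τ v₁ v₂ W a b z) := by
  have h := outM ok ot el₁ el₂ hv₁ hv₂ hW hχ hψ hom hw hg he hh hf₀ hZ hZ' H ha hb hK hKΩ h0
    hC cb h5
  have hM := mul_nonneg hc₀ (hMx (fun z => χ z * a z) fun z => χ z * b z)
  linarith

omit ha hb in
/-- **The zone inequality in the common form.** -/
theorem zone_out {Ω K : Set E} (hwc : Sm U wc) (hK : IsClosed K) (hKΩ : K ∩ U ⊆ Ω)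
    (h0 : ∀ z ∈ U, z ∉ K → χ z = 0) {Mx : (E → ℝ) → (E → ℝ) → ℝ} {F5 : (E → ℝ) → ℝ}
    (hMx : ∀ a b, 0 ≤ Mx a b) {c₀ C C₅ : ℝ} (hc₀ : 0 ≤ c₀) (hC : 0 ≤ C)
    (cb : CB σ τ U Ω θ v₁ v₂ W e h wc Mx F5 c₀ C)
    (h5 : H5 σ τ U θ v₁ v₂ W χ g e f₀ wc Z Z' Mx F5 c₀ C C₅) :
    Zone σ τ U θ v₁ v₂ W χ (mgO χ e wc (c₀ / 2)) (coO σ τ W g e f₀ Z Z' (1000 * C + C₅ + 1)) := by
  intro a b ha hb
  have hU := ok.op
  have key := out ok ot el₁ el₂ hv₁ hv₂ hW hχ hψ hom hw hg he hh hf₀ hZ hZ' H ha hb hK hKΩ h0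
    hMx hc₀ hC cb h5
  have tp : Te U fun z => a z + b z := ha.add hU hb
  have tm : Te U fun z => a z - b z := ha.sub hU hb
  have t1 := (tsqd ok ot hv₁ hv₂ hW ha hb).mul_left hU (hχ.pow 2)
  have t2 : Te U fun z => χ z ^ 2 * (e z * (a z + b z) ^ 2) :=
    ((tp.sq hU).mul_left hU he).mul_left hU (hχ.pow 2)
  have t3 : Te U fun z => χ z ^ 2 * (wc z * (a z - b z) ^ 2) :=
    ((tm.sq hU).mul_left hU hwc).mul_left hU (hχ.pow 2)
  have t4 : Te U fun z => Z z * un σ τ W g e f₀ a b z :=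
    (tun ok ot hW hg he hf₀ ha hb).mul_left hU hZ
  have t5 : Te U fun z => Z' z * sqd σ τ v₁ v₂ W a b z :=
    (tsqd ok ot hv₁ hv₂ hW ha hb).mul_left hU hZ'
  have e1 : In U θ ((mgO χ e wc (c₀ / 2)).dens σ τ v₁ v₂ W a b) =
      c₀ / 2 * (In U θ (fun z => χ z ^ 2 * sqd σ τ v₁ v₂ W a b z) +
        In U θ (fun z => χ z ^ 2 * (e z * (a z + b z) ^ 2)) +
        In U θ (fun z => χ z ^ 2 * (wc z * (a z - b z) ^ 2))) := by
    rw [← In_add hU ok.ts t1 t2, ← In_add hU ok.ts (t1.add hU t2) t3, ← In_cmul]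
    refine In_congr hU fun z _ => ?_
    unfold Q8.dens mgO
    simp only [Pi.zero_apply]
    ring
  have e2 : In U θ ((coO σ τ W g e f₀ Z Z' (1000 * C + C₅ + 1)).dens σ τ v₁ v₂ W a b) =
      (1000 * C + C₅ + 1) * (In U θ (fun z => Z z * un σ τ W g e f₀ a b z) +
        In U θ (fun z => Z' z * sqd σ τ v₁ v₂ W a b z)) := by
    rw [← In_add hU ok.ts t4 t5, ← In_cmul]
    refine In_congr hU fun z _ => ?_
    unfold Q8.dens coO un
    simp only [Pi.zero_apply]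
    ring
  rw [e1, e2]
  exact key

end integral

end Vale.Agent.P088.R2.H516.O
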