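import Vale.Agent.P088.R2.H516.O.Pay
import Vale.Agent.P088.R2.H676.F.Pw

/-!
# Zone B1, outer cut-off: the zone inequality with the margin `MB`
-/

open MeasureTheory Set Filter
open scoped ContDiff Topology

noncomputable section

namespace Vale.Agent.P088.R2.H516.O

open Vale.Agent.P088.R2.H961.GW Vale.Agent.P088.R2.H644 Vale.Agent.P088.R2.H960.W
  Vale.Agent.P088.R2.H747.S Vale.Agent.P088.R2.H551.E Vale.Agent.P088.R2.H86.Z
  Vale.Agent.P088.R2.H676.F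

variable {E ι : Type*} [NormedAddCommGroup E] [NormedSpace ℝ E] [Fintype ι]

/-- The pointwise hypotheses for the margin: `g₁`, `hi` weights, `wc` the weight of `(a - b)²`. -/
structure HM (σ τ : Sl E ι) (W χ g₁ hi e f₀ wc Z : E → ℝ) (Cm : ℝ) (z : E) : Prop where
  g0 : 0 ≤ g₁ z
  i0 : 0 ≤ hi z
  w0 : 0 ≤ wc z
  gi : χ z ^ 2 * g₁ z ≤ χ z ^ 2 * hi z
  h1 : χ z ^ 2 ≤ χ z ^ 2 * hi z
  he : χ z ^ 2 * (hi z * (σ.F W z + τ.F W z)) ≤ Cm * (χ z ^ 2 * e z)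
  hw : χ z ^ 2 * (σ.F W z + τ.F W z) ≤ Cm * (χ z ^ 2 * wc z)
  hd : χ z ^ 2 * (g₁ z * ∑ i, (σ.D i W z + τ.D i W z) ^ 2) ≤ Cm * (χ z ^ 2 * wc z)
  c1 : hi z * (D2 σ χ z + D2 τ χ z) ≤ Z z * e z
  c2 : D2 σ χ z + D2 τ χ z ≤ Z z * f₀ z
  c3 : hi z * ∑ i, (σ.D i χ z + τ.D i χ z) ^ 2 ≤ Z z * f₀ z

/-- The margin of zone B1. -/
def mgM (σ τ : Sl E ι) (W χ g₁ e wc : E → ℝ) (c : ℝ) : Q8 E where
  κ z := c * χ z ^ 2
  ζ₁ z := c * χ z ^ 2
  ζ₂ z := c * χ z ^ 2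
  ζy z := c * (χ z ^ 2 * g₁ z)
  w₁ z := c * (χ z ^ 2 * σ.F W z)
  w₂ z := c * (χ z ^ 2 * τ.F W z)
  wb z := c * (χ z ^ 2 * e z)
  wc z := c * (χ z ^ 2 * wc z)

section pw

variable {σ τ : Sl E ι} {U : Set E} {θ : E → ℝ}
  {v v₁ v₂ W χ ψ om w g g₁ hi e h f₀ wc Z Z' f a b : E → ℝ} {z : E} {Cm : ℝ}

theorem cutY (ok : σ.Ok U θ) (hχ : Sm U χ) (hf : Sm U f) (hz : z ∈ U) :
    χ z ^ 2 * sY2 σ W f z ≤ 2 * sY2 σ W (fun z => χ z * f z) z + 2 * (f z ^ 2 * D2 σ χ z) := by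
  unfold sY2 D2
  simp only [Finset.mul_sum, ← Finset.sum_add_distrib]
  refine Finset.sum_le_sum fun i _ => ?_
  rw [YY_mul ok W hχ hf i hz]
  nlinarith [sq_nonneg (χ z * YY σ W f i z + 2 * (σ.D i χ z * f z))]

theorem Y2_eq (σ τ : Sl E ι) (W f : E → ℝ) (z : E) : Y2 σ τ W f z = sY2 σ W f z + sY2 τ W f z :=
  rfl

theorem cutY2 (ok : σ.Ok U θ) (ot : τ.Ok U θ) (hχ : Sm U χ) (hf : Sm U f) (hz : z ∈ U) :
    χ z ^ 2 * Y2 σ τ W f z ≤ 2 * Y2 σ τ W (fun z => χ z * f z) z +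
      2 * (f z ^ 2 * (D2 σ χ z + D2 τ χ z)) := by
  have h1 := cutY (W := W) ok hχ hf hz
  have h2 := cutY (W := W) ot hχ hf hz
  rw [Y2_eq, Y2_eq]
  linarith

theorem cutK2 (ok : σ.Ok U θ) (ot : τ.Ok U θ) (hχ : Sm U χ) (hf : Sm U f) (hz : z ∈ U) :
    χ z ^ 2 * K2 σ τ W f z ≤ 2 * K2 σ τ W (fun z => χ z * f z) z +
      2 * (f z ^ 2 * ∑ i, (σ.D i χ z + τ.D i χ z) ^ 2) := by
  unfold K2
  simp only [Finset.mul_sum, ← Finset.sum_add_distrib]
  refine Finset.sum_le_sum fun i _ => ?_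
  rw [Kj_mul ok ot hχ hf i hz]
  unfold gj
  nlinarith [sq_nonneg (χ z * Kj σ τ W f i z + 2 * (f z * (σ.D i χ z + τ.D i χ z)))]

theorem nX_le' (h : El σ z) (W f : E → ℝ) :
    nX σ W f z ≤ 2 * sY2 σ W f z + 16 * (σ.F W z * f z ^ 2) := by
  have h1 : nX σ W f z ≤ 2 * sY2 σ W f z + 8 * (f z ^ 2 * D2 σ W z) := by
    unfold nX Ch.XX sY2 YY D2
    simp only [Finset.mul_sum, ← Finset.sum_add_distrib]
    refine Finset.sum_le_sum fun i _ => ?_
    nlinarith [sq_nonneg (σ.D i f z + f z * σ.D i W z + 2 * (f z * σ.D i W z))]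
  have h2 : D2 σ W z ≤ 2 * σ.F W z := D2_le_G h W
  nlinarith [mul_le_mul_of_nonneg_left h2 (sq_nonneg (f z))]

theorem sY2_half₁ (ok : σ.Ok U θ) (ha : Sm U a) (hb : Sm U b) (hz : z ∈ U) :
    sY2 σ W a z ≤ (sY2 σ W (fun z => a z + b z) z + sY2 σ W (fun z => a z - b z) z) / 2 := by
  unfold sY2
  rw [← Finset.sum_add_distrib, Finset.sum_div]
  refine Finset.sum_le_sum fun i _ => ?_
  rw [YY_add ok ha hb i hz, YY_sub ok ha hb i hz]
  nlinarith [sq_nonneg (YY σ W b i z)]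

theorem sY2_half₂ (ok : σ.Ok U θ) (ha : Sm U a) (hb : Sm U b) (hz : z ∈ U) :
    sY2 σ W b z ≤ (sY2 σ W (fun z => a z + b z) z + sY2 σ W (fun z => a z - b z) z) / 2 := by
  unfold sY2
  rw [← Finset.sum_add_distrib, Finset.sum_div]
  refine Finset.sum_le_sum fun i _ => ?_
  rw [YY_add ok ha hb i hz, YY_sub ok ha hb i hz]
  nlinarith [sq_nonneg (YY σ W a i z)]

theorem nY_le' (ok : σ.Ok U θ) (ot : τ.Ok U θ) (e₁ : El σ z) (e₂ : El τ z) (ha : Sm U a)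
    (hb : Sm U b) (hz : z ∈ U) :
    nY σ τ W a b z ≤ 4 * ((a z - b z) ^ 2 * ∑ i, (σ.D i W z + τ.D i W z) ^ 2) +
      K2 σ τ W (fun z => a z - b z) z + 2 * Y2 σ τ W (fun z => a z + b z) z +
      16 * ((σ.F W z + τ.F W z) * (a z + b z) ^ 2) := by
  have h1 : nY σ τ W a b z ≤ 4 * ((a z - b z) ^ 2 * ∑ i, (σ.D i W z + τ.D i W z) ^ 2) +
      K2 σ τ W (fun z => a z - b z) z +
      (nX σ W (fun z => a z + b z) z + nX τ W (fun z => a z + b z) z) := by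
    unfold nY K2 nX
    simp only [Finset.mul_sum, ← Finset.sum_add_distrib]
    refine Finset.sum_le_sum fun i _ => ?_
    have k := kc_eq (W := W) ok ot ha hb hz i
    have e : Ch.XX σ W a z i - Ch.XX τ W b z i = (σ.D i W z + τ.D i W z) * (a z - b z) -
        Kj σ τ W (fun z => a z - b z) i z / 2 +
        (Ch.XX σ W (fun z => a z + b z) z i - Ch.XX τ W (fun z => a z + b z) z i) / 2 := by
      unfold Kj
      linarith
    rw [e]
    generalize Kj σ τ W (fun z => a z - b z) i z = k₁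
    generalize Ch.XX σ W (fun z => a z + b z) z i = x₁
    generalize Ch.XX τ W (fun z => a z + b z) z i = x₂
    generalize σ.D i W z + τ.D i W z = d
    nlinarith [sq_nonneg (d * (a z - b z) + k₁ / 2), sq_nonneg (d * (a z - b z) - x₁ / 2),
      sq_nonneg (d * (a z - b z) + x₂ / 2), sq_nonneg (k₁ / 2 + x₁ / 2),
      sq_nonneg (k₁ / 2 - x₂ / 2), sq_nonneg (x₁ / 2 + x₂ / 2)]
  have h2 := nX_le' e₁ W fun z => a z + b z
  have h3 := nX_le' e₂ W fun z => a z + b z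
  rw [Y2_eq]
  linarith

/-- The pointwise bound of the margin. -/
theorem HM.pt (H : HM σ τ W χ g₁ hi e f₀ wc Z Cm z) (ok : σ.Ok U θ) (ot : τ.Ok U θ)
    (e₁ : El σ z) (e₂ : El τ z) (hχ : Sm U χ) (ha : Sm U a) (hb : Sm U b) (hz : z ∈ U) :
    χ z ^ 2 * (nX σ W a z + nX τ W b z + g₁ z * nY σ τ W a b z +
        (σ.F W z * a z ^ 2 + τ.F W z * b z ^ 2)) ≤
      25 * Cm * (χ z ^ 2 * (e z * (a z + b z) ^ 2) + χ z ^ 2 * (wc z * (a z - b z) ^ 2)) +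
      6 * (hi z * K2 σ τ W (fun z => χ z * a z - χ z * b z) z +
        Y2 σ τ W (fun z => χ z * a z - χ z * b z) z +
        hi z * Y2 σ τ W (fun z => χ z * a z + χ z * b z) z) +
      6 * (Z z * e z * (a z + b z) ^ 2 + Z z * f₀ z * (a z - b z) ^ 2) := by
  have sp : Sm U fun z => a z + b z := ha.add hb
  have sm : Sm U fun z => a z - b z := ha.sub hb
  have ep : (fun z => χ z * a z + χ z * b z) = fun z => χ z * (a z + b z) := by
    funext z; ring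
  have em : (fun z => χ z * a z - χ z * b z) = fun z => χ z * (a z - b z) := by
    funext z; ring
  rw [ep, em]
  have hx0 := sq_nonneg (χ z)
  have y1 := cutY2 (W := W) ok ot hχ sp hz
  have y2 := cutY2 (W := W) ok ot hχ sm hz
  have y3 := cutK2 (W := W) ok ot hχ sm hz
  have n1 := nX_le' e₁ W a
  have n2 := nX_le' e₂ W b
  have n3 := nY_le' (W := W) ok ot e₁ e₂ ha hb hz
  have s1 := sY2_half₁ (W := W) ok ha hb hz
  have s2 := sY2_half₂ (W := W) ot ha hb hz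
  have yn1 := sY2_nonneg σ W (fun z => a z + b z) z
  have yn2 := sY2_nonneg τ W (fun z => a z + b z) z
  have yn3 := sY2_nonneg σ W (fun z => a z - b z) z
  have yn4 := sY2_nonneg τ W (fun z => a z - b z) z
  have F1 := e₁.F0 W
  have F2 := e₂.F0 W
  have p1 := mul_le_mul_of_nonneg_right H.c1 (sq_nonneg (a z + b z))
  have p2 := mul_le_mul_of_nonneg_right H.c2 (sq_nonneg (a z - b z))
  have p3 := mul_le_mul_of_nonneg_right H.c3 (sq_nonneg (a z - b z))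
  have he := mul_le_mul_of_nonneg_right H.he (sq_nonneg (a z + b z))
  have hw := mul_le_mul_of_nonneg_right H.hw (sq_nonneg (a z - b z))
  have hd := mul_le_mul_of_nonneg_right H.hd (sq_nonneg (a z - b z))
  -- `χ² (F + F') (a + b)² ≤ χ² hi (F + F') (a + b)²`
  have q1 : χ z ^ 2 * ((σ.F W z + τ.F W z) * (a z + b z) ^ 2) ≤
      χ z ^ 2 * hi z * ((σ.F W z + τ.F W z) * (a z + b z) ^ 2) :=
    mul_le_mul_of_nonneg_right H.h1 (mul_nonneg (add_nonneg F1 F2) (sq_nonneg _))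
  have q2 : χ z ^ 2 * g₁ z * ((σ.F W z + τ.F W z) * (a z + b z) ^ 2) ≤
      χ z ^ 2 * hi z * ((σ.F W z + τ.F W z) * (a z + b z) ^ 2) :=
    mul_le_mul_of_nonneg_right H.gi (mul_nonneg (add_nonneg F1 F2) (sq_nonneg _))
  have q3 : χ z ^ 2 * Y2 σ τ W (fun z => a z + b z) z ≤
      χ z ^ 2 * hi z * Y2 σ τ W (fun z => a z + b z) z :=
    mul_le_mul_of_nonneg_right H.h1 (Y2_nonneg σ τ W _ z)
  have q4 : χ z ^ 2 * g₁ z * Y2 σ τ W (fun z => a z + b z) z ≤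
      χ z ^ 2 * hi z * Y2 σ τ W (fun z => a z + b z) z :=
    mul_le_mul_of_nonneg_right H.gi (Y2_nonneg σ τ W _ z)
  have q5 : χ z ^ 2 * g₁ z * K2 σ τ W (fun z => a z - b z) z ≤
      χ z ^ 2 * hi z * K2 σ τ W (fun z => a z - b z) z :=
    mul_le_mul_of_nonneg_right H.gi (K2_nonneg σ τ W _ z)
  have y1' := mul_le_mul_of_nonneg_left y1 H.i0
  have y3' := mul_le_mul_of_nonneg_left y3 H.i0
  -- `F a² + F' b²`
  have f1 : σ.F W z * a z ^ 2 + τ.F W z * b z ^ 2 ≤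
      (σ.F W z + τ.F W z) * (a z + b z) ^ 2 / 2 + (σ.F W z + τ.F W z) * (a z - b z) ^ 2 / 2 := by
    nlinarith [mul_nonneg F1 (sq_nonneg (b z)), mul_nonneg F2 (sq_nonneg (a z))]
  have f1' := mul_le_mul_of_nonneg_left f1 hx0
  have n3' := mul_le_mul_of_nonneg_left n3 (mul_nonneg hx0 H.g0)
  have n12 : nX σ W a z + nX τ W b z ≤ Y2 σ τ W (fun z => a z + b z) z +
      Y2 σ τ W (fun z => a z - b z) z + 16 * (σ.F W z * a z ^ 2 + τ.F W z * b z ^ 2) := by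
    rw [Y2_eq, Y2_eq]
    linarith
  have n12' := mul_le_mul_of_nonneg_left n12 hx0
  have z0 := Y2_nonneg σ τ W (fun z => χ z * (a z - b z)) z
  have z1 := mul_nonneg H.i0 (K2_nonneg σ τ W (fun z => χ z * (a z - b z)) z)
  have r1 : 0 ≤ Cm * (χ z ^ 2 * e z) * (a z + b z) ^ 2 := le_trans (mul_nonneg
    (mul_nonneg hx0 (mul_nonneg H.i0 (add_nonneg F1 F2))) (sq_nonneg _)) he
  have r2 : 0 ≤ Cm * (χ z ^ 2 * wc z) * (a z - b z) ^ 2 := le_trans (mul_nonneg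
    (mul_nonneg hx0 (add_nonneg F1 F2)) (sq_nonneg _)) hw
  have r3 : 0 ≤ Z z * f₀ z * (a z - b z) ^ 2 := le_trans (mul_nonneg
    (add_nonneg (D2_nonneg σ χ z) (D2_nonneg τ χ z)) (sq_nonneg _)) p2
  generalize ∑ i, (σ.D i χ z + τ.D i χ z) ^ 2 = DC at *
  generalize ∑ i, (σ.D i W z + τ.D i W z) ^ 2 = DD at *
  generalize nY σ τ W a b z = ny at *
  generalize nX σ W a z = n1 at *
  generalize nX τ W b z = n2 at *
  generalize Y2 σ τ W (fun z => χ z * (a z - b z)) z = Yc at *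
  generalize Y2 σ τ W (fun z => χ z * (a z + b z)) z = Yb at *
  generalize K2 σ τ W (fun z => χ z * (a z - b z)) z = Kc at *
  generalize Y2 σ τ W (fun z => a z - b z) z = yc at *
  generalize Y2 σ τ W (fun z => a z + b z) z = yb at *
  generalize K2 σ τ W (fun z => a z - b z) z = kc at *
  generalize D2 σ χ z = d1 at *
  generalize D2 τ χ z = d2 at *
  linarith

end pw

variable [MeasureSpace E] [FiniteDimensional ℝ E] [BorelSpace E]
  [(volume : Measure E).IsAddHaarMeasure]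

section integral

variable {σ τ : Sl E ι} {U : Set E} {θ : E → ℝ}
  {v v₁ v₂ W χ ψ om w g g₁ hi e h f₀ wc Z Z' f a b : E → ℝ} {Cm : ℝ}

variable (ok : σ.Ok U θ) (ot : τ.Ok U θ) (el₁ : ∀ z ∈ U, El σ z) (el₂ : ∀ z ∈ U, El τ z)
  (hv₁ : Sm U v₁) (hv₂ : Sm U v₂) (hW : Sm U W) (hχ : Sm U χ) (hψ : Sm U ψ) (hom : Sm U om)
  (hw : Sm U w) (hg : Sm U g) (he : Sm U e) (hh : Sm U h) (hf₀ : Sm U f₀) (hZ : Sm U Z)
  (hZ' : Sm U Z') (H : ∀ z ∈ U, HO σ τ v₁ v₂ W χ ψ om w g e h f₀ Z Z' z)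
  (hg₁ : Sm U g₁) (hhi : Sm U hi) (hwc : Sm U wc)
  (M : ∀ z ∈ U, HM σ τ W χ g₁ hi e f₀ wc Z Cm z) (hCm : 0 ≤ Cm)

include ok ot el₁ el₂ hW hχ hg he hf₀ hZ H hg₁ hhi hwc M hCm in
/-- The margin is controlled by the margin of the curved box. -/
theorem mgM_le (ha : Te U a) (hb : Te U b) :
    In U θ (fun z => χ z ^ 2 * (nX σ W a z + nX τ W b z + g₁ z * nY σ τ W a b z +
        (σ.F W z * a z ^ 2 + τ.F W z * b z ^ 2))) ≤
      25 * Cm * (In U θ (fun z => χ z ^ 2 * (e z * (a z + b z) ^ 2)) +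
        In U θ (fun z => χ z ^ 2 * (wc z * (a z - b z) ^ 2))) +
      6 * Mxf σ τ U θ W hi (fun z => χ z * a z) (fun z => χ z * b z) +
      6 * In U θ (fun z => Z z * un σ τ W g e f₀ a b z) := by
  have hU := ok.op
  have tp : Te U fun z => a z + b z := ha.add hU hb
  have tm : Te U fun z => a z - b z := ha.sub hU hb
  have tu : Te U fun z => Z z * un σ τ W g e f₀ a b z :=
    (tun ok ot hW hg he hf₀ ha hb).mul_left hU hZ
  have t0 : Te U fun z => χ z ^ 2 * (nX σ W a z + nX τ W b z + g₁ z * nY σ τ W a b z +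
        (σ.F W z * a z ^ 2 + τ.F W z * b z ^ 2)) :=
    ((((tnX ok hW ha).add hU (tnX ot hW hb)).add hU
      ((tnY ok ot hW ha hb).mul_left hU hg₁)).add
      hU (((ha.sq hU).mul_left hU (ok.sF hW)).add hU ((hb.sq hU).mul_left hU (ot.sF hW)))).mul_left
      hU (hχ.pow 2)
  have t1 : Te U fun z => χ z ^ 2 * (e z * (a z + b z) ^ 2) :=
    ((tp.sq hU).mul_left hU he).mul_left hU (hχ.pow 2)
  have t2 : Te U fun z => χ z ^ 2 * (wc z * (a z - b z) ^ 2) :=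
    ((tm.sq hU).mul_left hU hwc).mul_left hU (hχ.pow 2)
  have ca : Te U fun z => χ z * a z := ha.mul_left hU hχ
  have cb : Te U fun z => χ z * b z := hb.mul_left hU hχ
  have t3 : Te U fun z => hi z * K2 σ τ W (fun w => χ w * a w - χ w * b w) z :=
    (Te.sum hU _ fun j _ => ((tY ok hW (ca.sub hU cb) j).add hU
      (tY ot hW (ca.sub hU cb) j)).sq hU).mul_left hU hhi
  have t4 : Te U (Y2 σ τ W fun w => χ w * a w - χ w * b w) :=
    (tsY2 ok hW (ca.sub hU cb)).add hU (tsY2 ot hW (ca.sub hU cb))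
  have t5 : Te U fun z => hi z * Y2 σ τ W (fun w => χ w * a w + χ w * b w) z :=
    ((tsY2 ok hW (ca.add hU cb)).add hU (tsY2 ot hW (ca.add hU cb))).mul_left hU hhi
  unfold Mxf Mxt
  rw [← In_add hU ok.ts t1 t2, ← In_add hU ok.ts t3 t4, ← In_add hU ok.ts (t3.add hU t4) t5,
    ← In_cmul, ← In_cmul, ← In_cmul,
    ← In_add hU ok.ts ((t1.add hU t2).cmul hU (25 * Cm)) (((t3.add hU t4).add hU t5).cmul hU 6),
    ← In_add hU ok.ts (((t1.add hU t2).cmul hU (25 * Cm)).add hU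
      (((t3.add hU t4).add hU t5).cmul hU 6)) (tu.cmul hU 6)]
  refine In_mono hU ok.tp ok.ts t0 ((((t1.add hU t2).cmul hU (25 * Cm)).add hU
      (((t3.add hU t4).add hU t5).cmul hU 6)).add hU (tu.cmul hU 6)) fun z hz => ?_
  have key := (M z hz).pt ok ot (el₁ z hz) (el₂ z hz) hχ ha.sm hb.sm hz
  have h := H z hz
  have x1 := mul_nonneg h.Z0 (Q8.nX_nonneg σ W a z)
  have x2 := mul_nonneg h.Z0 (Q8.nX_nonneg τ W b z)
  have x3 := mul_nonneg h.Z0 (mul_nonneg ((el₁ z hz).F0 W) (sq_nonneg (a z)))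
  have x4 := mul_nonneg h.Z0 (mul_nonneg ((el₂ z hz).F0 W) (sq_nonneg (b z)))
  have x5 := mul_nonneg h.Z0 (mul_nonneg h.g0 (Q8.nY_nonneg σ τ W a b z))
  unfold un
  linarith

include ok ot el₁ el₂ hv₁ hv₂ hW hχ hψ hom hw hg he hh hf₀ hZ hZ' H hg₁ hhi hwc M hCm in
/-- **The zone inequality of B1 with the margin `MB`.** -/
theorem zone_MB {Ω K : Set E} (hK : IsClosed K) (hKΩ : K ∩ U ⊆ Ω)
    (h0 : ∀ z ∈ U, z ∉ K → χ z = 0) {F5 : (E → ℝ) → ℝ}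
    {c₀ C C₅ : ℝ} (hc₀ : 0 ≤ c₀) (hC : 0 ≤ C)
    (cb : CB σ τ U Ω θ v₁ v₂ W e h wc (Mxf σ τ U θ W hi) F5 c₀ C)
    (h5 : H5 σ τ U θ v₁ v₂ W χ g e f₀ wc Z Z' (Mxf σ τ U θ W hi) F5 c₀ C C₅) :
    Zone σ τ U θ v₁ v₂ W χ (mgM σ τ W χ g₁ e wc (c₀ / (52 * (1 + Cm))))
      (coO σ τ W g e f₀ Z Z' (1000 * C + C₅ + 1 + c₀)) := by
  intro a b ha hb
  have hU := ok.op
  have key := outM ok ot el₁ el₂ hv₁ hv₂ hW hχ hψ hom hw hg he hh hf₀ hZ hZ' H ha hb hK hKΩ h0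
    hC cb h5
  have mg := mgM_le ok ot el₁ el₂ hW hχ hg he hf₀ hZ H hg₁ hhi hwc M hCm ha hb
  have tp : Te U fun z => a z + b z := ha.add hU hb
  have tm : Te U fun z => a z - b z := ha.sub hU hb
  have t0 : Te U fun z => χ z ^ 2 * (nX σ W a z + nX τ W b z + g₁ z * nY σ τ W a b z +
        (σ.F W z * a z ^ 2 + τ.F W z * b z ^ 2)) :=
    ((((tnX ok hW ha).add hU (tnX ot hW hb)).add hU
      ((tnY ok ot hW ha hb).mul_left hU hg₁)).add
      hU (((ha.sq hU).mul_left hU (ok.sF hW)).add hU ((hb.sq hU).mul_left hU (ot.sF hW)))).mul_left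
      hU (hχ.pow 2)
  have t1 := (tsqd ok ot hv₁ hv₂ hW ha hb).mul_left hU (hχ.pow 2)
  have t2 : Te U fun z => χ z ^ 2 * (e z * (a z + b z) ^ 2) :=
    ((tp.sq hU).mul_left hU he).mul_left hU (hχ.pow 2)
  have t3 : Te U fun z => χ z ^ 2 * (wc z * (a z - b z) ^ 2) :=
    ((tm.sq hU).mul_left hU hwc).mul_left hU (hχ.pow 2)
  have t4 : Te U fun z => Z z * un σ τ W g e f₀ a b z :=
    (tun ok ot hW hg he hf₀ ha hb).mul_left hU hZ
  have t5 : Te U fun z => Z' z * sqd σ τ v₁ v₂ W a b z :=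
    (tsqd ok ot hv₁ hv₂ hW ha hb).mul_left hU hZ'
  have e1 : In U θ ((mgM σ τ W χ g₁ e wc (c₀ / (52 * (1 + Cm)))).dens σ τ v₁ v₂ W a b) =
      c₀ / (52 * (1 + Cm)) * (In U θ (fun z => χ z ^ 2 * sqd σ τ v₁ v₂ W a b z) +
        In U θ (fun z => χ z ^ 2 * (e z * (a z + b z) ^ 2)) +
        In U θ (fun z => χ z ^ 2 * (wc z * (a z - b z) ^ 2)) +
        In U θ (fun z => χ z ^ 2 * (nX σ W a z + nX τ W b z + g₁ z * nY σ τ W a b z +
        (σ.F W z * a z ^ 2 + τ.F W z * b z ^ 2)))) := by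
    rw [← In_add hU ok.ts t1 t2, ← In_add hU ok.ts (t1.add hU t2) t3,
      ← In_add hU ok.ts ((t1.add hU t2).add hU t3) t0, ← In_cmul]
    refine In_congr hU fun z _ => ?_
    unfold Q8.dens mgM
    simp only
    ring
  have e2 : In U θ ((coO σ τ W g e f₀ Z Z' (1000 * C + C₅ + 1 + c₀)).dens σ τ v₁ v₂ W a b) =
      (1000 * C + C₅ + 1 + c₀) * (In U θ (fun z => Z z * un σ τ W g e f₀ a b z) +
        In U θ (fun z => Z' z * sqd σ τ v₁ v₂ W a b z)) := by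
    rw [← In_add hU ok.ts t4 t5, ← In_cmul]
    refine In_congr hU fun z _ => ?_
    unfold Q8.dens coO un
    simp only
    ring
  rw [e1, e2]
  have N1 : 0 ≤ In U θ (fun z => χ z ^ 2 * sqd σ τ v₁ v₂ W a b z) :=
    In_nonneg hU ok.tp fun z hz => mul_nonneg (sq_nonneg _) (sqd_nonneg σ τ v₁ v₂ W a b z)
  have N4 : 0 ≤ In U θ (fun z => Z' z * sqd σ τ v₁ v₂ W a b z) := In_nonneg hU ok.tp fun z hz =>
    mul_nonneg (H z hz).z0 (sqd_nonneg σ τ v₁ v₂ W a b z)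
  have N5 : 0 ≤ In U θ (fun z => Z z * un σ τ W g e f₀ a b z) :=
    In_nonneg hU ok.tp fun z hz => by
      have h := H z hz
      refine mul_nonneg h.Z0 ?_
      have x1 := Q8.nX_nonneg σ W a z
      have x2 := Q8.nX_nonneg τ W b z
      have x3 := mul_nonneg ((el₁ z hz).F0 W) (sq_nonneg (a z))
      have x4 := mul_nonneg ((el₂ z hz).F0 W) (sq_nonneg (b z))
      have x5 := mul_nonneg h.g0 (Q8.nY_nonneg σ τ W a b z)
      have x6 := mul_nonneg h.e0 (sq_nonneg (a z + b z))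
      have x7 := mul_nonneg h.f0 (sq_nonneg (a z - b z))
      unfold un
      linarith
  have N6 : 0 ≤ Mxf σ τ U θ W hi (fun z => χ z * a z) fun z => χ z * b z := by
    unfold Mxf Mxt
    refine add_nonneg (add_nonneg (In_nonneg hU ok.tp fun z hz => ?_)
      (In_nonneg hU ok.tp fun z hz => Y2_nonneg σ τ W _ z)) (In_nonneg hU ok.tp fun z hz => ?_)
    · exact mul_nonneg (M z hz).i0 (K2_nonneg σ τ W _ z)
    · exact mul_nonneg (M z hz).i0 (Y2_nonneg σ τ W _ z)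
  have N2 : 0 ≤ In U θ (fun z => χ z ^ 2 * (e z * (a z + b z) ^ 2)) :=
    In_nonneg hU ok.tp fun z hz =>
      mul_nonneg (sq_nonneg _) (mul_nonneg (H z hz).e0 (sq_nonneg _))
  have N3 : 0 ≤ In U θ (fun z => χ z ^ 2 * (wc z * (a z - b z) ^ 2)) :=
    In_nonneg hU ok.tp fun z hz =>
      mul_nonneg (sq_nonneg _) (mul_nonneg (M z hz).w0 (sq_nonneg _))
  generalize In U θ (fun z => χ z ^ 2 * sqd σ τ v₁ v₂ W a b z) = A1 at *
  generalize In U θ (fun z => χ z ^ 2 * (e z * (a z + b z) ^ 2)) = A2 at *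
  generalize In U θ (fun z => χ z ^ 2 * (wc z * (a z - b z) ^ 2)) = A3 at *
  generalize Mxf σ τ U θ W hi (fun z => χ z * a z) (fun z => χ z * b z) = A4 at *
  generalize In U θ (fun z => Z z * un σ τ W g e f₀ a b z) = B1 at *
  generalize In U θ (fun z => Z' z * sqd σ τ v₁ v₂ W a b z) = B2 at *
  generalize In U θ (fun z => χ z ^ 2 * (nX σ W a z + nX τ W b z + g₁ z * nY σ τ W a b z +
        (σ.F W z * a z ^ 2 + τ.F W z * b z ^ 2))) = A0 at *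
  have hp : 0 < 52 * (1 + Cm) := by positivity
  have h1 : A1 + A2 + A3 + A0 ≤ 26 * (1 + Cm) * (A1 + A2 + A3 + A4) + 6 * B1 := by
    nlinarith [mul_nonneg hCm N1, mul_nonneg hCm N6]
  have h2 : c₀ / (52 * (1 + Cm)) * (A1 + A2 + A3 + A0) ≤
      c₀ / 2 * (A1 + A2 + A3 + A4) + c₀ * B1 := by
    have h3 : 0 ≤ c₀ / (52 * (1 + Cm)) := div_nonneg hc₀ hp.le
    have h4 := mul_le_mul_of_nonneg_left h1 h3
    have h5 : c₀ / (52 * (1 + Cm)) * (26 * (1 + Cm) * (A1 + A2 + A3 + A4) + 6 * B1) =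
        c₀ / 2 * (A1 + A2 + A3 + A4) + c₀ / (52 * (1 + Cm)) * 6 * B1 := by
      field_simp
      ring
    have h6 : c₀ / (52 * (1 + Cm)) * 6 ≤ c₀ := by
      rw [div_mul_eq_mul_div, div_le_iff₀ hp]
      nlinarith [mul_nonneg hc₀ hCm]
    have h7 := mul_le_mul_of_nonneg_right h6 N5
    linarith
  have h8 := mul_nonneg hc₀ N4
  linarith

end integral

end Vale.Agent.P088.R2.H516.O
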