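import Vale.Agent.P088.R2.H516.O.Out2
import Vale.Agent.P088.R2.H676.F.Df

/-!
# Zone B1, outer cut-off: the raw energies of `a - b`
-/

open MeasureTheory Set Filter
open scoped ContDiff Topology

noncomputable section

namespace Vale.Agent.P088.R2.H516.O

open Vale.Agent.P088.R2.H961.GW Vale.Agent.P088.R2.H644 Vale.Agent.P088.R2.H960.W
  Vale.Agent.P088.R2.H747.S Vale.Agent.P088.R2.H551.E Vale.Agent.P088.R2.H86.Z
  Vale.Agent.P088.R2.H676.F

variable {E ι : Type*} [NormedAddCommGroup E] [NormedSpace ℝ E] [Fintype ι]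

variable [MeasureSpace E] [FiniteDimensional ℝ E] [BorelSpace E]
  [(volume : Measure E).IsAddHaarMeasure]

section integral

variable {σ τ : Sl E ι} {U : Set E} {θ : E → ℝ}
  {v v₁ v₂ W χ ψ om w g e h f₀ Z Z' wc f q ρ a b : E → ℝ}

variable (ok : σ.Ok U θ) (ot : τ.Ok U θ) (el₁ : ∀ z ∈ U, El σ z) (el₂ : ∀ z ∈ U, El τ z)
  (hv₁ : Sm U v₁) (hv₂ : Sm U v₂) (hW : Sm U W) (hψ : Sm U ψ) (hom : Sm U om)
  (hw : Sm U w) (hg : Sm U g) (he : Sm U e) (hf₀ : Sm U f₀) (hZ : Sm U Z)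
  (hZ' : Sm U Z') (H : ∀ z ∈ U, HO σ τ v₁ v₂ W χ ψ om w g e h f₀ Z Z' z)
  (ha : Te U a) (hb : Te U b)

include ok ot el₁ el₂ hv₁ hv₂ hW hψ hw he hZ hZ' H ha hb in
/-- The energies of `a + b`. -/
theorem enb : In U θ (fun z => ψ z ^ 2 * (D2 σ (fun z => a z + b z) z +
      D2 τ (fun z => a z + b z) z)) ≤
    4 * In U θ (fun z => Z' z * sqd σ τ v₁ v₂ W a b z) +
      6 * In U θ (fun z => Z z * e z * (a z + b z) ^ 2) :=
  enf (a := a) (b := b) (f := fun z => a z + b z) ok ot el₁ el₂ hv₁ hv₂ hW hψ (ha.add ok.op hb) hw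
    (fun z hz => (H z hz).w0) (hZ.mul he) hZ' ha hb (fun z hz => (H z hz).b1)
    (fun z hz => (H z hz).b2) (fun z hz => (H z hz).k1)
    fun z hz => sq_add ok ot v₁ v₂ hW ha.sm hb.sm hz

include ok ot el₁ el₂ hv₁ hv₂ hW hom hw hf₀ hZ hZ' H ha hb in
/-- The energies of `a - b`. -/
theorem enc : In U θ (fun z => om z ^ 2 * (D2 σ (fun z => a z - b z) z +
      D2 τ (fun z => a z - b z) z)) ≤
    4 * In U θ (fun z => Z' z * sqd σ τ v₁ v₂ W a b z) +
      6 * In U θ (fun z => Z z * f₀ z * (a z - b z) ^ 2) :=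
  enf (a := a) (b := b) (f := fun z => a z - b z) ok ot el₁ el₂ hv₁ hv₂ hW hom (ha.sub ok.op hb) hw
    (fun z hz => (H z hz).w0) (hZ.mul hf₀) hZ' ha hb (fun z hz => (H z hz).c1)
    (fun z hz => (H z hz).c2) (fun z hz => (H z hz).k2)
    fun z hz => sq_sub ok ot v₁ v₂ hW ha.sm hb.sm hz

include ok ot el₁ el₂ hW hg he hf₀ hZ H ha hb in
/-- The unit density dominates. -/
theorem unl : In U θ (fun z => Z z * e z * (a z + b z) ^ 2) +
      In U θ (fun z => Z z * (g z * nY σ τ W a b z)) +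
      In U θ (fun z => Z z * f₀ z * (a z - b z) ^ 2) ≤
      In U θ (fun z => Z z * un σ τ W g e f₀ a b z) := by
  have hU := ok.op
  have tp : Te U fun z => a z + b z := ha.add hU hb
  have tm : Te U fun z => a z - b z := ha.sub hU hb
  have ze : Te U fun z => Z z * e z * (a z + b z) ^ 2 := (tp.sq hU).mul_left hU (hZ.mul he)
  have zf : Te U fun z => Z z * f₀ z * (a z - b z) ^ 2 := (tm.sq hU).mul_left hU (hZ.mul hf₀)
  have zy : Te U fun z => Z z * (g z * nY σ τ W a b z) :=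
    ((tnY ok ot hW ha hb).mul_left hU hg).mul_left hU hZ
  have tu : Te U fun z => Z z * un σ τ W g e f₀ a b z :=
    (tun ok ot hW hg he hf₀ ha hb).mul_left hU hZ
  rw [← In_add hU ok.ts ze zy, ← In_add hU ok.ts (ze.add hU zy) zf]
  refine In_mono hU ok.tp ok.ts ((ze.add hU zy).add hU zf) tu fun z hz => ?_
  have h := H z hz
  have x1 := mul_nonneg h.Z0 (Q8.nX_nonneg σ W a z)
  have x2 := mul_nonneg h.Z0 (Q8.nX_nonneg τ W b z)
  have x3 := mul_nonneg h.Z0 (mul_nonneg ((el₁ z hz).F0 W) (sq_nonneg (a z)))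
  have x4 := mul_nonneg h.Z0 (mul_nonneg ((el₂ z hz).F0 W) (sq_nonneg (b z)))
  unfold un
  linarith

include ok H in
/-- Signs. -/
theorem unl0 (a b : E → ℝ) : 0 ≤ In U θ (fun z => Z z * e z * (a z + b z) ^ 2) ∧
    0 ≤ In U θ (fun z => Z z * (g z * nY σ τ W a b z)) ∧
    0 ≤ In U θ (fun z => Z z * f₀ z * (a z - b z) ^ 2) ∧
    0 ≤ In U θ (fun z => Z' z * sqd σ τ v₁ v₂ W a b z) := by
  have hU := ok.op
  exact ⟨In_nonneg hU ok.tp fun z hz =>
      mul_nonneg (mul_nonneg (H z hz).Z0 (H z hz).e0) (sq_nonneg _),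
    In_nonneg hU ok.tp fun z hz =>
      mul_nonneg (H z hz).Z0 (mul_nonneg (H z hz).g0 (Q8.nY_nonneg σ τ W a b z)),
    In_nonneg hU ok.tp fun z hz =>
      mul_nonneg (mul_nonneg (H z hz).Z0 (H z hz).f0) (sq_nonneg _),
    In_nonneg hU ok.tp fun z hz => mul_nonneg (H z hz).z0 (sqd_nonneg σ τ v₁ v₂ W a b z)⟩

include ok ot el₁ el₂ hv₁ hv₂ hW hψ hw hg he hf₀ hZ hZ' H ha hb in
/-- `∫ ψ² |K (a - b)|²`. -/
theorem payK : In U θ (fun z => ψ z ^ 2 * K2 σ τ W (fun z => a z - b z) z) ≤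
    56 * (In U θ (fun z => Z z * un σ τ W g e f₀ a b z) +
      In U θ (fun z => Z' z * sqd σ τ v₁ v₂ W a b z)) := by
  have hU := ok.op
  have tp : Te U fun z => a z + b z := ha.add hU hb
  have tm : Te U fun z => a z - b z := ha.sub hU hb
  have ze : Te U fun z => Z z * e z * (a z + b z) ^ 2 := (tp.sq hU).mul_left hU (hZ.mul he)
  have zf : Te U fun z => Z z * f₀ z * (a z - b z) ^ 2 := (tm.sq hU).mul_left hU (hZ.mul hf₀)
  have zy : Te U fun z => Z z * (g z * nY σ τ W a b z) :=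
    ((tnY ok ot hW ha hb).mul_left hU hg).mul_left hU hZ
  have dp1 : Te U fun z => ψ z ^ 2 * (D2 σ (fun z => a z + b z) z +
      D2 τ (fun z => a z + b z) z) :=
    ((tD2 ok tp).add hU (tD2 ot tp)).mul_left hU (hψ.pow 2)
  have tK : Te U fun z => ψ z ^ 2 * K2 σ τ W (fun z => a z - b z) z :=
    (Te.sum hU _ fun j _ => ((tY ok hW tm j).add hU (tY ot hW tm j)).sq hU).mul_left hU
      (hψ.pow 2)
  have J1 := enb ok ot el₁ el₂ hv₁ hv₂ hW hψ hw he hZ hZ' H ha hb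
  have U1 := unl ok ot el₁ el₂ hW hg he hf₀ hZ H ha hb
  obtain ⟨N1, N2, N3, N4⟩ := unl0 ok H a b
  have I1 : In U θ (fun z => ψ z ^ 2 * K2 σ τ W (fun z => a z - b z) z) ≤
      16 * In U θ (fun z => Z z * f₀ z * (a z - b z) ^ 2) +
      16 * In U θ (fun z => Z z * (g z * nY σ τ W a b z)) +
      8 * In U θ (fun z => ψ z ^ 2 * (D2 σ (fun z => a z + b z) z +
        D2 τ (fun z => a z + b z) z)) + 8 * In U θ (fun z => Z z * e z * (a z + b z) ^ 2) := by
    rw [← In_cmul, ← In_cmul, ← In_cmul, ← In_cmul,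
      ← In_add hU ok.ts (zf.cmul hU 16) (zy.cmul hU 16),
      ← In_add hU ok.ts ((zf.cmul hU 16).add hU (zy.cmul hU 16)) (dp1.cmul hU 8),
      ← In_add hU ok.ts (((zf.cmul hU 16).add hU (zy.cmul hU 16)).add hU (dp1.cmul hU 8))
        (ze.cmul hU 8)]
    refine In_mono hU ok.tp ok.ts tK ((((zf.cmul hU 16).add hU (zy.cmul hU 16)).add hU
      (dp1.cmul hU 8)).add hU (ze.cmul hU 8)) fun z hz => ?_
    have h := H z hz
    have hψ0 := sq_nonneg (ψ z)
    have hss := mul_le_mul_of_nonneg_left (sum_K (W := W) ok ot ha.sm hb.sm hz) hψ0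
    have x1 := mul_le_mul_of_nonneg_left (nX_le (el₁ z hz) W fun z => a z + b z) hψ0
    have x2 := mul_le_mul_of_nonneg_left (nX_le (el₂ z hz) W fun z => a z + b z) hψ0
    have p1 := mul_le_mul_of_nonneg_right (h.pF (el₁ z hz)).1 (sq_nonneg (a z + b z))
    have p2 := mul_le_mul_of_nonneg_right (h.pF' (el₂ z hz)) (sq_nonneg (a z + b z))
    have p3 := mul_le_mul_of_nonneg_right h.kk (sq_nonneg (a z - b z))
    have p4 := mul_le_mul_of_nonneg_right h.gg (Q8.nY_nonneg σ τ W a b z)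
    change ψ z ^ 2 * ∑ j, (YY σ W (fun z => a z - b z) j z + YY τ W (fun z => a z - b z) j z) ^ 2 ≤
      _
    generalize ∑ j, (YY σ W (fun z => a z - b z) j z + YY τ W (fun z => a z - b z) j z) ^ 2 = Y
      at *
    generalize ∑ i, (σ.D i W z + τ.D i W z) ^ 2 = DD at *
    generalize nY σ τ W a b z = ny at *
    generalize nX σ W (fun z => a z + b z) z = n1 at *
    generalize nX τ W (fun z => a z + b z) z = n2 at *
    generalize D2 σ (fun z => a z + b z) z = d1 at *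
    generalize D2 τ (fun z => a z + b z) z = d2 at *
    linarith
  linarith

include ok ot el₁ el₂ hv₁ hv₂ hW hom hw hg he hf₀ hZ hZ' H ha hb in
/-- `∫ om² |Y (a - b)|²`. -/
theorem payY : In U θ (fun z => om z ^ 2 * Y2 σ τ W (fun z => a z - b z) z) ≤
    28 * (In U θ (fun z => Z z * un σ τ W g e f₀ a b z) +
      In U θ (fun z => Z' z * sqd σ τ v₁ v₂ W a b z)) := by
  have hU := ok.op
  have tm : Te U fun z => a z - b z := ha.sub hU hb
  have zf : Te U fun z => Z z * f₀ z * (a z - b z) ^ 2 := (tm.sq hU).mul_left hU (hZ.mul hf₀)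
  have dm1 : Te U fun z => om z ^ 2 * (D2 σ (fun z => a z - b z) z +
      D2 τ (fun z => a z - b z) z) :=
    ((tD2 ok tm).add hU (tD2 ot tm)).mul_left hU (hom.pow 2)
  have tY2 : Te U fun z => om z ^ 2 * Y2 σ τ W (fun z => a z - b z) z :=
    ((tsY2 ok hW tm).add hU (tsY2 ot hW tm)).mul_left hU (hom.pow 2)
  have J2 := enc ok ot el₁ el₂ hv₁ hv₂ hW hom hw hf₀ hZ hZ' H ha hb
  have U1 := unl ok ot el₁ el₂ hW hg he hf₀ hZ H ha hb
  obtain ⟨N1, N2, N3, N4⟩ := unl0 ok H a b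
  have I1 : In U θ (fun z => om z ^ 2 * Y2 σ τ W (fun z => a z - b z) z) ≤
      2 * In U θ (fun z => om z ^ 2 * (D2 σ (fun z => a z - b z) z +
        D2 τ (fun z => a z - b z) z)) + 2 * In U θ (fun z => Z z * f₀ z * (a z - b z) ^ 2) := by
    rw [← In_cmul, ← In_cmul, ← In_add hU ok.ts (dm1.cmul hU 2) (zf.cmul hU 2)]
    refine In_mono hU ok.tp ok.ts tY2 ((dm1.cmul hU 2).add hU (zf.cmul hU 2)) fun z hz => ?_
    have h := H z hz
    have y1 := mul_le_mul_of_nonneg_left (sY2_le (el₁ z hz) W fun z => a z - b z)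
      (sq_nonneg (om z))
    have y2 := mul_le_mul_of_nonneg_left (sY2_le (el₂ z hz) W fun z => a z - b z)
      (sq_nonneg (om z))
    have p1 := mul_le_mul_of_nonneg_right (h.oF (el₁ z hz)) (sq_nonneg (a z - b z))
    have p2 := mul_le_mul_of_nonneg_right (h.oF' (el₂ z hz)) (sq_nonneg (a z - b z))
    unfold Y2
    change om z ^ 2 * (sY2 σ W (fun z => a z - b z) z + sY2 τ W (fun z => a z - b z) z) ≤ _
    linarith
  linarith

end integral

end Vale.Agent.P088.R2.H516.O
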