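import Vale.Agent.P088.R2.H551.E.Cur
import Vale.Agent.P088.R2.H86.Z.Abs

/-!
# P088, stage 3, zone B1: the curved box and the outer cut-off (statements)

`Sp = (P₁ + P₂) / 2`, `Rp = (P₁ - P₂) / 2`.  The *curved box* `CB`: an inequality for test functions
supported in the open zone `Ω`, with arbitrary `s₁, …, s₄` in the places of `Sp (a + b)`,
`Rp (a + b)`, `Sp (a - b)`, `Rp (a - b)`, with an abstract additional margin `Mx a b` and an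
abstract fifth cost `F5 (a - b)`.
-/

open MeasureTheory Set Filter
open scoped ContDiff Topology

noncomputable section

namespace Vale.Agent.P088.R2.H516.O

open Vale.Agent.P088.R2.H961.GW Vale.Agent.P088.R2.H644 Vale.Agent.P088.R2.H960.W
  Vale.Agent.P088.R2.H747.S Vale.Agent.P088.R2.H551.E Vale.Agent.P088.R2.H86.Z

variable {E ι : Type*} [NormedAddCommGroup E] [NormedSpace ℝ E] [Fintype ι]

/-- `(P₁ + P₂) / 2`. -/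
def Sp (σ τ : Sl E ι) (v₁ v₂ W f : E → ℝ) (z : E) : ℝ := (σ.P v₁ W f z + τ.P v₂ W f z) / 2

/-- `(P₁ - P₂) / 2`. -/
def Rp (σ τ : Sl E ι) (v₁ v₂ W f : E → ℝ) (z : E) : ℝ := (σ.P v₁ W f z - τ.P v₂ W f z) / 2

/-- The unit density:
`|X a|² + |X b|² + g |X a - X b|² + F a² + F' b² + e (a + b)² + f₀ (a - b)²`. -/
def un (σ τ : Sl E ι) (W g e f₀ a b : E → ℝ) (z : E) : ℝ :=
  nX σ W a z + nX τ W b z + g z * nY σ τ W a b z +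
    (σ.F W z * a z ^ 2 + τ.F W z * b z ^ 2) + e z * (a z + b z) ^ 2 + f₀ z * (a z - b z) ^ 2

/-- The star density at a point. -/
def sf (σ τ : Sl E ι) (v₁ v₂ W : E → ℝ) (z : E) (A B : ι → ℝ) (x y : ℝ) : ℝ :=
  8 * Ch.TH σ τ W z A B + qf σ τ v₁ v₂ W z A B x y

/-- The pointwise hypotheses of the outer cut-off `χ`; `ψ`, `om` are smooth majorants of `|D χ|` and
of `h^{1/2} |D χ|`, `f₀` the weight of `(a - b)²`, `w` is the weight of the energies, `Z`, `Z'` the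
small factors. -/
structure HO (σ τ : Sl E ι) (v₁ v₂ W χ ψ om w g e h f₀ Z Z' : E → ℝ) (z : E) : Prop where
  /-- signs -/
  w0 : 0 < w z
  h0 : 0 ≤ h z
  g0 : 0 ≤ g z
  e0 : 0 ≤ e z
  Z0 : 0 ≤ Z z
  z0 : 0 ≤ Z' z
  f0 : 0 ≤ f₀ z
  /-- the cut-off -/
  d1 : ∑ i, σ.D i χ z ^ 2 ≤ ψ z ^ 2
  d2 : ∑ i, τ.D i χ z ^ 2 ≤ ψ z ^ 2
  l1 : σ.Λ χ z ^ 2 + τ.Λ χ z ^ 2 ≤ Z z * e z
  l2 : h z * (σ.Λ χ z ^ 2 + τ.Λ χ z ^ 2) ≤ Z z * f₀ z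
  l3 : (σ.Λ χ z - τ.Λ χ z) ^ 2 ≤ Z z * f₀ z
  hw : h z * ψ z ^ 2 ≤ om z ^ 2
  od : ∑ i, (Ch.Gr σ χ i z + Ch.Gr τ χ i z) ^ 2 ≤ om z ^ 2
  gg : ψ z ^ 2 ≤ Z z * g z
  kk : ψ z ^ 2 * ∑ i, (σ.D i W z + τ.D i W z) ^ 2 ≤ Z z * f₀ z
  /-- the energies of `a + b` -/
  b1 : w z * ψ z ^ 2 + 4 * σ.Γ ψ ψ z + 2 * ψ z ^ 2 * |v₁ z| + 4 * ψ z ^ 2 * σ.F W z ≤ Z z * e z
  b2 : w z * ψ z ^ 2 + 4 * τ.Γ ψ ψ z + 2 * ψ z ^ 2 * |v₂ z| + 4 * ψ z ^ 2 * τ.F W z ≤ Z z * e z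
  /-- the energies of `a - b` -/
  c1 : w z * om z ^ 2 + 4 * σ.Γ om om z + 2 * om z ^ 2 * |v₁ z| + 4 * om z ^ 2 * σ.F W z ≤
    Z z * f₀ z
  c2 : w z * om z ^ 2 + 4 * τ.Γ om om z + 2 * om z ^ 2 * |v₂ z| + 4 * om z ^ 2 * τ.F W z ≤
    Z z * f₀ z
  /-- the squares -/
  k1 : ψ z ^ 2 ≤ Z' z * w z
  k2 : om z ^ 2 ≤ Z' z * w z
  /-- the star density -/
  cr : ∀ (A B : ι → ℝ) (x y : ℝ),
    |sf σ τ v₁ v₂ W z (fun i => χ z * A i - x * σ.D i χ z) (fun i => χ z * B i - y * τ.D i χ z)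
        (χ z * x) (χ z * y) - χ z ^ 2 * sf σ τ v₁ v₂ W z A B x y| ≤
    Z z * ((∑ i, A i ^ 2) + (∑ i, B i ^ 2) + g z * (∑ i, (A i - B i) ^ 2) +
      (σ.F W z * x ^ 2 + τ.F W z * y ^ 2) + e z * (x + y) ^ 2 + f₀ z * (x - y) ^ 2)

variable [MeasureSpace E]

/-- `∑ ∫ s_i²`. -/
def S4 (U : Set E) (θ s₁ s₂ s₃ s₄ : E → ℝ) : ℝ :=
  In U θ (fun z => s₁ z ^ 2) + In U θ (fun z => s₂ z ^ 2) +
    (In U θ (fun z => s₃ z ^ 2) + In U θ (fun z => s₄ z ^ 2))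

/-- The four costs of the curved box. -/
def CC (σ τ : Sl E ι) (U : Set E) (θ v₁ v₂ W h a b s₁ s₂ s₃ s₄ : E → ℝ) : ℝ :=
  In U θ (fun z => (Sp σ τ v₁ v₂ W (fun z => a z + b z) z - s₁ z) ^ 2) +
    In U θ (fun z => (Rp σ τ v₁ v₂ W (fun z => a z + b z) z - s₂ z) ^ 2) +
    In U θ (fun z => h z * (Sp σ τ v₁ v₂ W (fun z => a z - b z) z - s₃ z) ^ 2) +
    In U θ (fun z => (Rp σ τ v₁ v₂ W (fun z => a z - b z) z - s₄ z) ^ 2)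

/-- **The curved box.** -/
def CB (σ τ : Sl E ι) (U Ω : Set E) (θ v₁ v₂ W e h wc : E → ℝ) (Mx : (E → ℝ) → (E → ℝ) → ℝ)
    (F5 : (E → ℝ) → ℝ) (c₀ C : ℝ) : Prop :=
  ∀ a b s₁ s₂ s₃ s₄ : E → ℝ, Te Ω a → Te Ω b → Te Ω s₁ → Te Ω s₂ → Te Ω s₃ → Te Ω s₄ →
    c₀ * (S4 U θ s₁ s₂ s₃ s₄ + In U θ (fun z => e z * (a z + b z) ^ 2) +
      In U θ (fun z => wc z * (a z - b z) ^ 2) + Mx a b) ≤
    S4 U θ s₁ s₂ s₃ s₄ + In U θ (sta σ τ v₁ v₂ W a b) +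
      C * (CC σ τ U θ v₁ v₂ W h a b s₁ s₂ s₃ s₄ + F5 fun z => a z - b z)

/-- The hypothesis on the fifth cost (`f = a - b` is not cut in the squares). -/
def H5 (σ τ : Sl E ι) (U : Set E) (θ v₁ v₂ W χ g e f₀ wc Z Z' : E → ℝ)
    (Mx : (E → ℝ) → (E → ℝ) → ℝ) (F5 : (E → ℝ) → ℝ) (c₀ C C₅ : ℝ) : Prop :=
  ∀ a b : E → ℝ, Te U a → Te U b →
    C * F5 (fun z => χ z * a z - χ z * b z) ≤
      c₀ / 2 * (In U θ (fun z => χ z ^ 2 * sqd σ τ v₁ v₂ W a b z) +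
        In U θ (fun z => χ z ^ 2 * (e z * (a z + b z) ^ 2)) +
        In U θ (fun z => χ z ^ 2 * (wc z * (a z - b z) ^ 2)) +
        Mx (fun z => χ z * a z) fun z => χ z * b z) +
      C₅ * (In U θ (fun z => Z z * un σ τ W g e f₀ a b z) +
        In U θ (fun z => Z' z * sqd σ τ v₁ v₂ W a b z))

end Vale.Agent.P088.R2.H516.O
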