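import Vale.Agent.P088.R2.H516.O.Out3

/-!
# Zone B1: the bounds of the weight at a point of the core

`e = e^u`, `r` the distance to the diagonal, `N = Φ'(u)`.  All bounds hold with the scale
`r + N / e` in the place of `r`.
-/

open Set Filter
open scoped ContDiff Topology

noncomputable section

namespace Vale.Agent.P088.R2.H516.O

open Vale.Agent.P088.R2.H961.GW Vale.Agent.P088.R2.H644 Vale.Agent.P088.R2.H960.W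
  Vale.Agent.P088.R2.H747.S Vale.Agent.P088.R2.H551.E Vale.Agent.P088.R2.H86.Z

variable {E ι : Type*} [NormedAddCommGroup E] [NormedSpace ℝ E] [Fintype ι]

/-- The bounds of the tensors and of the weight at a point. -/
structure WB (σ τ : Sl E ι) (W : E → ℝ) (C e r N : ℝ) (z : E) : Prop where
  s1 : ∀ i j, |σ.s i j z| ≤ 2
  s2 : ∀ i j, |τ.s i j z| ≤ 2
  sd : ∀ i j, e * |σ.s i j z - τ.s i j z| ≤ C * (e * r + N)
  t1 : ∀ l i j, |σ.D l (σ.s i j) z| ≤ C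
  t2 : ∀ l i j, |τ.D l (τ.s i j) z| ≤ C
  td : ∀ l i j, e * |σ.D l (σ.s i j) z - τ.D l (τ.s i j) z| ≤ C * (e * r + N)
  w1 : ∀ i, |σ.D i W z| ≤ C * (e * r + N)
  w2 : ∀ i, |τ.D i W z| ≤ C * (e * r + N)
  wp : ∀ i, |σ.D i W z + τ.D i W z| ≤ C * (e * r ^ 2 + N)
  h1 : ∀ i j, |σ.D i (σ.D j W) z| ≤ C * e
  h2 : ∀ i j, |τ.D i (τ.D j W) z| ≤ C * e
  hm : ∀ i j, |σ.D i (τ.D j W) z| ≤ C * e
  p1 : ∀ i j, |σ.D i (σ.D j W) z + σ.D i (τ.D j W) z| ≤ C * (e * r + N)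
  p2 : ∀ i j, |τ.D i (σ.D j W) z + τ.D i (τ.D j W) z| ≤ C * (e * r + N)
  pp : ∀ i j, |(σ.D i (σ.D j W) z + σ.D i (τ.D j W) z) +
    (τ.D i (σ.D j W) z + τ.D i (τ.D j W) z)| ≤ C * (e * r ^ 2 + N)
  l11 : ∀ i, |σ.D i (σ.Λ W) z| ≤ C * e
  l12 : ∀ i, |σ.D i (τ.Λ W) z| ≤ C * e
  l21 : ∀ i, |τ.D i (σ.Λ W) z| ≤ C * e
  l22 : ∀ i, |τ.D i (τ.Λ W) z| ≤ C * e
  lp : ∀ i, |(σ.D i (σ.Λ W) z + τ.D i (σ.Λ W) z) - (σ.D i (τ.Λ W) z + τ.D i (τ.Λ W) z)| ≤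
    C * (e * r + N)

end Vale.Agent.P088.R2.H516.O
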